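import Vale.Agent.P224.R2.H686.RowQ
import Vale.Agent.P224.R2.H662.C4d

/-!
The data of the rows from the least squares diagonal matrix in an orthonormal basis.
-/

namespace Vale.Agent.P224.R2.H686

open MeasureTheory Module Function Set Vale.Agent.P224.R2.H470 Vale.Agent.P224.R2.H728
  Vale.Agent.P224.R2.H662
open scoped RealInnerProductSpace Topology ContDiff

set_option linter.unusedSectionVars false

section

variable {X : Type*} {E : Type*} [NormedAddCommGroup E] [InnerProductSpace ℝ E]
  [FiniteDimensional ℝ E] [TopologicalSpace X] [MeasurableSpace X] [CompactSpace X] [BorelSpace X]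
  {μ : Measure X} [IsProbabilityMeasure μ] {m : ℕ} {p n : X → E} {ι : Type*} [Fintype ι]
  [DecidableEq ι]

lemma dop_coord (b : OrthonormalBasis ι ℝ E) (j : ι → ℝ) (u : E) (a : ι) :
    ⟪dop b j u, b a⟫ = j a * ⟪u, b a⟫ := by
  rw [dop_inner, Finset.sum_eq_single a]
  · rw [b.inner_eq_one]
    ring
  · intro c _ hc
    rw [b.inner_eq_zero hc.symm]
    ring
  · exact fun h => absurd (Finset.mem_univ a) h

lemma z_coord (b : OrthonormalBasis ι ℝ E) (j : ι → ℝ) (x : X) (a : ι) :
    ⟪n x - dop b j (p x), b a⟫ = ze (Matrix.diagonal j) (cob b p) (cob b n) a x := by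
  rw [inner_sub_left, dop_coord]
  exact (congrFun (congrFun (ze_diag (x := cob b p) (N := cob b n) j) a) x).symm

/-- the data from a least squares diagonal matrix -/
theorem Dat.of_LSq (h : OneP μ m p n) (hm : 1 ≤ m) (b : OrthonormalBasis ι ℝ E) {j : ι → ℝ}
    (hL : LSq μ (Matrix.diagonal j) (cob b p) (cob b n)) {Λ : ℝ} (h0 : 0 ≤ Λ)
    (hj : ∀ a, j a ^ 2 ≤ Λ ^ 2 * m) : Dat μ m p n (dop b j) Λ where
  h := h
  m1 := hm
  sym := dop_symm b j
  l0 := h0
  nJ := by
    intro v
    refine le_of_sq_le_sq ?_ (by positivity)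
    rw [norm_dop_sq, mul_pow, mul_pow, Real.sq_sqrt (Nat.cast_nonneg m),
      ← b.sum_sq_norm_inner_left v, Finset.mul_sum]
    refine Finset.sum_le_sum fun a _ => ?_
    rw [Real.norm_eq_abs, sq_abs]
    exact mul_le_mul_of_nonneg_right (hj a) (sq_nonneg _)
  ls := by
    intro A hA
    have cp := h.cp
    have cn := h.cn
    have h1 : ∀ x, ⟪n x - dop b j (p x), A (p x)⟫ = ∑ a, ∑ c, ⟪b a, A (b c)⟫
        * (ze (Matrix.diagonal j) (cob b p) (cob b n) a x * cob b p c x) := by
      intro x
      rw [← b.sum_inner_mul_inner]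
      refine Finset.sum_congr rfl fun a _ => ?_
      have h2 : ⟪b a, A (p x)⟫ = ∑ c, ⟪b a, A (b c)⟫ * cob b p c x := by
        rw [← hA, ← b.sum_inner_mul_inner]
        refine Finset.sum_congr rfl fun c _ => ?_
        rw [hA, real_inner_comm (p x) (b c)]
        rfl
      rw [h2, z_coord, Finset.mul_sum]
      exact Finset.sum_congr rfl fun c _ => by ring
    have c1 : ∀ a, Continuous (ze (Matrix.diagonal j) (cob b p) (cob b n) a) := by
      intro a
      have e1 : ze (Matrix.diagonal j) (cob b p) (cob b n) a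
          = fun x => ⟪n x - dop b j (p x), b a⟫ := funext fun x => (z_coord b j x a).symm
      rw [e1]
      fun_prop
    have c2 : ∀ a, Continuous (cob b p a) := by
      intro a
      unfold cob
      fun_prop
    have ci : ∀ a c, Integrable (fun x => ⟪b a, A (b c)⟫
        * (ze (Matrix.diagonal j) (cob b p) (cob b n) a x * cob b p c x)) μ := fun a c =>
      int_of_cont (continuous_const.mul ((c1 a).mul (c2 c)))
    have h3 : ∫ x, ⟪n x - dop b j (p x), A (p x)⟫ ∂μ = ∑ a, ∑ c, ⟪b a, A (b c)⟫
        * m2 μ (ze (Matrix.diagonal j) (cob b p) (cob b n)) (cob b p) a c := by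
      simp only [h1]
      rw [integral_finsetSum _ (fun a _ => integrable_finsetSum _ fun c _ => ci a c)]
      refine Finset.sum_congr rfl fun a _ => ?_
      rw [integral_finsetSum _ (fun c _ => ci a c)]
      exact Finset.sum_congr rfl fun c _ => integral_const_mul _ _
    rw [h3]
    have h4 : ∑ a, ∑ c, ⟪b a, A (b c)⟫
        * m2 μ (ze (Matrix.diagonal j) (cob b p) (cob b n)) (cob b p) a c
        = -∑ a, ∑ c, ⟪b a, A (b c)⟫
        * m2 μ (ze (Matrix.diagonal j) (cob b p) (cob b n)) (cob b p) a c := by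
      conv_lhs => rw [Finset.sum_comm]
      rw [← Finset.sum_neg_distrib]
      refine Finset.sum_congr rfl fun a _ => ?_
      rw [← Finset.sum_neg_distrib]
      refine Finset.sum_congr rfl fun c _ => ?_
      rw [hL c a, ← hA, real_inner_comm (b a) (A (b c))]
      ring
    linarith

end

end Vale.Agent.P224.R2.H686
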