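import Vale.Agent.P224.R2.H686.Rtwo

/-!
The operator `K = J² - tr J J - 1` and the vector `ξ = J N - x - tr J N`: identities.
-/

namespace Vale.Agent.P224.R2.H686

open MeasureTheory Module Function Set Vale.Agent.P224.R2.H470
open scoped RealInnerProductSpace Topology ContDiff

set_option linter.unusedSectionVars false

section

variable {X : Type*} {E : Type*} [NormedAddCommGroup E] [InnerProductSpace ℝ E]
  [FiniteDimensional ℝ E] [TopologicalSpace X] [MeasurableSpace X] [CompactSpace X] [BorelSpace X]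
  {μ : Measure X} [IsProbabilityMeasure μ] {m : ℕ} {p n : X → E} {J : E →L[ℝ] E} {Λ : ℝ}

/-- the operator `J² - tr J J - 1` -/
noncomputable def Kop (J : E →L[ℝ] E) : E →L[ℝ] E :=
  J.comp J - trJ J • J - ContinuousLinearMap.id ℝ E

/-- the operator `J K` -/
noncomputable def Bop (J : E →L[ℝ] E) : E →L[ℝ] E := J.comp (Kop J)

/-- the vector `J N - x - tr J N` -/
noncomputable def xi (J : E →L[ℝ] E) (p n : X → E) (x : X) : E :=
  J (n x) - p x - trJ J • n x

lemma Kop_apply (u : E) : Kop J u = J (J u) - trJ J • J u - u := by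
  simp [Kop]

lemma Bop_apply (u : E) : Bop J u = J (Kop J u) := rfl

lemma Dat.symK (d : Dat μ m p n J Λ) (u v : E) : ⟪Kop J u, v⟫ = ⟪u, Kop J v⟫ := by
  simp only [Kop_apply, inner_sub_left, inner_sub_right, inner_smul_left, inner_smul_right,
    RCLike.conj_to_real]
  rw [d.sym (J u) v, d.sym u (J v), d.sym u v]

lemma JK_comm (u : E) : J (Kop J u) = Kop J (J u) := by
  simp only [Kop_apply, map_sub, map_smul]

lemma Dat.symB (d : Dat μ m p n J Λ) (u v : E) : ⟪Bop J u, v⟫ = ⟪u, Bop J v⟫ := by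
  rw [Bop_apply, Bop_apply, d.sym, d.symK, JK_comm]

lemma Dat.cxi (d : Dat μ m p n J Λ) : Continuous (xi J p n) := by
  have cp := d.h.cp
  have cn := d.h.cn
  unfold xi
  fun_prop

lemma Dat.cK (d : Dat μ m p n J Λ) : Continuous fun x => Kop J (p x) := by
  have cp := d.h.cp
  fun_prop

/-- `J p = n - z` -/
lemma Jp_eq (x : X) : J (p x) = n x - zz J p n x := by
  simp [zz]

/-- `J n = p + γ n + ξ` -/
lemma Jn_eq (x : X) : J (n x) = p x + trJ J • n x + xi J p n x := by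
  simp only [xi]
  abel

/-- `ξ = K p + J z - γ z` -/
lemma xi_eq (x : X) :
    xi J p n x = Kop J (p x) + (J (zz J p n x) - trJ J • zz J p n x) := by
  simp only [xi, Kop_apply, zz, map_sub, smul_sub]
  abel

/-- `⟨n, ξ⟩ = g - γ` -/
lemma Dat.n_xi (d : Dat μ m p n J Λ) (x : X) : ⟪n x, xi J p n x⟫ = gg J n x - trJ J := by
  simp only [xi, inner_sub_right, inner_smul_right, d.h.np' x, d.h.nnn x, gg]
  ring

/-- `⟨p, ξ⟩ = - c` -/
lemma Dat.p_xi (d : Dat μ m p n J Λ) (x : X) : ⟪p x, xi J p n x⟫ = - H686.cc J p n x := by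
  have h1 := d.nJp x
  simp only [xi, inner_sub_right, inner_smul_right, d.h.pp x, d.h.pn x]
  rw [← d.sym, real_inner_comm, h1]
  ring

/-- `⟨n, ξ⟩ = ⟨p, B p⟩ - f + ⟨z, ξ + K p⟩` -/
lemma Dat.n_xi' (d : Dat μ m p n J Λ) (x : X) :
    ⟪n x, xi J p n x⟫ = ⟪p x, Bop J (p x)⟫ - ff J p x
      + ⟪zz J p n x, xi J p n x + Kop J (p x)⟫ := by
  have h1 : ⟪n x, xi J p n x⟫ = ⟪J (p x), xi J p n x⟫ + ⟪zz J p n x, xi J p n x⟫ := by
    rw [← inner_add_left]
    congr 1
    simp [zz]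
  have h2 : ⟪J (p x), xi J p n x⟫ = ⟪J (p x), Kop J (p x)⟫
      + ⟪Kop J (p x) + p x, zz J p n x⟫ := by
    rw [xi_eq x, inner_add_right]
    congr 1
    rw [inner_sub_right, inner_smul_right, ← d.sym, Kop_apply]
    simp only [inner_add_left, inner_sub_left, inner_smul_left, RCLike.conj_to_real]
    ring
  have h3 : ⟪J (p x), Kop J (p x)⟫ = ⟪p x, Bop J (p x)⟫ := by rw [Bop_apply, d.sym]
  have h4 : ⟪p x, zz J p n x⟫ = - ff J p x := by
    rw [real_inner_comm]
    have := d.f_eq x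
    linarith
  rw [h1, h2, h3, inner_add_left, h4, inner_add_right, real_inner_comm (zz J p n x) (Kop J (p x))]
  ring

/-- `⟨n, B n⟩` -/
lemma Dat.nBn (d : Dat μ m p n J Λ) (x : X) :
    ⟪n x, Bop J (n x)⟫ = (1 + trJ J ^ 2) * ⟪n x, xi J p n x⟫ - 2 * ⟪zz J p n x, xi J p n x⟫
      + ff J p x - 2 * trJ J * H686.cc J p n x + trJ J * ‖xi J p n x‖ ^ 2
      + ⟪xi J p n x, J (xi J p n x)⟫ := by
  have h1 : Kop J (n x) = J (xi J p n x) - zz J p n x := by
    have e1 : J (J (n x)) = J (p x) + trJ J • J (n x) + J (xi J p n x) := by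
      conv_lhs => rw [Jn_eq (p := p) x]
      simp only [map_add, map_smul]
    rw [Kop_apply, e1, zz]
    abel
  have h2 : ⟪n x, Bop J (n x)⟫ = ⟪J (n x), J (xi J p n x) - zz J p n x⟫ := by
    rw [Bop_apply, ← d.sym, h1]
  have h3 : ⟪p x, J (xi J p n x)⟫ = ⟪n x, xi J p n x⟫ - ⟪zz J p n x, xi J p n x⟫ := by
    rw [← d.sym, ← inner_sub_left]
    congr 1
    simp [zz]
  have h4 : ⟪n x, J (xi J p n x)⟫ = - H686.cc J p n x + trJ J * ⟪n x, xi J p n x⟫
      + ‖xi J p n x‖ ^ 2 := by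
    rw [← d.sym, Jn_eq (p := p) x, inner_add_left, inner_add_left, inner_smul_left, d.p_xi x,
      real_inner_self_eq_norm_sq, RCLike.conj_to_real]
  have h5 : ⟪p x, zz J p n x⟫ = - ff J p x := by
    rw [real_inner_comm]
    have := d.f_eq x
    linarith
  have h6 : ⟪n x, zz J p n x⟫ = H686.cc J p n x := rfl
  rw [h2, Jn_eq (p := p) x, inner_sub_right, inner_add_left, inner_add_left, inner_add_left,
    inner_add_left, inner_smul_left, inner_smul_left, h3, h4, h5, h6, RCLike.conj_to_real,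
    real_inner_comm (zz J p n x) (xi J p n x)]
  ring

/-- the norm of `ξ` -/
lemma Dat.xi_sq (d : Dat μ m p n J Λ) (x : X) :
    ‖xi J p n x‖ ^ 2 = kk J n x - 1 + 2 * H686.cc J p n x + trJ J ^ 2 - 2 * trJ J * gg J n x := by
  have h1 := d.nJp x
  have h2 : ⟪J (n x), p x⟫ = 1 - H686.cc J p n x := by rw [d.sym, h1]
  have h3 : ⟪J (n x), n x⟫ = gg J n x := by rw [d.sym, gg]
  rw [← real_inner_self_eq_norm_sq, xi, kk, ← real_inner_self_eq_norm_sq (J (n x))]
  simp only [inner_sub_left, inner_sub_right, inner_smul_left, inner_smul_right,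
    RCLike.conj_to_real, d.h.pp x, d.h.nnn x, d.h.pn x, d.h.np' x,
    real_inner_comm (J (n x)) (p x), real_inner_comm (J (n x)) (n x), h2, h3]
  ring

/-- `E ⟨n, ξ⟩ = 0` -/
lemma Dat.E_nxi (d : Dat μ m p n J Λ) : ∫ x, ⟪n x, xi J p n x⟫ ∂μ = 0 := by
  have cg := d.cg
  simp only [d.n_xi]
  rw [integral_sub (int_of_cont cg) (integrable_const _), ← d.trJ_eq]
  simp

/-- the mean of `|ξ|²` -/
lemma Dat.E_xi (d : Dat μ m p n J Λ) :
    ∫ x, ‖xi J p n x‖ ^ 2 ∂μ
      = t0 J - 1 - trJ J ^ 2 + (m + 3) * ∫ x, aa J p n x ∂μ := by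
  have cg := d.cg
  have ck := d.ck
  have ccc := d.cc
  have h1 := d.t0_eq
  have h2 := d.Ec
  have h3 := d.trJ_eq
  simp only [d.xi_sq]
  have e1 : ∫ x, (kk J n x - 1 + 2 * H686.cc J p n x + trJ J ^ 2 - 2 * trJ J * gg J n x) ∂μ
      = ∫ x, kk J n x ∂μ - 1 + 2 * ∫ x, H686.cc J p n x ∂μ + trJ J ^ 2
        - 2 * trJ J * ∫ x, gg J n x ∂μ := by
    rw [integral_sub (int_of_cont (by fun_prop)) (int_of_cont (by fun_prop)),
      integral_add (int_of_cont (by fun_prop)) (integrable_const _),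
      integral_add (int_of_cont (by fun_prop)) (int_of_cont (by fun_prop)),
      integral_sub (int_of_cont (by fun_prop)) (integrable_const _), integral_const_mul,
      integral_const_mul]
    simp
  rw [e1, ← h3, h2]
  linear_combination -h1

/-- `E ⟨n, K p⟩ = - E ⟨z, J z - γ z⟩` -/
lemma Dat.E_nK (d : Dat μ m p n J Λ) :
    ∫ x, ⟪n x, Kop J (p x)⟫ ∂μ
      = -∫ x, ⟪zz J p n x, J (zz J p n x) - trJ J • zz J p n x⟫ ∂μ := by
  have cp := d.h.cp
  have cn := d.h.cn
  have cz := d.cz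
  have cxi := d.cxi
  have h1 : ∀ x, ⟪n x, Kop J (p x)⟫ = ⟪n x, xi J p n x⟫
      - ⟪zz J p n x, J (J (p x)) - trJ J • J (p x)⟫
      - ⟪zz J p n x, J (zz J p n x) - trJ J • zz J p n x⟫ := by
    intro x
    have e1 : ⟪zz J p n x, J (J (p x)) - trJ J • J (p x)⟫
        + ⟪zz J p n x, J (zz J p n x) - trJ J • zz J p n x⟫
        = ⟪n x, J (zz J p n x) - trJ J • zz J p n x⟫ := by
      rw [← inner_add_right]
      have e2 : J (J (p x)) - trJ J • J (p x) + (J (zz J p n x) - trJ J • zz J p n x)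
          = J (n x) - trJ J • n x := by
        simp only [zz, map_sub, smul_sub]
        abel
      rw [e2, inner_sub_right, inner_sub_right, inner_smul_right, inner_smul_right, ← d.sym,
        real_inner_comm (n x) (J (zz J p n x)), real_inner_comm (n x) (zz J p n x)]
    have e3 : ⟪n x, Kop J (p x)⟫ = ⟪n x, xi J p n x⟫
        - ⟪n x, J (zz J p n x) - trJ J • zz J p n x⟫ := by
      rw [xi_eq x, inner_add_right]
      ring
    rw [e3, ← e1]
    ring
  have hA : ∀ u v : E, ⟪(J.comp J - trJ J • J) u, v⟫ = ⟪u, (J.comp J - trJ J • J) v⟫ := by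
    intro u v
    simp only [_root_.sub_apply, _root_.smul_apply, ContinuousLinearMap.comp_apply,
      inner_sub_left, inner_sub_right, inner_smul_left, inner_smul_right, RCLike.conj_to_real]
    rw [d.sym (J u) v, d.sym u (J v), d.sym u v]
  have h2 := d.ls' hA
  simp only [_root_.sub_apply, _root_.smul_apply, ContinuousLinearMap.comp_apply] at h2
  simp only [h1]
  rw [integral_sub (int_of_cont (by fun_prop)) (int_of_cont (by fun_prop)),
    integral_sub (int_of_cont (by fun_prop)) (int_of_cont (by fun_prop)), d.E_nxi, h2]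
  ring

/-- the row of the weight `f` and the field `B x` -/
lemma Dat.rowB (d : Dat μ m p n J Λ) :
    (m + 3) * ∫ x, ff J p x * ⟪p x, Bop J (p x)⟫ ∂μ
      = -∫ x, ff J p x * ⟪n x, Bop J (n x)⟫ ∂μ
        + 2 * ∫ x, H686.cc J p n x * ⟪n x, Bop J (p x)⟫ ∂μ := by
  have cp := d.h.cp
  have cn := d.h.cn
  have cz := d.cz
  have cf := d.cf
  have ccc := d.cc
  have h1 := mono_row d.h d.sym (Bop J) 1 0
  have h2 : ∀ x, (fF J (p x) ^ 1 * fQ J (p x) ^ 0
            * (LinearMap.trace ℝ E (Bop J : E →ₗ[ℝ] E) - ⟪n x, Bop J (n x)⟫)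
          + 2 * ((1 : ℕ) : ℝ) * (fF J (p x) ^ (1 - 1) * fQ J (p x) ^ 0)
            * ⟪T1 J p n x, tg p n x (Bop J (p x))⟫
          + 2 * ((0 : ℕ) : ℝ) * (fF J (p x) ^ 1 * fQ J (p x) ^ (0 - 1))
            * ⟪T2 J p n x, tg p n x (Bop J (p x))⟫)
      = LinearMap.trace ℝ E (Bop J : E →ₗ[ℝ] E) * ff J p x
        - ff J p x * ⟪n x, Bop J (n x)⟫ - 2 * (ff J p x * ⟪p x, Bop J (p x)⟫)
        + 2 * (H686.cc J p n x * ⟪n x, Bop J (p x)⟫) - 2 * ⟪zz J p n x, Bop J (p x)⟫ := by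
    intro x
    have e1 : ⟪T1 J p n x, tg p n x (Bop J (p x))⟫
        = ⟪J (p x), Bop J (p x)⟫ - ff J p x * ⟪p x, Bop J (p x)⟫
          - (1 - H686.cc J p n x) * ⟪n x, Bop J (p x)⟫ := by
      rw [T1, ← tg_inner d.h, ← d.nJp x, tg]
      simp only [inner_sub_right, inner_smul_right, ff, fF]
      rw [real_inner_comm (p x) (J (p x)), real_inner_comm (n x) (J (p x))]
      ring
    have e2 : ⟪J (p x), Bop J (p x)⟫ = ⟪n x, Bop J (p x)⟫ - ⟪zz J p n x, Bop J (p x)⟫ := by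
      rw [← inner_sub_left]
      congr 1
      simp [zz]
    rw [e1, e2]
    simp only [ff]
    push_cast
    ring
  rw [integral_congr_ae (Filter.Eventually.of_forall h2)] at h1
  rw [integral_sub (int_of_cont (by fun_prop)) (int_of_cont (by fun_prop)),
    integral_add (int_of_cont (by fun_prop)) (int_of_cont (by fun_prop)),
    integral_sub (int_of_cont (by fun_prop)) (int_of_cont (by fun_prop)),
    integral_sub (int_of_cont (by fun_prop)) (int_of_cont (by fun_prop)), integral_const_mul,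
    integral_const_mul, integral_const_mul, integral_const_mul, d.ls' d.symB, d.Ef] at h1
  have e3 : ∫ x, fF J (p x) ^ 1 * fQ J (p x) ^ 0 * ⟪p x, Bop J (p x)⟫ ∂μ
      = ∫ x, ff J p x * ⟪p x, Bop J (p x)⟫ ∂μ := by
    refine integral_congr_ae (Filter.Eventually.of_forall fun x => ?_)
    simp only [ff]
    ring
  rw [e3] at h1
  linarith

/-- the second row with `J` and `J² - 1` -/
lemma Dat.rowR2 (d : Dat μ m p n J Λ) :
    (1 - ∫ x, aa J p n x ∂μ) * (t0 J - 1) - trJ J * ∫ x, ⟪n x, Wop J (p x)⟫ ∂μ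
      = (m + 2) * (∫ x, (1 - H686.cc J p n x) * qq J p x ∂μ
        - ∫ x, ⟪n x, Wop J (p x)⟫ * ff J p x ∂μ) := by
  have cp := d.h.cp
  have cn := d.h.cn
  have cf := d.cf
  have cq := d.cq
  have ccc := d.cc
  have hW : ∀ u v : E, ⟪Wop J u, v⟫ = ⟪u, Wop J v⟫ := by
    intro u v
    simp only [Wop, _root_.sub_apply, ContinuousLinearMap.comp_apply,
      ContinuousLinearMap.coe_id', id_eq, inner_sub_left, inner_sub_right]
    rw [d.sym (J u) v, d.sym u (J v)]
  have hc : ∀ u, J (Wop J u) = Wop J (J u) := by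
    intro u
    simp [Wop]
  have h1 := two_row d.h d.sym hW hc
  have e1 : ∀ x, ⟪n x, J (p x)⟫ * LinearMap.trace ℝ E (Wop J : E →ₗ[ℝ] E)
        - ⟪n x, Wop J (p x)⟫ * LinearMap.trace ℝ E (J : E →ₗ[ℝ] E)
      = (t0 J - 1) * (1 - H686.cc J p n x) - trJ J * ⟪n x, Wop J (p x)⟫ := by
    intro x
    rw [d.nJp x, t0, trJ]
    ring
  have e2 : ∀ x, ⟪n x, J (p x)⟫ * ⟪p x, Wop J (p x)⟫ - ⟪n x, Wop J (p x)⟫ * ⟪p x, J (p x)⟫
      = (1 - H686.cc J p n x) * qq J p x - ⟪n x, Wop J (p x)⟫ * ff J p x := by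
    intro x
    rw [d.nJp x, d.pWp x]
    rfl
  simp only [e1, e2] at h1
  rw [integral_sub (int_of_cont (by fun_prop)) (int_of_cont (by fun_prop)),
    integral_const_mul, integral_const_mul,
    integral_sub (integrable_const _) (int_of_cont (by fun_prop)),
    integral_sub (int_of_cont (by fun_prop)) (int_of_cont (by fun_prop)), d.Ec] at h1
  simp only [integral_const, probReal_univ, smul_eq_mul, one_mul] at h1
  linarith

end

end Vale.Agent.P224.R2.H686
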