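import Vale.Agent.P224.R2.H686.RowC

/-!
Bounds of the mixed moment `E a q₊`.
-/

namespace Vale.Agent.P224.R2.H686

open MeasureTheory Module Function Set Vale.Agent.P224.R2.H470
open scoped RealInnerProductSpace Topology ContDiff

set_option linter.unusedSectionVars false

/-- from polynomial inequalities in `r = |J x|` to the pointwise inequality -/
lemma aq_point {κ A l r a : ℝ} (hr : 0 ≤ r) (ha : (r - 1) ^ 2 ≤ a) (ha' : a ≤ (r + 1) ^ 2)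
    (h1 : 1 ≤ r → r ^ 2 - 1 ≤ A →
      r ^ 2 - 1 - A ≤ l * (r + 1) ^ 2 * ((r ^ 2 - 1) ^ 2 - 7 * κ * (r ^ 2 - 1) - 6 * κ))
    (h2 : 1 ≤ r → A ≤ r ^ 2 - 1 →
      r ^ 2 - 1 - A ≤ l * (r - 1) ^ 2 * ((r ^ 2 - 1) ^ 2 - 7 * κ * (r ^ 2 - 1) - 6 * κ))
    (hA : 0 ≤ A) :
    a * max (r ^ 2 - 1) 0 ≤ A * a + l * (max (r ^ 2 - 1) 0 ^ 4 - κ * max (r ^ 2 - 1) 0 ^ 3
      - 6 * κ * (max (r ^ 2 - 1) 0 ^ 2 * (1 + (r ^ 2 - 1)))) := by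
  have a0 : 0 ≤ a := (sq_nonneg _).trans ha
  rcases le_or_gt r 1 with hr1 | hr1
  · have e1 : max (r ^ 2 - 1) 0 = 0 := max_eq_right (by nlinarith)
    rw [e1]
    have := mul_nonneg hA a0
    norm_num
    exact this
  · have e1 : max (r ^ 2 - 1) 0 = r ^ 2 - 1 := max_eq_left (by nlinarith)
    rw [e1]
    have e2 : (r ^ 2 - 1) ^ 4 - κ * (r ^ 2 - 1) ^ 3 - 6 * κ * ((r ^ 2 - 1) ^ 2 * (1 + (r ^ 2 - 1)))
        = (r - 1) ^ 2 * (r + 1) ^ 2 * ((r ^ 2 - 1) ^ 2 - 7 * κ * (r ^ 2 - 1) - 6 * κ) := by ring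
    rw [e2]
    set G := (r ^ 2 - 1) ^ 2 - 7 * κ * (r ^ 2 - 1) - 6 * κ with hG
    rcases le_total (r ^ 2 - 1) A with h3 | h3
    · have h4 := h1 hr1.le h3
      have h5 : a * (r ^ 2 - 1 - A) ≤ (r - 1) ^ 2 * (r ^ 2 - 1 - A) :=
        mul_le_mul_of_nonpos_right ha (by linarith)
      have h6 := mul_le_mul_of_nonneg_left h4 (sq_nonneg (r - 1))
      nlinarith
    · have h4 := h2 hr1.le h3
      have h5 : a * (r ^ 2 - 1 - A) ≤ (r + 1) ^ 2 * (r ^ 2 - 1 - A) :=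
        mul_le_mul_of_nonneg_right ha' (by linarith)
      have h6 := mul_le_mul_of_nonneg_left h4 (sq_nonneg (r + 1))
      nlinarith

lemma numA11 (r : ℝ) (h1 : 1 ≤ r) (h2 : r ^ 2 - 1 ≤ 2) :
    r ^ 2 - 1 - 2 ≤ 1 / 4 * (r + 1) ^ 2 * ((r ^ 2 - 1) ^ 2 - 7 * (11 / 100) * (r ^ 2 - 1)
      - 6 * (11 / 100)) := by
  have h3 : r ≤ 7 / 4 := by nlinarith
  nlinarith [mul_nonneg (sub_nonneg.2 h1) (sub_nonneg.2 h3), sq_nonneg (r - 1),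
    sq_nonneg (r ^ 2 - 13 / 10), sq_nonneg (r * (r ^ 2 - 13 / 10)),
    mul_nonneg (sub_nonneg.2 h1) (sq_nonneg (r ^ 2 - 13 / 10)),
    mul_nonneg (sub_nonneg.2 h3) (sq_nonneg (r - 1)), sq_nonneg (r ^ 3 - 3 / 2)]

lemma numA11' (r : ℝ) (h1 : 1 ≤ r) (h2 : 2 ≤ r ^ 2 - 1) :
    r ^ 2 - 1 - 2 ≤ 1 / 4 * (r - 1) ^ 2 * ((r ^ 2 - 1) ^ 2 - 7 * (11 / 100) * (r ^ 2 - 1)
      - 6 * (11 / 100)) := by
  have h3 : 173 / 100 ≤ r := by nlinarith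
  obtain ⟨d, hd, rfl⟩ : ∃ d : ℝ, 0 ≤ d ∧ r = 173 / 100 + d := ⟨r - 173 / 100, by linarith, by ring⟩
  nlinarith [mul_nonneg hd hd, mul_nonneg (mul_nonneg hd hd) hd, sq_nonneg (d - 1 / 5),
    mul_nonneg hd (sq_nonneg (d - 1 / 5)), mul_nonneg (mul_nonneg hd hd) (mul_nonneg hd hd),
    mul_nonneg (mul_nonneg (mul_nonneg hd hd) (mul_nonneg hd hd)) hd,
    mul_nonneg (mul_nonneg (mul_nonneg hd hd) (mul_nonneg hd hd)) (mul_nonneg hd hd)]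

lemma numA8 (r : ℝ) (h1 : 1 ≤ r) (h2 : r ^ 2 - 1 ≤ 8 / 5) :
    r ^ 2 - 1 - 8 / 5 ≤ 1 / 3 * (r + 1) ^ 2 * ((r ^ 2 - 1) ^ 2 - 7 * (17 / 200) * (r ^ 2 - 1)
      - 6 * (17 / 200)) := by
  have h3 : r ≤ 1613 / 1000 := by nlinarith
  nlinarith [mul_nonneg (sub_nonneg.2 h1) (sub_nonneg.2 h3), sq_nonneg (r - 1),
    sq_nonneg (r ^ 2 - 13 / 10), sq_nonneg (r * (r ^ 2 - 13 / 10)),
    mul_nonneg (sub_nonneg.2 h1) (sq_nonneg (r ^ 2 - 13 / 10)),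
    mul_nonneg (sub_nonneg.2 h3) (sq_nonneg (r - 1)), sq_nonneg (r ^ 3 - 3 / 2)]

lemma numA8' (r : ℝ) (h1 : 1 ≤ r) (h2 : 8 / 5 ≤ r ^ 2 - 1) :
    r ^ 2 - 1 - 8 / 5 ≤ 1 / 3 * (r - 1) ^ 2 * ((r ^ 2 - 1) ^ 2 - 7 * (17 / 200) * (r ^ 2 - 1)
      - 6 * (17 / 200)) := by
  have h3 : 403 / 250 ≤ r := by nlinarith
  obtain ⟨d, hd, rfl⟩ : ∃ d : ℝ, 0 ≤ d ∧ r = 403 / 250 + d := ⟨r - 403 / 250, by linarith, by ring⟩
  nlinarith [mul_nonneg hd hd, mul_nonneg (mul_nonneg hd hd) hd, sq_nonneg (d - 1 / 5),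
    mul_nonneg hd (sq_nonneg (d - 1 / 5)), mul_nonneg (mul_nonneg hd hd) (mul_nonneg hd hd),
    mul_nonneg (mul_nonneg (mul_nonneg hd hd) (mul_nonneg hd hd)) hd,
    mul_nonneg (mul_nonneg (mul_nonneg hd hd) (mul_nonneg hd hd)) (mul_nonneg hd hd)]

lemma numA5 (r : ℝ) (h1 : 1 ≤ r) (h2 : r ^ 2 - 1 ≤ 13 / 10) :
    r ^ 2 - 1 - 13 / 10 ≤ 53 / 100 * (r + 1) ^ 2 * ((r ^ 2 - 1) ^ 2 - 7 * (1 / 20) * (r ^ 2 - 1)
      - 6 * (1 / 20)) := by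
  have h3 : r ≤ 152 / 100 := by nlinarith
  nlinarith [mul_nonneg (sub_nonneg.2 h1) (sub_nonneg.2 h3), sq_nonneg (r - 1),
    sq_nonneg (r ^ 2 - 13 / 10), sq_nonneg (r * (r ^ 2 - 13 / 10)),
    mul_nonneg (sub_nonneg.2 h1) (sq_nonneg (r ^ 2 - 13 / 10)),
    mul_nonneg (sub_nonneg.2 h3) (sq_nonneg (r - 1)), sq_nonneg (r ^ 3 - 3 / 2)]

lemma numA5' (r : ℝ) (h1 : 1 ≤ r) (h2 : 13 / 10 ≤ r ^ 2 - 1) :
    r ^ 2 - 1 - 13 / 10 ≤ 53 / 100 * (r - 1) ^ 2 * ((r ^ 2 - 1) ^ 2 - 7 * (1 / 20) * (r ^ 2 - 1)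
      - 6 * (1 / 20)) := by
  have h3 : 151 / 100 ≤ r := by nlinarith
  obtain ⟨d, hd, rfl⟩ : ∃ d : ℝ, 0 ≤ d ∧ r = 151 / 100 + d := ⟨r - 151 / 100, by linarith, by ring⟩
  nlinarith [mul_nonneg hd hd, mul_nonneg (mul_nonneg hd hd) hd, sq_nonneg (d - 1 / 5),
    mul_nonneg hd (sq_nonneg (d - 1 / 5)), mul_nonneg (mul_nonneg hd hd) (mul_nonneg hd hd),
    mul_nonneg (mul_nonneg (mul_nonneg hd hd) (mul_nonneg hd hd)) hd,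
    mul_nonneg (mul_nonneg (mul_nonneg hd hd) (mul_nonneg hd hd)) (mul_nonneg hd hd)]

lemma numA3 (r : ℝ) (h1 : 1 ≤ r) (h2 : r ^ 2 - 1 ≤ 21 / 20) :
    r ^ 2 - 1 - 21 / 20 ≤ 4 / 5 * (r + 1) ^ 2 * ((r ^ 2 - 1) ^ 2 - 7 * (3 / 100) * (r ^ 2 - 1)
      - 6 * (3 / 100)) := by
  have h3 : r ≤ 179 / 125 := by nlinarith
  nlinarith [mul_nonneg (sub_nonneg.2 h1) (sub_nonneg.2 h3), sq_nonneg (r - 1),
    sq_nonneg (r ^ 2 - 13 / 10), sq_nonneg (r * (r ^ 2 - 13 / 10)),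
    mul_nonneg (sub_nonneg.2 h1) (sq_nonneg (r ^ 2 - 13 / 10)),
    mul_nonneg (sub_nonneg.2 h3) (sq_nonneg (r - 1)), sq_nonneg (r ^ 3 - 3 / 2)]

lemma numA3' (r : ℝ) (h1 : 1 ≤ r) (h2 : 21 / 20 ≤ r ^ 2 - 1) :
    r ^ 2 - 1 - 21 / 20 ≤ 4 / 5 * (r - 1) ^ 2 * ((r ^ 2 - 1) ^ 2 - 7 * (3 / 100) * (r ^ 2 - 1)
      - 6 * (3 / 100)) := by
  have h3 : 1431 / 1000 ≤ r := by nlinarith
  obtain ⟨d, hd, rfl⟩ : ∃ d : ℝ, 0 ≤ d ∧ r = 1431 / 1000 + d := ⟨r - 1431 / 1000, by linarith, by ring⟩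
  nlinarith [mul_nonneg hd hd, mul_nonneg (mul_nonneg hd hd) hd, sq_nonneg (d - 1 / 5),
    mul_nonneg hd (sq_nonneg (d - 1 / 5)), mul_nonneg (mul_nonneg hd hd) (mul_nonneg hd hd),
    mul_nonneg (mul_nonneg (mul_nonneg hd hd) (mul_nonneg hd hd)) hd,
    mul_nonneg (mul_nonneg (mul_nonneg hd hd) (mul_nonneg hd hd)) (mul_nonneg hd hd)]

section

variable {X : Type*} {E : Type*} [NormedAddCommGroup E] [InnerProductSpace ℝ E]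
  [FiniteDimensional ℝ E] [TopologicalSpace X] [MeasurableSpace X] [CompactSpace X] [BorelSpace X]
  {μ : Measure X} [IsProbabilityMeasure μ] {m : ℕ} {p n : X → E} {J : E →L[ℝ] E} {Λ : ℝ}

lemma Dat.a_range (d : Dat μ m p n J Λ) (x : X) :
    (‖J (p x)‖ - 1) ^ 2 ≤ aa J p n x ∧ aa J p n x ≤ (‖J (p x)‖ + 1) ^ 2 := by
  have h1 := abs_norm_sub_norm_le (J (p x)) (n x)
  have h2 := norm_sub_le (n x) (J (p x))
  rw [d.h.nn] at h1 h2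
  have e1 : aa J p n x = ‖n x - J (p x)‖ ^ 2 := rfl
  constructor
  · rw [e1, norm_sub_rev, ← sq_abs (‖J (p x)‖ - 1)]
    exact pow_le_pow_left₀ (abs_nonneg _) h1 2
  · rw [e1]
    refine pow_le_pow_left₀ (norm_nonneg _) ?_ 2
    linarith

/-- the mixed moment `E a q₊` -/
theorem Dat.E_aq (d : Dat μ m p n J Λ) {κ A l : ℝ} (hκ : Λ ^ 2 ≤ κ) (hA : 0 ≤ A) (hl : 0 ≤ l)
    (h1 : ∀ r : ℝ, 1 ≤ r → r ^ 2 - 1 ≤ A →
      r ^ 2 - 1 - A ≤ l * (r + 1) ^ 2 * ((r ^ 2 - 1) ^ 2 - 7 * κ * (r ^ 2 - 1) - 6 * κ))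
    (h2 : ∀ r : ℝ, 1 ≤ r → A ≤ r ^ 2 - 1 →
      r ^ 2 - 1 - A ≤ l * (r - 1) ^ 2 * ((r ^ 2 - 1) ^ 2 - 7 * κ * (r ^ 2 - 1) - 6 * κ)) :
    ∫ x, aa J p n x * max (qq J p x) 0 ∂μ ≤ A * ∫ x, aa J p n x ∂μ := by
  have ca := d.ca
  have cq := d.cq
  have h3 := d.R_row 1 0
  have h4 : ∫ x, (max (qq J p x) 0 ^ 4 - κ * max (qq J p x) 0 ^ 3
      - 6 * κ * (max (qq J p x) 0 ^ 2 * (1 + qq J p x))) ∂μ ≤ 0 := by
    refine le_trans ?_ h3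
    refine integral_mono (int_of_cont (by fun_prop)) (int_of_cont (by fun_prop)) fun x => ?_
    simp only
    have k1 := d.q_ge x
    have k2 : 0 ≤ max (qq J p x) 0 := le_max_right _ _
    have k3 := mul_nonneg (sub_nonneg.2 hκ) (pow_nonneg k2 3)
    have k4 := mul_nonneg (sub_nonneg.2 hκ)
      (mul_nonneg (pow_nonneg k2 2) (by linarith : 0 ≤ 1 + qq J p x))
    push_cast
    ring_nf at k3 k4 ⊢
    nlinarith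
  have h5 : ∫ x, aa J p n x * max (qq J p x) 0 ∂μ
      ≤ ∫ x, (A * aa J p n x + l * (max (qq J p x) 0 ^ 4 - κ * max (qq J p x) 0 ^ 3
      - 6 * κ * (max (qq J p x) 0 ^ 2 * (1 + qq J p x)))) ∂μ := by
    refine integral_mono (int_of_cont (by fun_prop)) (int_of_cont (by fun_prop)) fun x => ?_
    simp only
    obtain ⟨k1, k2⟩ := d.a_range x
    rw [d.q_eq x]
    exact aq_point (norm_nonneg _) k1 k2 (h1 _) (h2 _) hA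
  rw [integral_add (int_of_cont (by fun_prop)) (int_of_cont (by fun_prop)), integral_const_mul,
    integral_const_mul] at h5
  have := mul_nonneg hl (neg_nonneg.2 h4)
  linarith

end

end Vale.Agent.P224.R2.H686
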