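import Vale.Agent.P224.R2.H686.PhiA

/-!
More levels of the bound of `E a q₊`.
-/

namespace Vale.Agent.P224.R2.H686

lemma nA01 (r : ℝ) (h1 : 1 ≤ r) (h2 : r ^ 2 - 1 ≤ 69 / 100) :
    r ^ 2 - 1 - 69 / 100 ≤ 237 / 100 * (r + 1) ^ 2 * ((r ^ 2 - 1) ^ 2 - 7 * (1 / 100) * (r ^ 2 - 1)
      - 6 * (1 / 100)) := by
  have h3 : r ≤ 13 / 10 := by nlinarith
  nlinarith [mul_nonneg (sub_nonneg.2 h1) (sub_nonneg.2 h3), sq_nonneg (r - 21 / 20),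
    sq_nonneg ((r - 21 / 20) * r), sq_nonneg ((r - 21 / 20) * (r + 1) * r),
    mul_nonneg (sub_nonneg.2 h1) (sq_nonneg (r - 21 / 20)),
    mul_nonneg (sub_nonneg.2 h1) (sq_nonneg ((r - 21 / 20) * r)),
    mul_nonneg (sub_nonneg.2 h3) (sq_nonneg (r - 21 / 20)),
    mul_nonneg (sub_nonneg.2 h1) (sq_nonneg ((r - 21 / 20) * (r + 1)))]

lemma nA01' (r : ℝ) (h1 : 1 ≤ r) (h2 : 69 / 100 ≤ r ^ 2 - 1) :
    r ^ 2 - 1 - 69 / 100 ≤ 237 / 100 * (r - 1) ^ 2 * ((r ^ 2 - 1) ^ 2 - 7 * (1 / 100) * (r ^ 2 - 1)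
      - 6 * (1 / 100)) := by
  have h3 : 13 / 10 ≤ r := by nlinarith
  obtain ⟨d, hd, rfl⟩ : ∃ d : ℝ, 0 ≤ d ∧ r = 13 / 10 + d := ⟨r - 13 / 10, by linarith, by ring⟩
  nlinarith [mul_nonneg hd hd, mul_nonneg (mul_nonneg hd hd) hd, sq_nonneg (d - 1 / 5),
    mul_nonneg hd (sq_nonneg (d - 1 / 5)), mul_nonneg (mul_nonneg hd hd) (mul_nonneg hd hd),
    mul_nonneg (mul_nonneg (mul_nonneg hd hd) (mul_nonneg hd hd)) hd,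
    mul_nonneg (mul_nonneg (mul_nonneg hd hd) (mul_nonneg hd hd)) (mul_nonneg hd hd)]

lemma nA02 (r : ℝ) (h1 : 1 ≤ r) (h2 : r ^ 2 - 1 ≤ 87 / 100) :
    r ^ 2 - 1 - 87 / 100 ≤ 27 / 20 * (r + 1) ^ 2 * ((r ^ 2 - 1) ^ 2 - 7 * (1 / 50) * (r ^ 2 - 1)
      - 6 * (1 / 50)) := by
  have h3 : r ≤ 171 / 125 := by nlinarith
  nlinarith [mul_nonneg (sub_nonneg.2 h1) (sub_nonneg.2 h3), sq_nonneg (r - 109 / 100),
    sq_nonneg ((r - 109 / 100) * r), sq_nonneg ((r - 109 / 100) * (r + 1) * r),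
    mul_nonneg (sub_nonneg.2 h1) (sq_nonneg (r - 109 / 100)),
    mul_nonneg (sub_nonneg.2 h1) (sq_nonneg ((r - 109 / 100) * r)),
    mul_nonneg (sub_nonneg.2 h3) (sq_nonneg (r - 109 / 100)),
    mul_nonneg (sub_nonneg.2 h1) (sq_nonneg ((r - 109 / 100) * (r + 1)))]

lemma nA02' (r : ℝ) (h1 : 1 ≤ r) (h2 : 87 / 100 ≤ r ^ 2 - 1) :
    r ^ 2 - 1 - 87 / 100 ≤ 27 / 20 * (r - 1) ^ 2 * ((r ^ 2 - 1) ^ 2 - 7 * (1 / 50) * (r ^ 2 - 1)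
      - 6 * (1 / 50)) := by
  have h3 : 1367 / 1000 ≤ r := by nlinarith
  obtain ⟨d, hd, rfl⟩ : ∃ d : ℝ, 0 ≤ d ∧ r = 1367 / 1000 + d := ⟨r - 1367 / 1000, by linarith, by ring⟩
  nlinarith [mul_nonneg hd hd, mul_nonneg (mul_nonneg hd hd) hd, sq_nonneg (d - 1 / 5),
    mul_nonneg hd (sq_nonneg (d - 1 / 5)), mul_nonneg (mul_nonneg hd hd) (mul_nonneg hd hd),
    mul_nonneg (mul_nonneg (mul_nonneg hd hd) (mul_nonneg hd hd)) hd,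
    mul_nonneg (mul_nonneg (mul_nonneg hd hd) (mul_nonneg hd hd)) (mul_nonneg hd hd)]

lemma nA03 (r : ℝ) (h1 : 1 ≤ r) (h2 : r ^ 2 - 1 ≤ 101 / 100) :
    r ^ 2 - 1 - 101 / 100 ≤ 24 / 25 * (r + 1) ^ 2 * ((r ^ 2 - 1) ^ 2 - 7 * (3 / 100) * (r ^ 2 - 1)
      - 6 * (3 / 100)) := by
  have h3 : r ≤ 709 / 500 := by nlinarith
  nlinarith [mul_nonneg (sub_nonneg.2 h1) (sub_nonneg.2 h3), sq_nonneg (r - 28 / 25),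
    sq_nonneg ((r - 28 / 25) * r), sq_nonneg ((r - 28 / 25) * (r + 1) * r),
    mul_nonneg (sub_nonneg.2 h1) (sq_nonneg (r - 28 / 25)),
    mul_nonneg (sub_nonneg.2 h1) (sq_nonneg ((r - 28 / 25) * r)),
    mul_nonneg (sub_nonneg.2 h3) (sq_nonneg (r - 28 / 25)),
    mul_nonneg (sub_nonneg.2 h1) (sq_nonneg ((r - 28 / 25) * (r + 1)))]

lemma nA03' (r : ℝ) (h1 : 1 ≤ r) (h2 : 101 / 100 ≤ r ^ 2 - 1) :
    r ^ 2 - 1 - 101 / 100 ≤ 24 / 25 * (r - 1) ^ 2 * ((r ^ 2 - 1) ^ 2 - 7 * (3 / 100) * (r ^ 2 - 1)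
      - 6 * (3 / 100)) := by
  have h3 : 1417 / 1000 ≤ r := by nlinarith
  obtain ⟨d, hd, rfl⟩ : ∃ d : ℝ, 0 ≤ d ∧ r = 1417 / 1000 + d := ⟨r - 1417 / 1000, by linarith, by ring⟩
  nlinarith [mul_nonneg hd hd, mul_nonneg (mul_nonneg hd hd) hd, sq_nonneg (d - 1 / 5),
    mul_nonneg hd (sq_nonneg (d - 1 / 5)), mul_nonneg (mul_nonneg hd hd) (mul_nonneg hd hd),
    mul_nonneg (mul_nonneg (mul_nonneg hd hd) (mul_nonneg hd hd)) hd,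
    mul_nonneg (mul_nonneg (mul_nonneg hd hd) (mul_nonneg hd hd)) (mul_nonneg hd hd)]

lemma nA04 (r : ℝ) (h1 : 1 ≤ r) (h2 : r ^ 2 - 1 ≤ 113 / 100) :
    r ^ 2 - 1 - 113 / 100 ≤ 37 / 50 * (r + 1) ^ 2 * ((r ^ 2 - 1) ^ 2 - 7 * (1 / 25) * (r ^ 2 - 1)
      - 6 * (1 / 25)) := by
  have h3 : r ≤ 73 / 50 := by nlinarith
  nlinarith [mul_nonneg (sub_nonneg.2 h1) (sub_nonneg.2 h3), sq_nonneg (r - 23 / 20),
    sq_nonneg ((r - 23 / 20) * r), sq_nonneg ((r - 23 / 20) * (r + 1) * r),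
    mul_nonneg (sub_nonneg.2 h1) (sq_nonneg (r - 23 / 20)),
    mul_nonneg (sub_nonneg.2 h1) (sq_nonneg ((r - 23 / 20) * r)),
    mul_nonneg (sub_nonneg.2 h3) (sq_nonneg (r - 23 / 20)),
    mul_nonneg (sub_nonneg.2 h1) (sq_nonneg ((r - 23 / 20) * (r + 1)))]

lemma nA04' (r : ℝ) (h1 : 1 ≤ r) (h2 : 113 / 100 ≤ r ^ 2 - 1) :
    r ^ 2 - 1 - 113 / 100 ≤ 37 / 50 * (r - 1) ^ 2 * ((r ^ 2 - 1) ^ 2 - 7 * (1 / 25) * (r ^ 2 - 1)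
      - 6 * (1 / 25)) := by
  have h3 : 1459 / 1000 ≤ r := by nlinarith
  obtain ⟨d, hd, rfl⟩ : ∃ d : ℝ, 0 ≤ d ∧ r = 1459 / 1000 + d := ⟨r - 1459 / 1000, by linarith, by ring⟩
  nlinarith [mul_nonneg hd hd, mul_nonneg (mul_nonneg hd hd) hd, sq_nonneg (d - 1 / 5),
    mul_nonneg hd (sq_nonneg (d - 1 / 5)), mul_nonneg (mul_nonneg hd hd) (mul_nonneg hd hd),
    mul_nonneg (mul_nonneg (mul_nonneg hd hd) (mul_nonneg hd hd)) hd,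
    mul_nonneg (mul_nonneg (mul_nonneg hd hd) (mul_nonneg hd hd)) (mul_nonneg hd hd)]

lemma nA05 (r : ℝ) (h1 : 1 ≤ r) (h2 : r ^ 2 - 1 ≤ 31 / 25) :
    r ^ 2 - 1 - 31 / 25 ≤ 61 / 100 * (r + 1) ^ 2 * ((r ^ 2 - 1) ^ 2 - 7 * (1 / 20) * (r ^ 2 - 1)
      - 6 * (1 / 20)) := by
  have h3 : r ≤ 1497 / 1000 := by nlinarith
  nlinarith [mul_nonneg (sub_nonneg.2 h1) (sub_nonneg.2 h3), sq_nonneg (r - 59 / 50),
    sq_nonneg ((r - 59 / 50) * r), sq_nonneg ((r - 59 / 50) * (r + 1) * r),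
    mul_nonneg (sub_nonneg.2 h1) (sq_nonneg (r - 59 / 50)),
    mul_nonneg (sub_nonneg.2 h1) (sq_nonneg ((r - 59 / 50) * r)),
    mul_nonneg (sub_nonneg.2 h3) (sq_nonneg (r - 59 / 50)),
    mul_nonneg (sub_nonneg.2 h1) (sq_nonneg ((r - 59 / 50) * (r + 1)))]

lemma nA05' (r : ℝ) (h1 : 1 ≤ r) (h2 : 31 / 25 ≤ r ^ 2 - 1) :
    r ^ 2 - 1 - 31 / 25 ≤ 61 / 100 * (r - 1) ^ 2 * ((r ^ 2 - 1) ^ 2 - 7 * (1 / 20) * (r ^ 2 - 1)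
      - 6 * (1 / 20)) := by
  have h3 : 187 / 125 ≤ r := by nlinarith
  obtain ⟨d, hd, rfl⟩ : ∃ d : ℝ, 0 ≤ d ∧ r = 187 / 125 + d := ⟨r - 187 / 125, by linarith, by ring⟩
  nlinarith [mul_nonneg hd hd, mul_nonneg (mul_nonneg hd hd) hd, sq_nonneg (d - 1 / 5),
    mul_nonneg hd (sq_nonneg (d - 1 / 5)), mul_nonneg (mul_nonneg hd hd) (mul_nonneg hd hd),
    mul_nonneg (mul_nonneg (mul_nonneg hd hd) (mul_nonneg hd hd)) hd,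
    mul_nonneg (mul_nonneg (mul_nonneg hd hd) (mul_nonneg hd hd)) (mul_nonneg hd hd)]

lemma nA067 (r : ℝ) (h1 : 1 ≤ r) (h2 : r ^ 2 - 1 ≤ 141 / 100) :
    r ^ 2 - 1 - 141 / 100 ≤ 23 / 50 * (r + 1) ^ 2 * ((r ^ 2 - 1) ^ 2 - 7 * (67 / 1000) * (r ^ 2 - 1)
      - 6 * (67 / 1000)) := by
  have h3 : r ≤ 1553 / 1000 := by nlinarith
  nlinarith [mul_nonneg (sub_nonneg.2 h1) (sub_nonneg.2 h3), sq_nonneg (r - 123 / 100),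
    sq_nonneg ((r - 123 / 100) * r), sq_nonneg ((r - 123 / 100) * (r + 1) * r),
    mul_nonneg (sub_nonneg.2 h1) (sq_nonneg (r - 123 / 100)),
    mul_nonneg (sub_nonneg.2 h1) (sq_nonneg ((r - 123 / 100) * r)),
    mul_nonneg (sub_nonneg.2 h3) (sq_nonneg (r - 123 / 100)),
    mul_nonneg (sub_nonneg.2 h1) (sq_nonneg ((r - 123 / 100) * (r + 1)))]

lemma nA067' (r : ℝ) (h1 : 1 ≤ r) (h2 : 141 / 100 ≤ r ^ 2 - 1) :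
    r ^ 2 - 1 - 141 / 100 ≤ 23 / 50 * (r - 1) ^ 2 * ((r ^ 2 - 1) ^ 2 - 7 * (67 / 1000) * (r ^ 2 - 1)
      - 6 * (67 / 1000)) := by
  have h3 : 194 / 125 ≤ r := by nlinarith
  obtain ⟨d, hd, rfl⟩ : ∃ d : ℝ, 0 ≤ d ∧ r = 194 / 125 + d := ⟨r - 194 / 125, by linarith, by ring⟩
  nlinarith [mul_nonneg hd hd, mul_nonneg (mul_nonneg hd hd) hd, sq_nonneg (d - 1 / 5),
    mul_nonneg hd (sq_nonneg (d - 1 / 5)), mul_nonneg (mul_nonneg hd hd) (mul_nonneg hd hd),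
    mul_nonneg (mul_nonneg (mul_nonneg hd hd) (mul_nonneg hd hd)) hd,
    mul_nonneg (mul_nonneg (mul_nonneg hd hd) (mul_nonneg hd hd)) (mul_nonneg hd hd)]

lemma nA085 (r : ℝ) (h1 : 1 ≤ r) (h2 : r ^ 2 - 1 ≤ 79 / 50) :
    r ^ 2 - 1 - 79 / 50 ≤ 9 / 25 * (r + 1) ^ 2 * ((r ^ 2 - 1) ^ 2 - 7 * (17 / 200) * (r ^ 2 - 1)
      - 6 * (17 / 200)) := by
  have h3 : r ≤ 1607 / 1000 := by nlinarith
  nlinarith [mul_nonneg (sub_nonneg.2 h1) (sub_nonneg.2 h3), sq_nonneg (r - 32 / 25),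
    sq_nonneg ((r - 32 / 25) * r), sq_nonneg ((r - 32 / 25) * (r + 1) * r),
    mul_nonneg (sub_nonneg.2 h1) (sq_nonneg (r - 32 / 25)),
    mul_nonneg (sub_nonneg.2 h1) (sq_nonneg ((r - 32 / 25) * r)),
    mul_nonneg (sub_nonneg.2 h3) (sq_nonneg (r - 32 / 25)),
    mul_nonneg (sub_nonneg.2 h1) (sq_nonneg ((r - 32 / 25) * (r + 1)))]

lemma nA085' (r : ℝ) (h1 : 1 ≤ r) (h2 : 79 / 50 ≤ r ^ 2 - 1) :
    r ^ 2 - 1 - 79 / 50 ≤ 9 / 25 * (r - 1) ^ 2 * ((r ^ 2 - 1) ^ 2 - 7 * (17 / 200) * (r ^ 2 - 1)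
      - 6 * (17 / 200)) := by
  have h3 : 803 / 500 ≤ r := by nlinarith
  obtain ⟨d, hd, rfl⟩ : ∃ d : ℝ, 0 ≤ d ∧ r = 803 / 500 + d := ⟨r - 803 / 500, by linarith, by ring⟩
  nlinarith [mul_nonneg hd hd, mul_nonneg (mul_nonneg hd hd) hd, sq_nonneg (d - 1 / 5),
    mul_nonneg hd (sq_nonneg (d - 1 / 5)), mul_nonneg (mul_nonneg hd hd) (mul_nonneg hd hd),
    mul_nonneg (mul_nonneg (mul_nonneg hd hd) (mul_nonneg hd hd)) hd,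
    mul_nonneg (mul_nonneg (mul_nonneg hd hd) (mul_nonneg hd hd)) (mul_nonneg hd hd)]

lemma nA09 (r : ℝ) (h1 : 1 ≤ r) (h2 : r ^ 2 - 1 ≤ 163 / 100) :
    r ^ 2 - 1 - 163 / 100 ≤ 17 / 50 * (r + 1) ^ 2 * ((r ^ 2 - 1) ^ 2 - 7 * (9 / 100) * (r ^ 2 - 1)
      - 6 * (9 / 100)) := by
  have h3 : r ≤ 811 / 500 := by nlinarith
  nlinarith [mul_nonneg (sub_nonneg.2 h1) (sub_nonneg.2 h3), sq_nonneg (r - 13 / 10),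
    sq_nonneg ((r - 13 / 10) * r), sq_nonneg ((r - 13 / 10) * (r + 1) * r),
    mul_nonneg (sub_nonneg.2 h1) (sq_nonneg (r - 13 / 10)),
    mul_nonneg (sub_nonneg.2 h1) (sq_nonneg ((r - 13 / 10) * r)),
    mul_nonneg (sub_nonneg.2 h3) (sq_nonneg (r - 13 / 10)),
    mul_nonneg (sub_nonneg.2 h1) (sq_nonneg ((r - 13 / 10) * (r + 1)))]

lemma nA09' (r : ℝ) (h1 : 1 ≤ r) (h2 : 163 / 100 ≤ r ^ 2 - 1) :
    r ^ 2 - 1 - 163 / 100 ≤ 17 / 50 * (r - 1) ^ 2 * ((r ^ 2 - 1) ^ 2 - 7 * (9 / 100) * (r ^ 2 - 1)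
      - 6 * (9 / 100)) := by
  have h3 : 1621 / 1000 ≤ r := by nlinarith
  obtain ⟨d, hd, rfl⟩ : ∃ d : ℝ, 0 ≤ d ∧ r = 1621 / 1000 + d := ⟨r - 1621 / 1000, by linarith, by ring⟩
  nlinarith [mul_nonneg hd hd, mul_nonneg (mul_nonneg hd hd) hd, sq_nonneg (d - 1 / 5),
    mul_nonneg hd (sq_nonneg (d - 1 / 5)), mul_nonneg (mul_nonneg hd hd) (mul_nonneg hd hd),
    mul_nonneg (mul_nonneg (mul_nonneg hd hd) (mul_nonneg hd hd)) hd,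
    mul_nonneg (mul_nonneg (mul_nonneg hd hd) (mul_nonneg hd hd)) (mul_nonneg hd hd)]

lemma nA105 (r : ℝ) (h1 : 1 ≤ r) (h2 : r ^ 2 - 1 ≤ 44 / 25) :
    r ^ 2 - 1 - 44 / 25 ≤ 29 / 100 * (r + 1) ^ 2 * ((r ^ 2 - 1) ^ 2 - 7 * (21 / 200) * (r ^ 2 - 1)
      - 6 * (21 / 200)) := by
  have h3 : r ≤ 831 / 500 := by nlinarith
  nlinarith [mul_nonneg (sub_nonneg.2 h1) (sub_nonneg.2 h3), sq_nonneg (r - 133 / 100),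
    sq_nonneg ((r - 133 / 100) * r), sq_nonneg ((r - 133 / 100) * (r + 1) * r),
    mul_nonneg (sub_nonneg.2 h1) (sq_nonneg (r - 133 / 100)),
    mul_nonneg (sub_nonneg.2 h1) (sq_nonneg ((r - 133 / 100) * r)),
    mul_nonneg (sub_nonneg.2 h3) (sq_nonneg (r - 133 / 100)),
    mul_nonneg (sub_nonneg.2 h1) (sq_nonneg ((r - 133 / 100) * (r + 1)))]

lemma nA105' (r : ℝ) (h1 : 1 ≤ r) (h2 : 44 / 25 ≤ r ^ 2 - 1) :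
    r ^ 2 - 1 - 44 / 25 ≤ 29 / 100 * (r - 1) ^ 2 * ((r ^ 2 - 1) ^ 2 - 7 * (21 / 200) * (r ^ 2 - 1)
      - 6 * (21 / 200)) := by
  have h3 : 1661 / 1000 ≤ r := by nlinarith
  obtain ⟨d, hd, rfl⟩ : ∃ d : ℝ, 0 ≤ d ∧ r = 1661 / 1000 + d := ⟨r - 1661 / 1000, by linarith, by ring⟩
  nlinarith [mul_nonneg hd hd, mul_nonneg (mul_nonneg hd hd) hd, sq_nonneg (d - 1 / 5),
    mul_nonneg hd (sq_nonneg (d - 1 / 5)), mul_nonneg (mul_nonneg hd hd) (mul_nonneg hd hd),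
    mul_nonneg (mul_nonneg (mul_nonneg hd hd) (mul_nonneg hd hd)) hd,
    mul_nonneg (mul_nonneg (mul_nonneg hd hd) (mul_nonneg hd hd)) (mul_nonneg hd hd)]

lemma nA11 (r : ℝ) (h1 : 1 ≤ r) (h2 : r ^ 2 - 1 ≤ 9 / 5) :
    r ^ 2 - 1 - 9 / 5 ≤ 7 / 25 * (r + 1) ^ 2 * ((r ^ 2 - 1) ^ 2 - 7 * (11 / 100) * (r ^ 2 - 1)
      - 6 * (11 / 100)) := by
  have h3 : r ≤ 837 / 500 := by nlinarith
  nlinarith [mul_nonneg (sub_nonneg.2 h1) (sub_nonneg.2 h3), sq_nonneg (r - 27 / 20),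
    sq_nonneg ((r - 27 / 20) * r), sq_nonneg ((r - 27 / 20) * (r + 1) * r),
    mul_nonneg (sub_nonneg.2 h1) (sq_nonneg (r - 27 / 20)),
    mul_nonneg (sub_nonneg.2 h1) (sq_nonneg ((r - 27 / 20) * r)),
    mul_nonneg (sub_nonneg.2 h3) (sq_nonneg (r - 27 / 20)),
    mul_nonneg (sub_nonneg.2 h1) (sq_nonneg ((r - 27 / 20) * (r + 1)))]

lemma nA11' (r : ℝ) (h1 : 1 ≤ r) (h2 : 9 / 5 ≤ r ^ 2 - 1) :
    r ^ 2 - 1 - 9 / 5 ≤ 7 / 25 * (r - 1) ^ 2 * ((r ^ 2 - 1) ^ 2 - 7 * (11 / 100) * (r ^ 2 - 1)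
      - 6 * (11 / 100)) := by
  have h3 : 1673 / 1000 ≤ r := by nlinarith
  obtain ⟨d, hd, rfl⟩ : ∃ d : ℝ, 0 ≤ d ∧ r = 1673 / 1000 + d := ⟨r - 1673 / 1000, by linarith, by ring⟩
  nlinarith [mul_nonneg hd hd, mul_nonneg (mul_nonneg hd hd) hd, sq_nonneg (d - 1 / 5),
    mul_nonneg hd (sq_nonneg (d - 1 / 5)), mul_nonneg (mul_nonneg hd hd) (mul_nonneg hd hd),
    mul_nonneg (mul_nonneg (mul_nonneg hd hd) (mul_nonneg hd hd)) hd,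
    mul_nonneg (mul_nonneg (mul_nonneg hd hd) (mul_nonneg hd hd)) (mul_nonneg hd hd)]

lemma nA12 (r : ℝ) (h1 : 1 ≤ r) (h2 : r ^ 2 - 1 ≤ 189 / 100) :
    r ^ 2 - 1 - 189 / 100 ≤ 1 / 4 * (r + 1) ^ 2 * ((r ^ 2 - 1) ^ 2 - 7 * (3 / 25) * (r ^ 2 - 1)
      - 6 * (3 / 25)) := by
  have h3 : r ≤ 17 / 10 := by nlinarith
  nlinarith [mul_nonneg (sub_nonneg.2 h1) (sub_nonneg.2 h3), sq_nonneg (r - 137 / 100),
    sq_nonneg ((r - 137 / 100) * r), sq_nonneg ((r - 137 / 100) * (r + 1) * r),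
    mul_nonneg (sub_nonneg.2 h1) (sq_nonneg (r - 137 / 100)),
    mul_nonneg (sub_nonneg.2 h1) (sq_nonneg ((r - 137 / 100) * r)),
    mul_nonneg (sub_nonneg.2 h3) (sq_nonneg (r - 137 / 100)),
    mul_nonneg (sub_nonneg.2 h1) (sq_nonneg ((r - 137 / 100) * (r + 1)))]

lemma nA12' (r : ℝ) (h1 : 1 ≤ r) (h2 : 189 / 100 ≤ r ^ 2 - 1) :
    r ^ 2 - 1 - 189 / 100 ≤ 1 / 4 * (r - 1) ^ 2 * ((r ^ 2 - 1) ^ 2 - 7 * (3 / 25) * (r ^ 2 - 1)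
      - 6 * (3 / 25)) := by
  have h3 : 17 / 10 ≤ r := by nlinarith
  obtain ⟨d, hd, rfl⟩ : ∃ d : ℝ, 0 ≤ d ∧ r = 17 / 10 + d := ⟨r - 17 / 10, by linarith, by ring⟩
  nlinarith [mul_nonneg hd hd, mul_nonneg (mul_nonneg hd hd) hd, sq_nonneg (d - 1 / 5),
    mul_nonneg hd (sq_nonneg (d - 1 / 5)), mul_nonneg (mul_nonneg hd hd) (mul_nonneg hd hd),
    mul_nonneg (mul_nonneg (mul_nonneg hd hd) (mul_nonneg hd hd)) hd,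
    mul_nonneg (mul_nonneg (mul_nonneg hd hd) (mul_nonneg hd hd)) (mul_nonneg hd hd)]

end Vale.Agent.P224.R2.H686
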