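import Vale.Agent.P224.R2.H686.Kxi

/-!
Three exact relations for `E f²`, `E |ξ|²` and `E f ⟨x, J K x⟩`.
-/

namespace Vale.Agent.P224.R2.H686

open MeasureTheory Module Function Set Vale.Agent.P224.R2.H470
open scoped RealInnerProductSpace Topology ContDiff

set_option linter.unusedSectionVars false

section

variable {X : Type*} {E : Type*} [NormedAddCommGroup E] [InnerProductSpace ℝ E]
  [FiniteDimensional ℝ E] [TopologicalSpace X] [MeasurableSpace X] [CompactSpace X] [BorelSpace X]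
  {μ : Measure X} [IsProbabilityMeasure μ] {m : ℕ} {p n : X → E} {J : E →L[ℝ] E} {Λ : ℝ}

/-- the correlation of `f` and `⟨x, J K x⟩` -/
noncomputable def eB (μ : Measure X) (J : E →L[ℝ] E) (p : X → E) : ℝ :=
  ∫ x, ff J p x * ⟪p x, Bop J (p x)⟫ ∂μ

/-- `E f ⟨n, ξ⟩` in terms of second moments -/
lemma Dat.Fnxi (d : Dat μ m p n J Λ) :
    ∫ x, ff J p x * ⟪n x, xi J p n x⟫ ∂μ
      = 2 * ∫ x, aa J p n x ∂μ - 2 * ∫ x, H686.cc J p n x ^ 2 ∂μ
        - (m + 3) * ∫ x, ff J p x ^ 2 ∂μ := by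
  have h1 := d.rowF 0
  have ca := d.ca
  have cf := d.cf
  have cg := d.cg
  have ccc := d.cc
  simp only [mul_zero, zero_add, pow_zero, one_mul, pow_one, Nat.cast_zero] at h1
  have e1 : ∫ x, ff J p x * (trJ J - gg J n x) ∂μ
      = -∫ x, ff J p x * ⟪n x, xi J p n x⟫ ∂μ := by
    rw [← integral_neg]
    refine integral_congr_ae (Filter.Eventually.of_forall fun x => ?_)
    simp only
    rw [d.n_xi]
    ring
  have e2 : ∫ x, ‖T1 J p n x‖ ^ 2 ∂μ = ∫ x, aa J p n x ∂μ - ∫ x, H686.cc J p n x ^ 2 ∂μ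
      - ∫ x, ff J p x ^ 2 ∂μ := by
    simp only [d.t1_sq]
    rw [integral_sub (int_of_cont (by fun_prop)) (int_of_cont (by fun_prop)),
      integral_sub (int_of_cont (by fun_prop)) (int_of_cont (by fun_prop))]
  rw [e1, e2] at h1
  linarith

/-- the first relation -/
lemma Dat.idI (d : Dat μ m p n J Λ) :
    (m + 2) * ∫ x, ff J p x ^ 2 ∂μ
      = - eB μ J p - ∫ x, ff J p x * ⟪zz J p n x, xi J p n x + Kop J (p x)⟫ ∂μ
        + 2 * ∫ x, aa J p n x ∂μ - 2 * ∫ x, H686.cc J p n x ^ 2 ∂μ := by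
  have h1 := d.Fnxi
  have cp := d.h.cp
  have cf := d.cf
  have cz := d.cz
  have cx := d.cxi
  have e1 : ∫ x, ff J p x * ⟪n x, xi J p n x⟫ ∂μ = eB μ J p - ∫ x, ff J p x ^ 2 ∂μ
      + ∫ x, ff J p x * ⟪zz J p n x, xi J p n x + Kop J (p x)⟫ ∂μ := by
    rw [eB, ← integral_sub (int_of_cont (by fun_prop)) (int_of_cont (by fun_prop)),
      ← integral_add (int_of_cont (by fun_prop)) (int_of_cont (by fun_prop))]
    refine integral_congr_ae (Filter.Eventually.of_forall fun x => ?_)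
    simp only
    rw [d.n_xi']
    ring
  rw [e1] at h1
  linarith

/-- the second relation -/
lemma Dat.idB (d : Dat μ m p n J Λ) :
    -((m + 3) * eB μ J p)
      = (1 + trJ J ^ 2) * (2 * ∫ x, aa J p n x ∂μ - 2 * ∫ x, H686.cc J p n x ^ 2 ∂μ
        - (m + 3) * ∫ x, ff J p x ^ 2 ∂μ)
        - 2 * ∫ x, ff J p x * ⟪zz J p n x, xi J p n x⟫ ∂μ + ∫ x, ff J p x ^ 2 ∂μ
        - 2 * trJ J * ∫ x, ff J p x * H686.cc J p n x ∂μ
        + ∫ x, ff J p x * (trJ J * ‖xi J p n x‖ ^ 2 + ⟪xi J p n x, J (xi J p n x)⟫) ∂μ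
        - 2 * ∫ x, H686.cc J p n x * ⟪n x, Bop J (p x)⟫ ∂μ := by
  have h1 := d.rowB
  have h2 := d.Fnxi
  have cp := d.h.cp
  have cn := d.h.cn
  have cf := d.cf
  have cz := d.cz
  have cx := d.cxi
  have ccc := d.cc
  rw [← h2]
  have e1 : ∫ x, ff J p x * ⟪n x, Bop J (n x)⟫ ∂μ
      = (1 + trJ J ^ 2) * ∫ x, ff J p x * ⟪n x, xi J p n x⟫ ∂μ
        - 2 * ∫ x, ff J p x * ⟪zz J p n x, xi J p n x⟫ ∂μ + ∫ x, ff J p x ^ 2 ∂μ
        - 2 * trJ J * ∫ x, ff J p x * H686.cc J p n x ∂μ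
        + ∫ x, ff J p x * (trJ J * ‖xi J p n x‖ ^ 2 + ⟪xi J p n x, J (xi J p n x)⟫) ∂μ := by
    rw [← integral_const_mul, ← integral_const_mul, ← integral_const_mul,
      ← integral_sub (int_of_cont (by fun_prop)) (int_of_cont (by fun_prop)),
      ← integral_add (int_of_cont (by fun_prop)) (int_of_cont (by fun_prop)),
      ← integral_sub (int_of_cont (by fun_prop)) (int_of_cont (by fun_prop)),
      ← integral_add (int_of_cont (by fun_prop)) (int_of_cont (by fun_prop))]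
    refine integral_congr_ae (Filter.Eventually.of_forall fun x => ?_)
    simp only
    rw [d.nBn]
    ring
  rw [e1] at h1
  have e2 : eB μ J p = ∫ x, ff J p x * ⟪p x, Bop J (p x)⟫ ∂μ := rfl
  rw [e2]
  linarith

/-- the third relation -/
lemma Dat.idR (d : Dat μ m p n J Λ) :
    (1 - ∫ x, aa J p n x ∂μ) * ∫ x, ‖xi J p n x‖ ^ 2 ∂μ
      = (1 - ∫ x, aa J p n x ∂μ) * ((m + 3) * ∫ x, aa J p n x ∂μ)
        - trJ J * ∫ x, ⟪zz J p n x, J (zz J p n x) - trJ J • zz J p n x⟫ ∂μ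
        - (m + 2) * ∫ x, aa J p n x ∂μ
        + (m + 2) * (2 * ∫ x, H686.cc J p n x ^ 2 ∂μ - ∫ x, H686.cc J p n x * aa J p n x ∂μ
          - eB μ J p - ∫ x, ff J p x * ⟪zz J p n x, Kop J (p x)⟫ ∂μ
          + trJ J * ∫ x, ff J p x * H686.cc J p n x ∂μ) := by
  have h1 := d.rowR2
  have h2 := d.E_xi
  have h3 := d.E_nK
  have cp := d.h.cp
  have cn := d.h.cn
  have cf := d.cf
  have cz := d.cz
  have ca := d.ca
  have cq := d.cq
  have cx := d.cxi
  have ccc := d.cc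
  have hW : ∀ x, ⟪n x, Wop J (p x)⟫ = ⟪n x, Kop J (p x)⟫ + trJ J * (1 - H686.cc J p n x) := by
    intro x
    rw [← d.nJp x, ← inner_smul_right, ← inner_add_right]
    congr 1
    simp [Kop, Wop]
    abel
  have hK : ∀ x, ⟪n x, Kop J (p x)⟫ = ⟪p x, Bop J (p x)⟫ + ⟪zz J p n x, Kop J (p x)⟫ := by
    intro x
    rw [Bop_apply, ← d.sym, ← inner_add_left]
    congr 1
    simp [zz]
  have e1 : ∫ x, ⟪n x, Wop J (p x)⟫ ∂μ = ∫ x, ⟪n x, Kop J (p x)⟫ ∂μ
      + trJ J * (1 - ∫ x, aa J p n x ∂μ) := by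
    simp only [hW]
    rw [integral_add (int_of_cont (by fun_prop)) (int_of_cont (by fun_prop)), integral_const_mul,
      integral_sub (integrable_const _) (int_of_cont (by fun_prop)), d.Ec]
    simp
  have e2 : ∫ x, ⟪n x, Wop J (p x)⟫ * ff J p x ∂μ = eB μ J p
      + ∫ x, ff J p x * ⟪zz J p n x, Kop J (p x)⟫ ∂μ
      - trJ J * ∫ x, ff J p x * H686.cc J p n x ∂μ := by
    have e3 : ∀ x, ⟪n x, Wop J (p x)⟫ * ff J p x = ff J p x * ⟪p x, Bop J (p x)⟫
        + ff J p x * ⟪zz J p n x, Kop J (p x)⟫ + trJ J * ff J p x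
        - trJ J * (ff J p x * H686.cc J p n x) := by
      intro x
      rw [hW, hK]
      ring
    simp only [e3]
    rw [integral_sub (int_of_cont (by fun_prop)) (int_of_cont (by fun_prop)),
      integral_add (int_of_cont (by fun_prop)) (int_of_cont (by fun_prop)),
      integral_add (int_of_cont (by fun_prop)) (int_of_cont (by fun_prop)), integral_const_mul,
      integral_const_mul, d.Ef, eB]
    ring
  have e4 : ∫ x, (1 - H686.cc J p n x) * qq J p x ∂μ = -∫ x, aa J p n x ∂μ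
      - ∫ x, H686.cc J p n x * aa J p n x ∂μ + 2 * ∫ x, H686.cc J p n x ^ 2 ∂μ := by
    have e5 : ∀ x, (1 - H686.cc J p n x) * qq J p x = qq J p x
        - H686.cc J p n x * aa J p n x + 2 * H686.cc J p n x ^ 2 := by
      intro x
      have := d.a_eq x
      have e6 : qq J p x = aa J p n x - 2 * H686.cc J p n x := by linarith
      rw [e6]
      ring
    simp only [e5]
    rw [integral_add (int_of_cont (by fun_prop)) (int_of_cont (by fun_prop)),
      integral_sub (int_of_cont (by fun_prop)) (int_of_cont (by fun_prop)), integral_const_mul,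
      d.Eq]
  rw [e1, e2, e4, h3] at h1
  have h4 : t0 J - 1 = ∫ x, ‖xi J p n x‖ ^ 2 ∂μ + trJ J ^ 2 - (m + 3) * ∫ x, aa J p n x ∂μ := by
    linarith
  rw [h4] at h1
  linear_combination h1

end

end Vale.Agent.P224.R2.H686
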