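import Vale.Agent.P224.R2.H686.PhiB
import Vale.Agent.P224.R2.H686.PhiA

/-!
The combined relation for `E f²` and `E |ξ|²`, with a pointwise majorant.
-/

namespace Vale.Agent.P224.R2.H686

open MeasureTheory Module Function Set Vale.Agent.P224.R2.H470
open scoped RealInnerProductSpace Topology ContDiff

set_option linter.unusedSectionVars false

section

variable {X : Type*} {E : Type*} [NormedAddCommGroup E] [InnerProductSpace ℝ E]
  [FiniteDimensional ℝ E] [TopologicalSpace X] [MeasurableSpace X] [CompactSpace X] [BorelSpace X]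
  {μ : Measure X} [IsProbabilityMeasure μ] {m : ℕ} {p n : X → E} {J : E →L[ℝ] E} {Λ : ℝ}

/-- the vector `J² n - γ² n` -/
noncomputable def yy (J : E →L[ℝ] E) (n : X → E) (x : X) : E :=
  J (J (n x)) - trJ J ^ 2 • n x

lemma Dat.cy (d : Dat μ m p n J Λ) : Continuous (yy J n) := by
  have cn := d.h.cn
  unfold yy
  fun_prop

lemma Dat.pz (d : Dat μ m p n J Λ) (x : X) : ⟪p x, zz J p n x⟫ = - ff J p x := by
  rw [real_inner_comm]
  have := d.f_eq x
  linarith

lemma Kop_n (x : X) : Kop J (n x) = J (xi J p n x) - zz J p n x := by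
  have e1 : J (J (n x)) = J (p x) + trJ J • J (n x) + J (xi J p n x) := by
    conv_lhs => rw [Jn_eq (p := p) x]
    simp only [map_add, map_smul]
  rw [Kop_apply, e1, zz]
  abel

/-- `⟨n, B n⟩`, short form -/
lemma Dat.nBn2 (d : Dat μ m p n J Λ) (x : X) :
    ⟪n x, Bop J (n x)⟫ = trJ J ^ 2 * ⟪n x, xi J p n x⟫ + ⟪xi J p n x, yy J n x⟫ + ff J p x
      - trJ J * H686.cc J p n x - ⟪zz J p n x, xi J p n x⟫ := by
  have h2 : ⟪n x, Bop J (n x)⟫ = ⟪J (n x), J (xi J p n x) - zz J p n x⟫ := by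
    rw [Bop_apply, ← d.sym, Kop_n (p := p)]
  have h3 : ⟪J (n x), J (xi J p n x)⟫ = trJ J ^ 2 * ⟪n x, xi J p n x⟫
      + ⟪xi J p n x, yy J n x⟫ := by
    rw [← d.sym, yy, inner_sub_right, inner_smul_right, real_inner_comm (xi J p n x) (n x),
      real_inner_comm (xi J p n x) (J (J (n x)))]
    ring
  have h4 : ⟪J (n x), zz J p n x⟫ = - ff J p x + trJ J * H686.cc J p n x
      + ⟪zz J p n x, xi J p n x⟫ := by
    conv_lhs => rw [Jn_eq (p := p) x]
    rw [inner_add_left, inner_add_left, inner_smul_left, d.pz x, RCLike.conj_to_real,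
      real_inner_comm (zz J p n x) (xi J p n x)]
    rfl
  rw [h2, inner_sub_right, h3, h4]
  ring

/-- `⟨n, B p⟩`, short form -/
lemma Dat.nBp (d : Dat μ m p n J Λ) (x : X) :
    ⟪n x, Bop J (p x)⟫ = ⟪xi J p n x, J (J (p x))⟫ + aa J p n x - H686.cc J p n x := by
  have h1 : ⟪n x, Bop J (p x)⟫ = ⟪J (xi J p n x) - zz J p n x, J (p x)⟫ := by
    rw [Bop_apply, JK_comm, ← d.symK, Kop_n (p := p)]
  have h2 : ⟪zz J p n x, J (p x)⟫ = H686.cc J p n x - aa J p n x := by
    rw [Jp_eq (n := n) x, inner_sub_right, real_inner_self_eq_norm_sq, real_inner_comm (n x)]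
    rfl
  rw [h1, inner_sub_left, h2, d.sym]
  ring

/-- the pairing of `z` with `ξ + K p` -/
lemma Dat.z_sum (d : Dat μ m p n J Λ) (x : X) :
    ⟪zz J p n x, xi J p n x + Kop J (p x)⟫ = ⟪zz J p n x, J (n x + J (p x))⟫
      + trJ J * qq J p x + 2 * ff J p x := by
  have h1 : xi J p n x + Kop J (p x) = J (n x + J (p x)) - trJ J • (n x + J (p x))
      - (2 : ℝ) • p x := by
    simp only [xi, Kop_apply, map_add, smul_add, two_smul]
    abel
  have h2 : ⟪zz J p n x, n x + J (p x)⟫ = - qq J p x := by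
    rw [d.q_eq, zz, inner_add_right, inner_sub_left, inner_sub_left, d.h.nnn x,
      real_inner_self_eq_norm_sq, real_inner_comm (n x) (J (p x))]
    ring
  rw [h1, inner_sub_right, inner_sub_right, inner_smul_right, inner_smul_right, h2,
    real_inner_comm (p x), d.pz x]
  ring

lemma Dat.z_K (x : X) :
    ⟪zz J p n x, Kop J (p x)⟫ = 1 / 2 * ⟪zz J p n x, xi J p n x + Kop J (p x)⟫
      - 1 / 2 * ⟪zz J p n x, J (zz J p n x) - trJ J • zz J p n x⟫ := by
  have h1 := congrArg (fun u => ⟪zz J p n x, u⟫) (xi_eq (J := J) (p := p) (n := n) x)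
  simp only [inner_add_right] at h1
  rw [inner_add_right, h1]
  ring

/-- the number `P = (m + 3) E f² - 2 E a + 2 E c²` -/
noncomputable def PP (μ : Measure X) (m : ℕ) (J : E →L[ℝ] E) (p n : X → E) : ℝ :=
  (m + 3) * ∫ x, ff J p x ^ 2 ∂μ - 2 * ∫ x, aa J p n x ∂μ + 2 * ∫ x, H686.cc J p n x ^ 2 ∂μ

/-- first integrand -/
noncomputable def Psi1 (J : E →L[ℝ] E) (p n : X → E) (x : X) : ℝ :=
  ff J p x * ⟪xi J p n x, yy J n x⟫ + ff J p x ^ 2 - trJ J * (ff J p x * H686.cc J p n x)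
    - ff J p x * ⟪zz J p n x, xi J p n x⟫ - 2 * (H686.cc J p n x * ⟪xi J p n x, J (J (p x))⟫)
    - 2 * (H686.cc J p n x * aa J p n x) + 2 * H686.cc J p n x ^ 2

/-- second integrand -/
noncomputable def Psi2 (J : E →L[ℝ] E) (p n : X → E) (x : X) : ℝ :=
  - (ff J p x * (⟪zz J p n x, J (n x + J (p x))⟫ + trJ J * qq J p x)) - ff J p x ^ 2

/-- third integrand; `H` is the mean of `a` -/
noncomputable def Psi3 (m : ℕ) (H : ℝ) (J : E →L[ℝ] E) (p n : X → E) (x : X) : ℝ :=
  - (trJ J * ⟪zz J p n x, J (zz J p n x) - trJ J • zz J p n x⟫)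
    + ((1 - H) * (m + 3) - (m + 2)) * aa J p n x
    + (m + 2) * (2 * H686.cc J p n x ^ 2 - H686.cc J p n x * aa J p n x
      + (1 / 2 * Psi2 J p n x - 1 / 2 * ff J p x ^ 2)
      + 1 / 2 * (ff J p x * ⟪zz J p n x, J (zz J p n x) - trJ J • zz J p n x⟫)
      + trJ J * (ff J p x * H686.cc J p n x))

lemma Dat.psi1 (d : Dat μ m p n J Λ) :
    ∫ x, Psi1 J p n x ∂μ = -((m + 3) * eB μ J p) + trJ J ^ 2 * PP μ m J p n := by
  have h1 := d.rowB
  have h2 := d.Fnxi
  have cp := d.h.cp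
  have cn := d.h.cn
  have cf := d.cf
  have cz := d.cz
  have cx := d.cxi
  have cy := d.cy
  have ca := d.ca
  have ccc := d.cc
  have e2 : eB μ J p = ∫ x, ff J p x * ⟪p x, Bop J (p x)⟫ ∂μ := rfl
  have e3 : ∫ x, ff J p x * ⟪n x, xi J p n x⟫ ∂μ = - PP μ m J p n := by
    rw [h2, PP]
    ring
  have e4 : ∀ x, Psi1 J p n x = ff J p x * ⟪n x, Bop J (n x)⟫
      - 2 * (H686.cc J p n x * ⟪n x, Bop J (p x)⟫)
      - trJ J ^ 2 * (ff J p x * ⟪n x, xi J p n x⟫) := by
    intro x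
    rw [d.nBn2, d.nBp, Psi1]
    ring
  simp only [e4]
  rw [integral_sub (int_of_cont (by fun_prop)) (int_of_cont (by fun_prop)),
    integral_sub (int_of_cont (by fun_prop)) (int_of_cont (by fun_prop)), integral_const_mul,
    integral_const_mul, e3, e2]
  linarith

lemma Dat.cPsi2 (d : Dat μ m p n J Λ) : Continuous (Psi2 J p n) := by
  have cp := d.h.cp
  have cn := d.h.cn
  have cf := d.cf
  have cz := d.cz
  have cq := d.cq
  unfold Psi2
  fun_prop

lemma Dat.psi2 (d : Dat μ m p n J Λ) :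
    ∫ x, Psi2 J p n x ∂μ = PP μ m J p n + eB μ J p := by
  have h1 := d.idI
  have cp := d.h.cp
  have cn := d.h.cn
  have cf := d.cf
  have cz := d.cz
  have cx := d.cxi
  have e4 : ∀ x, Psi2 J p n x = ff J p x ^ 2
      - ff J p x * ⟪zz J p n x, xi J p n x + Kop J (p x)⟫ := by
    intro x
    rw [d.z_sum, Psi2]
    ring
  simp only [e4]
  rw [integral_sub (int_of_cont (by fun_prop)) (int_of_cont (by fun_prop)), PP]
  linarith

lemma Dat.psi3 (d : Dat μ m p n J Λ) :
    ∫ x, Psi3 m (∫ y, aa J p n y ∂μ) J p n x ∂μ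
      = (1 - ∫ x, aa J p n x ∂μ) * ∫ x, ‖xi J p n x‖ ^ 2 ∂μ + (m + 2) * eB μ J p := by
  have h1 := d.idR
  have cp := d.h.cp
  have cn := d.h.cn
  have cf := d.cf
  have cz := d.cz
  have cx := d.cxi
  have ca := d.ca
  have ccc := d.cc
  set H := ∫ y, aa J p n y ∂μ with hH
  have e4 : ∀ x, Psi3 m H J p n x
      = ((1 - H) * (m + 3) - (m + 2)) * aa J p n x
        - trJ J * ⟪zz J p n x, J (zz J p n x) - trJ J • zz J p n x⟫
        + ((m + 2) * 2) * H686.cc J p n x ^ 2 - (m + 2) * (H686.cc J p n x * aa J p n x)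
        - (m + 2) * (ff J p x * ⟪zz J p n x, Kop J (p x)⟫)
        + ((m + 2) * trJ J) * (ff J p x * H686.cc J p n x) := by
    intro x
    rw [Dat.z_K, d.z_sum, Psi3, Psi2]
    ring
  simp only [e4]
  rw [integral_add (int_of_cont (by fun_prop)) (int_of_cont (by fun_prop)),
    integral_sub (int_of_cont (by fun_prop)) (int_of_cont (by fun_prop)),
    integral_sub (int_of_cont (by fun_prop)) (int_of_cont (by fun_prop)),
    integral_add (int_of_cont (by fun_prop)) (int_of_cont (by fun_prop)),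
    integral_sub (int_of_cont (by fun_prop)) (int_of_cont (by fun_prop)), integral_const_mul,
    integral_const_mul, integral_const_mul, integral_const_mul, integral_const_mul,
    integral_const_mul, ← hH]
  linarith

/-- the combined integrand -/
noncomputable def Psi (m : ℕ) (θ H : ℝ) (J : E →L[ℝ] E) (p n : X → E) (x : X) : ℝ :=
  Psi2 J p n x + (1 + θ) / (m + 3) * Psi1 J p n x + θ / (m + 2) * Psi3 m H J p n x

/-- the combined relation -/
theorem Dat.psi (d : Dat μ m p n J Λ) (θ : ℝ) :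
    ∫ x, Psi m θ (∫ y, aa J p n y ∂μ) J p n x ∂μ
      = (1 + (1 + θ) / (m + 3) * trJ J ^ 2) * PP μ m J p n
        + θ / (m + 2) * ((1 - ∫ x, aa J p n x ∂μ) * ∫ x, ‖xi J p n x‖ ^ 2 ∂μ) := by
  have cp := d.h.cp
  have cn := d.h.cn
  have cf := d.cf
  have cz := d.cz
  have cx := d.cxi
  have cy := d.cy
  have ca := d.ca
  have ccc := d.cc
  have c2 := d.cPsi2
  have c1 : Continuous (Psi1 J p n) := by
    unfold Psi1
    fun_prop
  have c3 : Continuous (Psi3 m (∫ y, aa J p n y ∂μ) J p n) := by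
    unfold Psi3
    fun_prop
  have m0 : (0 : ℝ) ≤ m := Nat.cast_nonneg m
  have h2 : (m : ℝ) + 2 ≠ 0 := by positivity
  have h3 : (m : ℝ) + 3 ≠ 0 := by positivity
  unfold Psi
  rw [integral_add (int_of_cont (by fun_prop)) (int_of_cont (by fun_prop)),
    integral_add (int_of_cont (by fun_prop)) (int_of_cont (by fun_prop)), integral_const_mul,
    integral_const_mul, d.psi1, d.psi2, d.psi3]
  field_simp
  ring

end

end Vale.Agent.P224.R2.H686
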