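import Vale.Agent.P224.R2.H686.PhiC

/-!
Pointwise majorant of the combined integrand, and the general upper row for `E f²`.
-/

namespace Vale.Agent.P224.R2.H686

open MeasureTheory Module Function Set Vale.Agent.P224.R2.H470
open scoped RealInnerProductSpace Topology ContDiff

set_option linter.unusedSectionVars false

section

variable {X : Type*} {E : Type*} [NormedAddCommGroup E] [InnerProductSpace ℝ E]
  [FiniteDimensional ℝ E] [TopologicalSpace X] [MeasurableSpace X] [CompactSpace X] [BorelSpace X]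
  {μ : Measure X} [IsProbabilityMeasure μ] {m : ℕ} {p n : X → E} {J : E →L[ℝ] E} {Λ : ℝ}

/-- the scaled size of `ξ` -/
noncomputable def vv (m : ℕ) (J : E →L[ℝ] E) (p n : X → E) (x : X) : ℝ :=
  ‖xi J p n x‖ / √m

lemma vv_nonneg (x : X) : 0 ≤ vv m J p n x := div_nonneg (norm_nonneg _) (Real.sqrt_nonneg _)

lemma Dat.vv_eq (d : Dat μ m p n J Λ) (x : X) : ‖xi J p n x‖ = vv m J p n x * √m := by
  have := Real.sqrt_pos.2 d.m_pos
  rw [vv]
  field_simp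

lemma Dat.ff_eq (d : Dat μ m p n J Λ) (x : X) : |ff J p x| = ph m J p x / √m := by
  have := Real.sqrt_pos.2 d.m_pos
  rw [ph]
  field_simp

/-- size of `J² n - γ² n` -/
lemma Dat.y_le (d : Dat μ m p n J Λ) (x : X) : ‖yy J n x‖ ≤ Λ ^ 2 * m := by
  have m0 : (0 : ℝ) ≤ m := Nat.cast_nonneg m
  have s2 : √(m : ℝ) ^ 2 = m := Real.sq_sqrt m0
  set M := Λ * √(m : ℝ) with hM
  have M0 : 0 ≤ M := mul_nonneg d.l0 (Real.sqrt_nonneg _)
  have M2 : M ^ 2 = Λ ^ 2 * m := by rw [hM, mul_pow, s2]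
  have g0 : trJ J ^ 2 ≤ M ^ 2 := by
    rw [← sq_abs]
    exact pow_le_pow_left₀ (abs_nonneg _) d.trJ_le 2
  have hn : ‖J (n x)‖ ≤ M := by
    have := d.nJ (n x)
    rwa [d.h.nn, mul_one] at this
  have hn2 : ‖J (n x)‖ ^ 2 ≤ M ^ 2 := pow_le_pow_left₀ (norm_nonneg _) hn 2
  have hJJ : ‖J (J (n x))‖ ≤ M * ‖J (n x)‖ := d.nJ _
  have hJJ2 : ‖J (J (n x))‖ ^ 2 ≤ M ^ 2 * ‖J (n x)‖ ^ 2 := by
    rw [← mul_pow]
    exact pow_le_pow_left₀ (norm_nonneg _) hJJ 2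
  have e1 : ‖yy J n x‖ ^ 2 = ‖J (J (n x))‖ ^ 2 - 2 * trJ J ^ 2 * ‖J (n x)‖ ^ 2
      + (trJ J ^ 2) ^ 2 := by
    rw [yy, norm_sub_sq_real, inner_smul_right, d.sym, real_inner_self_eq_norm_sq, norm_smul,
      Real.norm_eq_abs, d.h.nn, mul_one, sq_abs]
    ring
  have h1 : ‖yy J n x‖ ^ 2 ≤ (M ^ 2) ^ 2 := by
    rw [e1]
    have k1 := sq_nonneg ‖J (n x)‖
    have k2 := sq_nonneg (trJ J)
    rcases le_total (2 * trJ J ^ 2) (M ^ 2) with h | h
    · nlinarith [mul_nonneg (sub_nonneg.2 h) (sub_nonneg.2 hn2), mul_nonneg k2 (sub_nonneg.2 g0)]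
    · nlinarith [mul_nonneg (sub_nonneg.2 h) k1, mul_nonneg k2 (sub_nonneg.2 g0),
        mul_nonneg (sq_nonneg M) (sub_nonneg.2 g0)]
  rw [← M2]
  exact (pow_le_pow_iff_left₀ (norm_nonneg _) (sq_nonneg M) two_ne_zero).1 h1

lemma Dat.np_sq (d : Dat μ m p n J Λ) (x : X) :
    ‖n x + J (p x)‖ ^ 2 = 4 + 2 * qq J p x - aa J p n x := by
  have h1 := d.nJp x
  have h2 := d.a_eq x
  have h3 := d.q_eq x
  rw [norm_add_sq_real, d.h.nn, h1]
  linarith

lemma Dat.b_nonneg (d : Dat μ m p n J Λ) (x : X) : 0 ≤ 4 + 2 * qq J p x - aa J p n x := by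
  rw [← d.np_sq]
  positivity

lemma Dat.w_le (d : Dat μ m p n J Λ) (x : X) :
    |⟪zz J p n x, J (n x + J (p x))⟫|
      ≤ Λ * √m * √(aa J p n x * (4 + 2 * qq J p x - aa J p n x)) := by
  have h1 := abs_real_inner_le_norm (zz J p n x) (J (n x + J (p x)))
  have h2 := d.nJ (n x + J (p x))
  have h3 : √(aa J p n x * (4 + 2 * qq J p x - aa J p n x))
      = ‖zz J p n x‖ * ‖n x + J (p x)‖ := by
    rw [← d.np_sq, aa, ← mul_pow, Real.sqrt_sq (by positivity)]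
  rw [h3]
  refine h1.trans ((mul_le_mul_of_nonneg_left h2 (norm_nonneg _)).trans (le_of_eq ?_))
  ring

lemma Dat.Jp_norm (d : Dat μ m p n J Λ) (x : X) : ‖J (p x)‖ = √(1 + qq J p x) := by
  have h3 := d.q_eq x
  rw [show 1 + qq J p x = ‖J (p x)‖ ^ 2 by linarith, Real.sqrt_sq (norm_nonneg _)]

lemma Dat.c_le (d : Dat μ m p n J Λ) (x : X) : |H686.cc J p n x| ≤ √(aa J p n x) := by
  have h1 := abs_real_inner_le_norm (n x) (zz J p n x)
  rw [d.h.nn, one_mul] at h1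
  rwa [aa, Real.sqrt_sq (norm_nonneg _)]

lemma Dat.D_le (d : Dat μ m p n J Λ) (x : X) :
    |⟪zz J p n x, J (zz J p n x) - trJ J • zz J p n x⟫| ≤ 2 * (Λ * √m) * aa J p n x := by
  have h1 := abs_real_inner_le_norm (zz J p n x) (J (zz J p n x) - trJ J • zz J p n x)
  have h2 : ‖J (zz J p n x) - trJ J • zz J p n x‖ ≤ 2 * (Λ * √m) * ‖zz J p n x‖ := by
    refine (norm_sub_le _ _).trans ?_
    have h3 := d.nJ (zz J p n x)
    have h4 : ‖trJ J • zz J p n x‖ ≤ Λ * √m * ‖zz J p n x‖ := by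
      rw [norm_smul, Real.norm_eq_abs]
      exact mul_le_mul_of_nonneg_right d.trJ_le (norm_nonneg _)
    linarith
  have h5 := mul_le_mul_of_nonneg_left h2 (norm_nonneg (zz J p n x))
  rw [aa]
  nlinarith

/-- the size of `ξ` -/
lemma Dat.xi_le (d : Dat μ m p n J Λ) (x : X) :
    ‖xi J p n x‖ ≤ Λ * √m + √(1 + Λ ^ 2 * m) := by
  have h1 : xi J p n x = J (n x) - (p x + trJ J • n x) := by
    simp only [xi]
    abel
  have hn : ‖J (n x)‖ ≤ Λ * √m := by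
    have := d.nJ (n x)
    rwa [d.h.nn, mul_one] at this
  have s2 : √(m : ℝ) ^ 2 = m := Real.sq_sqrt (Nat.cast_nonneg m)
  have g0 : trJ J ^ 2 ≤ Λ ^ 2 * m := by
    have := pow_le_pow_left₀ (abs_nonneg _) d.trJ_le 2
    rwa [sq_abs, mul_pow, s2] at this
  have h2 : ‖p x + trJ J • n x‖ ≤ √(1 + Λ ^ 2 * m) := by
    apply Real.le_sqrt_of_sq_le
    rw [norm_add_sq_real, inner_smul_right, d.h.pn, norm_smul, Real.norm_eq_abs, d.h.nn, mul_one,
      sq_abs, d.h.np]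
    linarith
  rw [h1]
  exact (norm_sub_le _ _).trans (add_le_add hn h2)

/-- the majorant -/
noncomputable def PhiU (m : ℕ) (θ Λ a q φ c v : ℝ) : ℝ :=
  (1 + θ / 2) * (Λ * φ * (√(a * (4 + 2 * q - a)) + |q|))
    + (1 + θ) * (Λ ^ 2 * φ * v + 2 * Λ * |c| * v * √(1 + q))
    + (1 + θ) / (m + 3) * (Λ * φ * |c| + φ * √a * v + 2 * c ^ 2 - 2 * c * a)
    + θ * (a / (m + 2) + 2 * Λ ^ 2 * a + 2 * c ^ 2 - c * a + Λ * φ * a + Λ * φ * |c|)

lemma Dat.S_sq (d : Dat μ m p n J Λ) : √(m : ℝ) * √(m : ℝ) = m :=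
  Real.mul_self_sqrt d.m_pos.le

lemma Dat.k1 (d : Dat μ m p n J Λ) (x : X) :
    -(ff J p x * (⟪zz J p n x, J (n x + J (p x))⟫ + trJ J * qq J p x))
      ≤ Λ * ph m J p x * (√(aa J p n x * (4 + 2 * qq J p x - aa J p n x)) + |qq J p x|) := by
  refine (neg_le_abs _).trans ?_
  rw [abs_mul]
  have h1 : |⟪zz J p n x, J (n x + J (p x))⟫ + trJ J * qq J p x|
      ≤ Λ * √m * √(aa J p n x * (4 + 2 * qq J p x - aa J p n x)) + Λ * √m * |qq J p x| := by
    refine (abs_add_le _ _).trans (add_le_add (d.w_le x) ?_)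
    rw [abs_mul]
    exact mul_le_mul_of_nonneg_right d.trJ_le (abs_nonneg _)
  refine (mul_le_mul_of_nonneg_left h1 (abs_nonneg _)).trans (le_of_eq ?_)
  rw [ph]
  ring

lemma Dat.k2 (d : Dat μ m p n J Λ) (x : X) :
    ff J p x * ⟪xi J p n x, yy J n x⟫ ≤ Λ ^ 2 * m * (ph m J p x * vv m J p n x) := by
  refine (le_abs_self _).trans ?_
  rw [abs_mul]
  have h1 : |⟪xi J p n x, yy J n x⟫| ≤ vv m J p n x * √m * (Λ ^ 2 * m) := by
    refine (abs_real_inner_le_norm _ _).trans ?_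
    rw [d.vv_eq x]
    exact mul_le_mul_of_nonneg_left (d.y_le x)
      (mul_nonneg (vv_nonneg x) (Real.sqrt_nonneg _))
  refine (mul_le_mul_of_nonneg_left h1 (abs_nonneg _)).trans (le_of_eq ?_)
  rw [ph]
  ring

lemma Dat.k3 (d : Dat μ m p n J Λ) (x : X) :
    |trJ J * (ff J p x * H686.cc J p n x)| ≤ Λ * ph m J p x * |H686.cc J p n x| := by
  rw [abs_mul, abs_mul]
  refine (mul_le_mul_of_nonneg_right d.trJ_le (by positivity)).trans (le_of_eq ?_)
  rw [ph]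
  ring

lemma norm_zz (x : X) : ‖zz J p n x‖ = √(aa J p n x) := by
  rw [aa, Real.sqrt_sq (norm_nonneg _)]

lemma Dat.k4 (d : Dat μ m p n J Λ) (x : X) :
    -(ff J p x * ⟪zz J p n x, xi J p n x⟫) ≤ ph m J p x * √(aa J p n x) * vv m J p n x := by
  refine (neg_le_abs _).trans ?_
  rw [abs_mul]
  have h1 : |⟪zz J p n x, xi J p n x⟫| ≤ √(aa J p n x) * (vv m J p n x * √m) := by
    refine (abs_real_inner_le_norm _ _).trans ?_
    rw [d.vv_eq x, norm_zz]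
  refine (mul_le_mul_of_nonneg_left h1 (abs_nonneg _)).trans (le_of_eq ?_)
  rw [ph]
  ring

lemma Dat.k5 (d : Dat μ m p n J Λ) (x : X) :
    -(H686.cc J p n x * ⟪xi J p n x, J (J (p x))⟫)
      ≤ Λ * m * (|H686.cc J p n x| * vv m J p n x * √(1 + qq J p x)) := by
  refine (neg_le_abs _).trans ?_
  rw [abs_mul]
  have h1 : |⟪xi J p n x, J (J (p x))⟫|
      ≤ vv m J p n x * √m * (Λ * √m * √(1 + qq J p x)) := by
    refine (abs_real_inner_le_norm _ _).trans ?_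
    rw [d.vv_eq x, ← d.Jp_norm]
    exact mul_le_mul_of_nonneg_left (d.nJ _) (mul_nonneg (vv_nonneg x) (Real.sqrt_nonneg _))
  refine (mul_le_mul_of_nonneg_left h1 (abs_nonneg _)).trans (le_of_eq ?_)
  calc |H686.cc J p n x| * (vv m J p n x * √m * (Λ * √m * √(1 + qq J p x)))
      = Λ * (√m * √m) * (|H686.cc J p n x| * vv m J p n x * √(1 + qq J p x)) := by ring
    _ = _ := by rw [d.S_sq]

lemma Dat.k6 (d : Dat μ m p n J Λ) (x : X) :
    -(trJ J * ⟪zz J p n x, J (zz J p n x) - trJ J • zz J p n x⟫)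
      ≤ 2 * Λ ^ 2 * m * aa J p n x := by
  refine (neg_le_abs _).trans ?_
  rw [abs_mul]
  refine (mul_le_mul d.trJ_le (d.D_le x) (abs_nonneg _)
    (mul_nonneg d.l0 (Real.sqrt_nonneg _))).trans (le_of_eq ?_)
  calc Λ * √m * (2 * (Λ * √m) * aa J p n x) = 2 * Λ ^ 2 * (√m * √m) * aa J p n x := by ring
    _ = _ := by rw [d.S_sq]

lemma Dat.k7 (d : Dat μ m p n J Λ) (x : X) :
    ff J p x * ⟪zz J p n x, J (zz J p n x) - trJ J • zz J p n x⟫
      ≤ 2 * (Λ * ph m J p x * aa J p n x) := by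
  refine (le_abs_self _).trans ?_
  rw [abs_mul]
  refine (mul_le_mul_of_nonneg_left (d.D_le x) (abs_nonneg _)).trans (le_of_eq ?_)
  rw [ph]
  ring

/-- the algebra of the pointwise bound -/
lemma psi_alg {m θ H P1 P2 D γc A B C1 C2 a c f2 Q3 : ℝ} (hm : 0 < m) (hθ : 0 ≤ θ) (hH : 0 ≤ H)
    (ha : 0 ≤ a) (hf : 0 ≤ f2) (hC1 : 0 ≤ C1) {L2 : ℝ} (hL : 0 ≤ L2)
    (p2 : P2 ≤ A - f2)
    (p1 : P1 ≤ m * C1 + f2 + C2 - 2 * (c * a) + 2 * c ^ 2)
    (hD : D ≤ 2 * B) (h6 : Q3 ≤ 2 * L2 * m * a) :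
    P2 + (1 + θ) / (m + 3) * P1 + θ / (m + 2) * (Q3 + ((1 - H) * (m + 3) - (m + 2)) * a
      + (m + 2) * (2 * c ^ 2 - c * a + (1 / 2 * P2 - 1 / 2 * f2) + 1 / 2 * D + γc))
    ≤ (1 + θ / 2) * A + (1 + θ) * C1 + (1 + θ) / (m + 3) * (C2 + 2 * c ^ 2 - 2 * (c * a))
      + θ * (a / (m + 2) + 2 * L2 * a + 2 * c ^ 2 - c * a + B + γc) := by
  have h3 : (0 : ℝ) < m + 3 := by positivity
  have h2 : (0 : ℝ) < m + 2 := by positivity
  have e1 : ((1 - H) * (m + 3) - (m + 2)) * a ≤ a := by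
    have : ((1 - H) * (m + 3) - (m + 2)) ≤ 1 := by nlinarith
    nlinarith
  have q1 := mul_le_mul_of_nonneg_left p1 (by positivity : 0 ≤ (1 + θ) / (m + 3))
  have r1 : (1 + θ) / (m + 3) * (m * C1) ≤ (1 + θ) * C1 := by
    have e1 : (1 + θ) / (m + 3) * (m * C1) = (m / (m + 3)) * ((1 + θ) * C1) := by
      field_simp
    rw [e1]
    refine mul_le_of_le_one_left (by positivity) ?_
    rw [div_le_one h3]
    linarith
  have r2 : (1 + θ) / (m + 3) * f2 ≤ (1 + θ) * f2 := by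
    refine mul_le_mul_of_nonneg_right ?_ hf
    rw [div_le_iff₀ h3]
    nlinarith
  have r3 : θ / (m + 2) * (2 * L2 * m * a) ≤ θ * (2 * L2 * a) := by
    have e1 : θ / (m + 2) * (2 * L2 * m * a) = (m / (m + 2)) * (θ * (2 * L2 * a)) := by
      field_simp
    rw [e1]
    refine mul_le_of_le_one_left (by positivity) ?_
    rw [div_le_one h2]
    linarith
  have r4 : θ / (m + 2) * (Q3 + ((1 - H) * (m + 3) - (m + 2)) * a
      + (m + 2) * (2 * c ^ 2 - c * a + (1 / 2 * P2 - 1 / 2 * f2) + 1 / 2 * D + γc))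
      = θ / (m + 2) * Q3 + θ / (m + 2) * (((1 - H) * (m + 3) - (m + 2)) * a)
        + θ * (2 * c ^ 2 - c * a + (1 / 2 * P2 - 1 / 2 * f2) + 1 / 2 * D + γc) := by
    field_simp
  have r5 := mul_le_mul_of_nonneg_left h6 (by positivity : 0 ≤ θ / (m + 2))
  have r6 := mul_le_mul_of_nonneg_left e1 (by positivity : 0 ≤ θ / (m + 2))
  have r7 : θ / (m + 2) * a = θ * (a / (m + 2)) := by ring
  have r8 := mul_le_mul_of_nonneg_left p2 hθ
  have r9 := mul_le_mul_of_nonneg_left hD hθ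
  rw [r4]
  nlinarith

/-- the pointwise bound of the combined integrand -/
theorem Dat.psi_le (d : Dat μ m p n J Λ) {θ H : ℝ} (hθ : 0 ≤ θ) (hH : 0 ≤ H) (x : X) :
    Psi m θ H J p n x ≤ PhiU m θ Λ (aa J p n x) (qq J p x) (ph m J p x) (H686.cc J p n x)
      (vv m J p n x) := by
  have l0 := d.l0
  have v0 : 0 ≤ vv m J p n x := vv_nonneg x
  have φ0 : 0 ≤ ph m J p x := ph_nonneg x
  have a0 : 0 ≤ aa J p n x := sq_nonneg _
  have k1 := d.k1 x
  have k2 := d.k2 x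
  have k3 := d.k3 x
  have k4 := d.k4 x
  have k5 := d.k5 x
  have k3a := (neg_le_abs _).trans k3
  have k3b := (le_abs_self _).trans k3
  have h := psi_alg (m := m) (θ := θ) (H := H) (P1 := Psi1 J p n x) (P2 := Psi2 J p n x)
    (D := ff J p x * ⟪zz J p n x, J (zz J p n x) - trJ J • zz J p n x⟫)
    (γc := trJ J * (ff J p x * H686.cc J p n x))
    (A := Λ * ph m J p x * (√(aa J p n x * (4 + 2 * qq J p x - aa J p n x)) + |qq J p x|))
    (B := Λ * ph m J p x * aa J p n x)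
    (C1 := Λ ^ 2 * (ph m J p x * vv m J p n x)
      + 2 * (Λ * (|H686.cc J p n x| * vv m J p n x * √(1 + qq J p x))))
    (C2 := Λ * ph m J p x * |H686.cc J p n x| + ph m J p x * √(aa J p n x) * vv m J p n x)
    (a := aa J p n x) (c := H686.cc J p n x) (f2 := ff J p x ^ 2)
    (Q3 := -(trJ J * ⟪zz J p n x, J (zz J p n x) - trJ J • zz J p n x⟫))
    (L2 := Λ ^ 2) d.m_pos hθ hH a0 (sq_nonneg _) (by positivity) (sq_nonneg _)
    (by rw [Psi2]; linarith) (by rw [Psi1]; linarith) (d.k7 x) (d.k6 x)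
  have h' := mul_le_mul_of_nonneg_left k3b hθ
  rw [Psi, PhiU, Psi3]
  refine h.trans ?_
  refine (add_le_add_right (mul_le_mul_of_nonneg_left (add_le_add_right k3b _) hθ) _).trans
    (le_of_eq ?_)
  ring

/-- the general upper row for `E φ²` -/
theorem Dat.P_gen (d : Dat μ m p n J Λ) {θ : ℝ} (hθ : 0 ≤ θ) {R : X → ℝ} (hRc : Continuous R)
    (hR0 : ∀ x, 0 ≤ R x)
    (hR : ∀ x, PhiU m θ Λ (aa J p n x) (qq J p x) (ph m J p x) (H686.cc J p n x)
      (vv m J p n x) ≤ R x + θ * (1 - ∫ y, aa J p n y ∂μ) * m / (m + 2) * vv m J p n x ^ 2) :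
    ∫ x, ((1 + 3 / m) * ph m J p x ^ 2 - 2 * aa J p n x + 2 * H686.cc J p n x ^ 2 - R x) ∂μ
      ≤ 0 := by
  have m0 : (0 : ℝ) < m := d.m_pos
  have hS : 0 < √(m : ℝ) := Real.sqrt_pos.2 m0
  have s2 : √(m : ℝ) ^ 2 = m := Real.sq_sqrt m0.le
  have cf := d.cf
  have ca := d.ca
  have cx := d.cxi
  have cph := d.cph
  have ccc := d.cc
  have H0 := aa_int_nonneg (μ := μ) (J := J) (p := p) (n := n)
  set H := ∫ y, aa J p n y ∂μ with hH
  have h1 := d.psi θ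
  rw [← hH] at h1
  have cPsi : Continuous (Psi m θ H J p n) := by
    have cp := d.h.cp
    have cn := d.h.cn
    have cz := d.cz
    have cy := d.cy
    have cq := d.cq
    unfold Psi Psi1 Psi2 Psi3 Psi2
    fun_prop
  have h2 : ∫ x, Psi m θ H J p n x ∂μ
      ≤ ∫ x, (R x + θ * (1 - H) / (m + 2) * ‖xi J p n x‖ ^ 2) ∂μ := by
    refine integral_mono (int_of_cont cPsi) (int_of_cont (by fun_prop)) fun x => ?_
    refine (d.psi_le hθ H0 x).trans ((hR x).trans (le_of_eq ?_))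
    rw [d.vv_eq x, mul_pow, s2]
    ring
  rw [integral_add (int_of_cont (by fun_prop)) (int_of_cont (by fun_prop)),
    integral_const_mul] at h2
  have h3 : (1 + (1 + θ) / (m + 3) * trJ J ^ 2) * PP μ m J p n ≤ ∫ x, R x ∂μ := by
    have e1 : θ / (m + 2) * ((1 - H) * ∫ x, ‖xi J p n x‖ ^ 2 ∂μ)
        = θ * (1 - H) / (m + 2) * ∫ x, ‖xi J p n x‖ ^ 2 ∂μ := by ring
    rw [e1] at h1
    linarith
  have hR1 : 0 ≤ ∫ x, R x ∂μ := integral_nonneg hR0
  have h4 : PP μ m J p n ≤ ∫ x, R x ∂μ := by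
    rcases le_total (PP μ m J p n) 0 with h | h
    · linarith
    · have k1 : 0 ≤ (1 + θ) / ((m : ℝ) + 3) * trJ J ^ 2 := by positivity
      nlinarith [mul_nonneg k1 h]
  have e5 : ∀ x, ph m J p x ^ 2 = m * ff J p x ^ 2 := by
    intro x
    rw [ph, mul_pow, s2, sq_abs]
  have e6 : ∫ x, ((1 + 3 / m) * ph m J p x ^ 2 - 2 * aa J p n x + 2 * H686.cc J p n x ^ 2 - R x) ∂μ
      = PP μ m J p n - ∫ x, R x ∂μ := by
    have e7 : ∀ x, (1 + 3 / m) * ph m J p x ^ 2 - 2 * aa J p n x + 2 * H686.cc J p n x ^ 2 - R x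
        = (m + 3) * ff J p x ^ 2 - 2 * aa J p n x + 2 * H686.cc J p n x ^ 2 - R x := by
      intro x
      rw [e5]
      field_simp
    simp only [e7]
    rw [integral_sub (int_of_cont (by fun_prop)) (int_of_cont hRc),
      integral_add (int_of_cont (by fun_prop)) (int_of_cont (by fun_prop)),
      integral_sub (int_of_cont (by fun_prop)) (int_of_cont (by fun_prop)), integral_const_mul,
      integral_const_mul, integral_const_mul, PP]
  rw [e6]
  linarith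

end

end Vale.Agent.P224.R2.H686
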