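import Vale.Agent.P224.R2.H686.PhiD

/-!
`E φ² ≤ c₁ E a`: the pointwise inequality.
-/

namespace Vale.Agent.P224.R2.H686

open MeasureTheory Module Function Set Vale.Agent.P224.R2.H470
open scoped RealInnerProductSpace Topology ContDiff

set_option linter.unusedSectionVars false

lemma amgm {x y t : ℝ} (ht : 0 < t) : x * y ≤ 1 / 2 * (x ^ 2 / t + t * y ^ 2) := by
  have h1 : 1 / 2 * (x ^ 2 / t + t * y ^ 2) - x * y = (x - t * y) ^ 2 / (2 * t) := by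
    field_simp
    ring
  have h2 : 0 ≤ (x - t * y) ^ 2 / (2 * t) := by positivity
  linarith

lemma amgm' {x y t Y : ℝ} (ht : 0 < t) (hy : y ^ 2 ≤ 2 * Y) :
    x * y ≤ 1 / (2 * t) * x ^ 2 + t * Y := by
  have h1 := amgm (x := x) (y := y) ht
  have h2 := mul_le_mul_of_nonneg_left hy ht.le
  have e : 1 / (2 * t) * x ^ 2 = 1 / 2 * (x ^ 2 / t) := by field_simp
  rw [e]
  linarith

lemma amgm_v {k x v w : ℝ} (hw : 0 < w) :
    k * x * v ≤ k ^ 2 * (1 / (4 * w)) * x ^ 2 + w * v ^ 2 := by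
  have h1 := amgm (x := k * x) (y := v) (t := 2 * w) (by positivity)
  have e : 1 / 2 * ((k * x) ^ 2 / (2 * w) + 2 * w * v ^ 2)
      = k ^ 2 * (1 / (4 * w)) * x ^ 2 + w * v ^ 2 := by
    field_simp
    ring
  rwa [e] at h1

lemma pt_small {Λ a q φ c v s r : ℝ} (hΛ : 0 ≤ Λ) (hq : a = q + 2 * c) (hφ : 0 ≤ φ)
    (hvs : v ≤ s) (s0 : 0 ≤ s) (r0 : 0 ≤ r) (r2 : r ^ 2 = a) (hcr : |c| ≤ r) :
    Λ * φ * |c| + φ * r * v + 2 * c ^ 2 - 2 * c * a
      ≤ (Λ + s) / 2 * φ ^ 2 + ((Λ + s) / 2 + 2) * a + a * max q 0 := by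
  have a0 : 0 ≤ a := by rw [← r2]; positivity
  have k1 : φ * r ≤ 1 / 2 * (φ ^ 2 + a) := by nlinarith [sq_nonneg (φ - r)]
  have k2 : φ * |c| ≤ φ * r := mul_le_mul_of_nonneg_left hcr hφ
  have k3 : Λ * (φ * |c|) ≤ Λ * (φ * r) := mul_le_mul_of_nonneg_left k2 hΛ
  have k4 : φ * r * v ≤ φ * r * s := mul_le_mul_of_nonneg_left hvs (mul_nonneg hφ r0)
  have k5 := mul_le_mul_of_nonneg_left k1 (add_nonneg hΛ s0)
  have k6 : c ^ 2 ≤ a := by
    rw [← r2, ← sq_abs]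
    exact pow_le_pow_left₀ (abs_nonneg c) hcr 2
  have k7 : a * q ≤ a * max q 0 := mul_le_mul_of_nonneg_left (le_max_left _ _) a0
  have k8 : -(2 * c * a) ≤ a * max q 0 := by
    have k1 : 2 * c * a = a ^ 2 - a * q := by
      rw [hq]
      ring
    have := sq_nonneg a
    linarith
  linarith

/-- the pointwise inequality behind `E φ² ≤ c₁ E a` -/
lemma PhiU_le {m : ℕ} {θ Λ a q φ c v s w lam t1 t2 t3 t4 : ℝ} (hm : 1 ≤ m) (hθ : 0 ≤ θ)
    (hΛ : 0 ≤ Λ) (ha : 0 ≤ a) (hq : a = q + 2 * c) (hb : 0 ≤ 4 + 2 * q - a) (hφ : 0 ≤ φ)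
    (hv : 0 ≤ v) (hvs : v ≤ s) (hw : 0 < w) (hl0 : 0 < lam) (hl1 : lam < 1) (h1 : 0 < t1)
    (h2 : 0 < t2) (h3 : 0 < t3) (h4 : 0 < t4) (hcr : |c| ≤ √a) :
    PhiU m θ Λ a q φ c v ≤
      ((1 + θ / 2) * Λ * (1 / (2 * t1)) + (1 + θ / 2) * Λ * (1 / (2 * t2))
        + θ * Λ * (1 / (2 * t1)) + θ * Λ * (1 / (2 * t3))
        + ((1 + θ) * Λ ^ 2) ^ 2 * (1 / (4 * (lam * w)))) * φ ^ 2
      + ((1 + θ / 2) * Λ * (2 * t2) + θ * Λ * (t3 / 2)
        + ((1 + θ) * (2 * Λ)) ^ 2 * (1 / (4 * ((1 - lam) * w)))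
        + (1 + θ) * Λ * s * (1 / t4) + 2 * θ) * c ^ 2
      + ((1 + θ / 2) * Λ * (2 * t1) + θ * Λ * (2 * t1) + (1 + θ) * Λ * s * t4
        + 2 * θ * Λ ^ 2) * a
      + ((1 + θ / 2) * Λ * t1 + (1 + θ / 2) * Λ * t2 + θ * Λ * t1 + θ / 2) * (a * max q 0)
      + 1 / m * (((1 + θ) * ((Λ + s) / 2)) * φ ^ 2 + ((1 + θ) * ((Λ + s) / 2 + 2) + θ) * a
        + (1 + θ) * (a * max q 0))
      + w * v ^ 2 := by
  have m0 : (0 : ℝ) < m := by exact_mod_cast hm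
  have r0 : 0 ≤ √a := Real.sqrt_nonneg _
  have r2 : √a ^ 2 = a := Real.sq_sqrt ha
  have c0 : 0 ≤ |c| := abs_nonneg c
  have c2 : |c| ^ 2 = c ^ 2 := sq_abs c
  have q0 : 0 ≤ max q 0 := le_max_right _ _
  have s0 : 0 ≤ s := hv.trans hvs
  have hL : 0 < 1 - lam := by linarith
  have aq : a * q ≤ a * max q 0 := mul_le_mul_of_nonneg_left (le_max_left _ _) ha
  have ab := mul_nonneg ha hb
  have A1 : φ * √(a * (4 + 2 * q - a)) ≤ 1 / (2 * t1) * φ ^ 2 + t1 * (2 * a + a * max q 0) := by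
    refine amgm' h1 ?_
    rw [Real.sq_sqrt ab]
    have := sq_nonneg a
    linarith
  have A2 : φ * |q| ≤ 1 / (2 * t2) * φ ^ 2 + t2 * (2 * c ^ 2 + a * max q 0) := by
    refine amgm' h2 ?_
    rw [sq_abs]
    have : q ^ 2 = 4 * c ^ 2 + a * (2 * q - a) := by
      rw [hq]
      ring
    have := sq_nonneg a
    linarith
  have A3 : φ * a ≤ 1 / (2 * t1) * φ ^ 2 + t1 * (2 * a + a * max q 0) := by
    refine amgm' h1 ?_
    linarith
  have A4 : φ * |c| ≤ 1 / (2 * t3) * φ ^ 2 + t3 * (1 / 2 * c ^ 2) := by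
    refine amgm' h3 ?_
    linarith
  have A5 := amgm_v (k := (1 + θ) * Λ ^ 2) (x := φ) (v := v) (mul_pos hl0 hw)
  have A6 := amgm_v (k := (1 + θ) * (2 * Λ)) (x := |c|) (v := v) (mul_pos hL hw)
  rw [c2] at A6
  have A7 : √a * |c| ≤ 1 / 2 * (a / (1 / t4) + 1 / t4 * c ^ 2) := by
    have := amgm (x := √a) (y := |c|) (t := 1 / t4) (by positivity)
    rwa [c2, r2] at this
  have hsq : √(1 + q) ≤ 1 + √a := by
    refine Real.sqrt_le_iff.2 ⟨by positivity, ?_⟩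
    have k1 : -c ≤ √a := (neg_le_abs c).trans hcr
    have k2 : (1 + √a) ^ 2 = 1 + 2 * √a + a := by
      rw [add_sq, r2]
      ring
    linarith
  have A8 : |c| * v * √(1 + q) ≤ |c| * v + s * (√a * |c|) := by
    have k1 := mul_le_mul_of_nonneg_left hsq (mul_nonneg c0 hv)
    have k2 := mul_le_mul_of_nonneg_right hvs (mul_nonneg c0 r0)
    linarith
  have A9 : -(c * a) ≤ 1 / 2 * (a * max q 0) := by
    have k1 : c * a = 1 / 2 * (a ^ 2 - a * q) := by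
      rw [hq]
      ring
    have := sq_nonneg a
    linarith
  have B1 := pt_small hΛ hq hφ hvs s0 r0 r2 hcr
  have B0 : 0 ≤ (Λ + s) / 2 * φ ^ 2 + ((Λ + s) / 2 + 2) * a + a * max q 0 := by positivity
  have B2 : (1 + θ) / (m + 3) * (Λ * φ * |c| + φ * √a * v + 2 * c ^ 2 - 2 * c * a)
      ≤ 1 / m * ((1 + θ) * ((Λ + s) / 2 * φ ^ 2 + ((Λ + s) / 2 + 2) * a + a * max q 0)) := by
    have k1 := mul_le_mul_of_nonneg_left B1 (by positivity : 0 ≤ (1 + θ) / ((m : ℝ) + 3))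
    refine k1.trans ?_
    have k2 : (1 + θ) / ((m : ℝ) + 3) ≤ 1 / m * (1 + θ) := by
      rw [one_div_mul_eq_div]
      exact div_le_div_of_nonneg_left (by positivity) m0 (by linarith)
    refine (mul_le_mul_of_nonneg_right k2 B0).trans (le_of_eq ?_)
    ring
  have B3 : a / (m + 2) ≤ 1 / m * a := by
    rw [one_div_mul_eq_div]
    exact div_le_div_of_nonneg_left ha m0 (by linarith)
  have e7 : a / (1 / t4) = t4 * a := by field_simp
  rw [e7] at A7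
  have C1 := mul_le_mul_of_nonneg_left (add_le_add A1 A2)
    (mul_nonneg (by positivity : 0 ≤ 1 + θ / 2) hΛ)
  have C2 := mul_le_mul_of_nonneg_left A8 (by positivity : 0 ≤ (1 + θ) * (2 * Λ))
  have C3 := mul_le_mul_of_nonneg_left A7 (by positivity : 0 ≤ (1 + θ) * (2 * Λ) * s)
  have C4 := mul_le_mul_of_nonneg_left A3 (mul_nonneg hθ hΛ)
  have C5 := mul_le_mul_of_nonneg_left A4 (mul_nonneg hθ hΛ)
  have C6 := mul_le_mul_of_nonneg_left A9 hθ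
  have C7 := mul_le_mul_of_nonneg_left B3 hθ
  rw [PhiU]
  linarith

end Vale.Agent.P224.R2.H686
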