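import Vale.Agent.P224.R2.H686.PhiE

/-!
`E φ² ≤ c₁ E a`: the general level.
-/

namespace Vale.Agent.P224.R2.H686

open MeasureTheory Module Function Set Vale.Agent.P224.R2.H470
open scoped RealInnerProductSpace Topology ContDiff

set_option linter.unusedSectionVars false

/-- the numerical conditions of one level -/
structure Lev (κ A ℓ s θ lam w t1 t2 t3 t4 ρ1 e ρ3 ρ4 c1 : ℝ) : Prop where
  θ0 : 0 ≤ θ
  ℓ0 : 0 ≤ ℓ
  A0 : 0 ≤ A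
  κ0 : 0 ≤ κ
  κℓ : κ ≤ ℓ ^ 2
  sℓ : ℓ ≤ s
  hs : κ + 1 / 36 ≤ (s - ℓ) ^ 2
  w0 : 0 < w
  wθ : w ≤ θ * (441 / 475)
  l0 : 0 < lam
  l1 : lam < 1
  h1 : 0 < t1
  h2 : 0 < t2
  h3 : 0 < t3
  h4 : 0 < t4
  e0 : 0 ≤ e
  c0 : 0 ≤ c1
  n1 : (1 + θ / 2) * ℓ * (1 / (2 * t1)) + (1 + θ / 2) * ℓ * (1 / (2 * t2))
        + θ * ℓ * (1 / (2 * t1)) + θ * ℓ * (1 / (2 * t3))
        + ((1 + θ) * κ) ^ 2 * (1 / (4 * (lam * w))) ≤ ρ1
  n2 : (1 + θ / 2) * ℓ * (2 * t2) + θ * ℓ * (t3 / 2)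
        + (2 * (1 + θ)) ^ 2 * κ * (1 / (4 * ((1 - lam) * w)))
        + (1 + θ) * ℓ * s * (1 / t4) + 2 * θ ≤ 2 + e
  n3 : (1 + θ / 2) * ℓ * (2 * t1) + θ * ℓ * (2 * t1) + (1 + θ) * ℓ * s * t4
        + 2 * θ * κ ≤ ρ3
  n4 : (1 + θ / 2) * ℓ * t1 + (1 + θ / 2) * ℓ * t2 + θ * ℓ * t1 + θ / 2 ≤ ρ4
  n5 : 2 + ρ3 + A * ρ4 + e ≤ c1 * (1 - ρ1)
  n6 : (1 + θ) * ((ℓ + s) / 2 + 2) + θ + (1 + θ) * A ≤ c1 * (3 - (1 + θ) * ((ℓ + s) / 2))
  n7 : (1 + θ) * ((ℓ + s) / 2) ≤ 3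
  n8 : ρ1 < 1

section

variable {X : Type*} {E : Type*} [NormedAddCommGroup E] [InnerProductSpace ℝ E]
  [FiniteDimensional ℝ E] [TopologicalSpace X] [MeasurableSpace X] [CompactSpace X] [BorelSpace X]
  {μ : Measure X} [IsProbabilityMeasure μ] {m : ℕ} {p n : X → E} {J : E →L[ℝ] E} {Λ : ℝ}

lemma Dat.vv_le (d : Dat μ m p n J Λ) (x : X) : vv m J p n x ≤ Λ + √(1 / m + Λ ^ 2) := by
  have m0 : (0 : ℝ) < m := d.m_pos
  have hS : 0 < √(m : ℝ) := Real.sqrt_pos.2 m0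
  have h1 := d.xi_le x
  rw [vv, div_le_iff₀ hS]
  refine h1.trans (le_of_eq ?_)
  have h2 : √(1 + Λ ^ 2 * m) = √(1 / m + Λ ^ 2) * √m := by
    rw [← Real.sqrt_mul (by positivity)]
    congr 1
    field_simp
  rw [h2]
  ring

lemma Dat.c2_le (d : Dat μ m p n J Λ) :
    ∫ x, H686.cc J p n x ^ 2 ∂μ ≤ ∫ x, aa J p n x ∂μ := by
  have ca := d.ca
  have ccc := d.cc
  refine integral_mono (int_of_cont (by fun_prop)) (int_of_cont (by fun_prop)) fun x => ?_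
  have k0 : 0 ≤ aa J p n x := sq_nonneg _
  have := pow_le_pow_left₀ (abs_nonneg _) (d.c_le x) 2
  rwa [sq_abs, Real.sq_sqrt k0] at this

/-- the linear form of the upper row -/
theorem Dat.P_lin (d : Dat μ m p n J Λ) {θ w α1 α2 α3 α4 : ℝ} (hθ : 0 ≤ θ)
    (hw : w ≤ θ * (1 - ∫ y, aa J p n y ∂μ) * m / (m + 2)) (h1 : 0 ≤ α1) (h2 : 0 ≤ α2)
    (h3 : 0 ≤ α3) (h4 : 0 ≤ α4)
    (hR : ∀ x, PhiU m θ Λ (aa J p n x) (qq J p x) (ph m J p x) (H686.cc J p n x)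
      (vv m J p n x) ≤ α1 * ph m J p x ^ 2 + α2 * H686.cc J p n x ^ 2 + α3 * aa J p n x
        + α4 * (aa J p n x * max (qq J p x) 0) + w * vv m J p n x ^ 2) :
    (1 + 3 / m - α1) * ∫ x, ph m J p x ^ 2 ∂μ + (2 - α2) * ∫ x, H686.cc J p n x ^ 2 ∂μ
      ≤ (2 + α3) * ∫ x, aa J p n x ∂μ + α4 * ∫ x, aa J p n x * max (qq J p x) 0 ∂μ := by
  have ca := d.ca
  have cq := d.cq
  have cph := d.cph
  have ccc := d.cc
  have key := d.P_gen (θ := θ) hθ (R := fun x => α1 * ph m J p x ^ 2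
      + α2 * H686.cc J p n x ^ 2 + α3 * aa J p n x + α4 * (aa J p n x * max (qq J p x) 0))
    (by fun_prop)
    (fun x => by
      have : 0 ≤ aa J p n x := sq_nonneg _
      positivity)
    (fun x => (hR x).trans (by
      have := mul_le_mul_of_nonneg_right hw (sq_nonneg (vv m J p n x))
      linarith))
  have e1 : ∀ x, (1 + 3 / (m : ℝ)) * ph m J p x ^ 2 - 2 * aa J p n x + 2 * H686.cc J p n x ^ 2
      - (α1 * ph m J p x ^ 2
      + α2 * H686.cc J p n x ^ 2 + α3 * aa J p n x + α4 * (aa J p n x * max (qq J p x) 0))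
      = (1 + 3 / m - α1) * ph m J p x ^ 2 + (2 - α2) * H686.cc J p n x ^ 2
        - (2 + α3) * aa J p n x - α4 * (aa J p n x * max (qq J p x) 0) := by
    intro x
    ring
  simp only [e1] at key
  rw [integral_sub (int_of_cont (by fun_prop)) (int_of_cont (by fun_prop)),
    integral_sub (int_of_cont (by fun_prop)) (int_of_cont (by fun_prop)),
    integral_add (int_of_cont (by fun_prop)) (int_of_cont (by fun_prop)), integral_const_mul,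
    integral_const_mul, integral_const_mul, integral_const_mul] at key
  linarith

/-- the final algebra -/
lemma lev_alg {i ρ1 ρ3 ρ4 e τ θ A c1 F C H Q : ℝ} (hi : 0 ≤ i) (hH : 0 ≤ H) (hρ4 : 0 ≤ ρ4)
    (hθ : 0 ≤ θ) (he : 0 ≤ e) (hC : C ≤ H) (hQ : Q ≤ A * H)
    (n5 : 2 + ρ3 + A * ρ4 + e ≤ c1 * (1 - ρ1))
    (n6 : (1 + θ) * (τ + 2) + θ + (1 + θ) * A ≤ c1 * (3 - (1 + θ) * τ))
    (n7 : (1 + θ) * τ ≤ 3) (n8 : ρ1 < 1)
    (key : (1 + 3 * i - (ρ1 + i * ((1 + θ) * τ))) * F + (2 - (2 + e)) * C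
      ≤ (2 + (ρ3 + i * ((1 + θ) * (τ + 2) + θ))) * H + (ρ4 + i * (1 + θ)) * Q) :
    F ≤ c1 * H := by
  have g1 : (ρ4 + i * (1 + θ)) * Q ≤ (ρ4 + i * (1 + θ)) * (A * H) :=
    mul_le_mul_of_nonneg_left hQ (by positivity)
  have g2 := mul_le_mul_of_nonneg_left hC he
  have g3 := mul_le_mul_of_nonneg_right n5 hH
  have g4 := mul_le_mul_of_nonneg_left (mul_le_mul_of_nonneg_right n6 hH) hi
  have g5 : (1 - ρ1 + i * (3 - (1 + θ) * τ)) * F ≤ (1 - ρ1 + i * (3 - (1 + θ) * τ)) * (c1 * H) := by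
    linarith
  have g6 : 0 < 1 - ρ1 + i * (3 - (1 + θ) * τ) := by
    have : 0 ≤ i * (3 - (1 + θ) * τ) := mul_nonneg hi (by linarith)
    linarith
  exact le_of_mul_le_mul_left g5 g6

/-- the row of one level: `E φ² ≤ c₁ E a` -/
theorem Dat.P_level (d : Dat μ m p n J Λ)
    {κ A ℓ s θ lam w t1 t2 t3 t4 ρ1 e ρ3 ρ4 c1 : ℝ} (hm : 36 ≤ m) (hκ : Λ ^ 2 ≤ κ)
    (L : Lev κ A ℓ s θ lam w t1 t2 t3 t4 ρ1 e ρ3 ρ4 c1)
    (hE : ∫ x, aa J p n x * max (qq J p x) 0 ∂μ ≤ A * ∫ x, aa J p n x ∂μ)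
    (hH : ∫ x, aa J p n x ∂μ ≤ 1 / 50) :
    ∫ x, ph m J p x ^ 2 ∂μ ≤ c1 * ∫ x, aa J p n x ∂μ := by
  obtain ⟨θ0, ℓ0, A0, κ0, κℓ, sℓ, hs, w0, wθ, l0, l1, h1, h2, h3, h4, e0, c0, n1, n2, n3, n4, n5,
    n6, n7, n8⟩ := L
  have m0 : (0 : ℝ) < m := d.m_pos
  have m36 : (36 : ℝ) ≤ m := by exact_mod_cast hm
  have Λ0 := d.l0
  have Λℓ : Λ ≤ ℓ := by
    refine (pow_le_pow_iff_left₀ Λ0 ℓ0 two_ne_zero).1 ?_
    linarith
  have s0 : 0 ≤ s := ℓ0.trans sℓ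
  have hL : 0 < 1 - lam := by linarith
  have hvs : ∀ x, vv m J p n x ≤ s := by
    intro x
    refine (d.vv_le x).trans ?_
    have k1 : √(1 / m + Λ ^ 2) ≤ s - ℓ := by
      refine Real.sqrt_le_iff.2 ⟨by linarith, ?_⟩
      have : 1 / (m : ℝ) ≤ 1 / 36 := one_div_le_one_div_of_le (by norm_num) m36
      linarith
    linarith
  have H0 := aa_int_nonneg (μ := μ) (J := J) (p := p) (n := n)
  have hw2 : w ≤ θ * (1 - ∫ y, aa J p n y ∂μ) * m / (m + 2) := by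
    refine wθ.trans ?_
    rw [le_div_iff₀ (by positivity)]
    nlinarith [mul_nonneg θ0 (mul_nonneg (sub_nonneg.2 hH) m0.le),
      mul_nonneg θ0 (sub_nonneg.2 m36)]
  have a1 : (1 + θ / 2) * Λ * (1 / (2 * t1)) + (1 + θ / 2) * Λ * (1 / (2 * t2))
        + θ * Λ * (1 / (2 * t1)) + θ * Λ * (1 / (2 * t3))
        + ((1 + θ) * Λ ^ 2) ^ 2 * (1 / (4 * (lam * w))) ≤ ρ1 := by
    refine le_trans ?_ n1
    gcongr
  have a2 : (1 + θ / 2) * Λ * (2 * t2) + θ * Λ * (t3 / 2)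
        + ((1 + θ) * (2 * Λ)) ^ 2 * (1 / (4 * ((1 - lam) * w)))
        + (1 + θ) * Λ * s * (1 / t4) + 2 * θ ≤ 2 + e := by
    refine le_trans ?_ n2
    have k1 : ((1 + θ) * (2 * Λ)) ^ 2 * (1 / (4 * ((1 - lam) * w)))
        = (2 * (1 + θ)) ^ 2 * Λ ^ 2 * (1 / (4 * ((1 - lam) * w))) := by ring
    rw [k1]
    gcongr
  have a3 : (1 + θ / 2) * Λ * (2 * t1) + θ * Λ * (2 * t1) + (1 + θ) * Λ * s * t4
        + 2 * θ * Λ ^ 2 ≤ ρ3 := by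
    refine le_trans ?_ n3
    gcongr
  have a4 : (1 + θ / 2) * Λ * t1 + (1 + θ / 2) * Λ * t2 + θ * Λ * t1 + θ / 2 ≤ ρ4 := by
    refine le_trans ?_ n4
    gcongr
  have r10 : 0 ≤ ρ1 := le_trans (by positivity) a1
  have r30 : 0 ≤ ρ3 := le_trans (by positivity) a3
  have r40 : 0 ≤ ρ4 := le_trans (by positivity) a4
  have a5 : (Λ + s) / 2 ≤ (ℓ + s) / 2 := by linarith
  have τ0 : 0 ≤ (ℓ + s) / 2 := by positivity
  have i0 : 0 ≤ 1 / (m : ℝ) := by positivity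
  refine lev_alg (i := 1 / m) (τ := (ℓ + s) / 2) i0 H0 r40 θ0 e0 d.c2_le hE n5 n6 n7 n8 ?_
  have key := d.P_lin (θ := θ) (w := w) (α1 := ρ1 + 1 / m * ((1 + θ) * ((ℓ + s) / 2)))
    (α2 := 2 + e) (α3 := ρ3 + 1 / m * ((1 + θ) * ((ℓ + s) / 2 + 2) + θ))
    (α4 := ρ4 + 1 / m * (1 + θ)) θ0 hw2 (by positivity) (by positivity) (by positivity)
    (by positivity) (fun x => by
      have k0 : 0 ≤ aa J p n x := sq_nonneg _
      have kq : 0 ≤ aa J p n x * max (qq J p x) 0 := mul_nonneg k0 (le_max_right _ _)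
      have k1 := PhiU_le (m := m) (θ := θ) (Λ := Λ) (a := aa J p n x) (q := qq J p x)
        (φ := ph m J p x) (c := H686.cc J p n x) (v := vv m J p n x) (s := s) (w := w)
        (lam := lam) (t1 := t1) (t2 := t2) (t3 := t3) (t4 := t4)
        d.m1 θ0 Λ0 k0 (d.a_eq x) (d.b_nonneg x) (ph_nonneg x)
        (vv_nonneg x) (hvs x) w0 l0 l1 h1 h2 h3 h4 (d.c_le x)
      refine k1.trans ?_
      have u1 := mul_le_mul_of_nonneg_right a1 (sq_nonneg (ph m J p x))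
      have u2 := mul_le_mul_of_nonneg_right a2 (sq_nonneg (H686.cc J p n x))
      have u3 := mul_le_mul_of_nonneg_right a3 k0
      have u4 := mul_le_mul_of_nonneg_right a4 kq
      have u5 : 1 / (m : ℝ) * ((1 + θ) * ((Λ + s) / 2) * ph m J p x ^ 2
          + ((1 + θ) * ((Λ + s) / 2 + 2) + θ) * aa J p n x
          + (1 + θ) * (aa J p n x * max (qq J p x) 0))
          ≤ 1 / (m : ℝ) * ((1 + θ) * ((ℓ + s) / 2) * ph m J p x ^ 2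
          + ((1 + θ) * ((ℓ + s) / 2 + 2) + θ) * aa J p n x
          + (1 + θ) * (aa J p n x * max (qq J p x) 0)) := by gcongr
      linarith)
  refine le_trans (le_of_eq ?_) key
  ring

end

end Vale.Agent.P224.R2.H686
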