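import Vale.Agent.P224.R2.H686.PhiF

/-!
The upper row for `E φ²` in pointwise form.
-/

namespace Vale.Agent.P224.R2.H686

open MeasureTheory Module Function Set Vale.Agent.P224.R2.H470
open scoped RealInnerProductSpace Topology ContDiff

set_option linter.unusedSectionVars false

/-- the row function; `c = (a - q) / 2` -/
noncomputable def PL1 (Λ θ r1 re r3 r5 r7 r8 : ℝ) (a q φ : ℝ) : ℝ :=
  (1 - r1) * φ ^ 2 - 2 * (a - (a - q) ^ 2 / 4)
    - (1 + θ / 2) * Λ * (φ * (√(a * (4 + 2 * q - a)) + |q|))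
    - re * ((a - q) / 2) ^ 2 - r5 * (|(a - q) / 2| * max (√(1 + q) - 1) 0)
    + θ * (q * ((a - q) / 2)) - r3 * a - r7 * (a * max q 0) - r8 * max q 0 ^ 2
    - θ * Λ * (φ * (a + |(a - q) / 2|))

/-- the numerical conditions on the parameters of the row -/
structure PLc (Λ θ η m0 lam w s r1 re r3 r5 r7 r8 : ℝ) : Prop where
  θ0 : 0 ≤ θ
  l0 : 0 < lam
  l1 : lam < 1
  w0 : 0 < w
  m1 : 1 ≤ m0
  hw : w * (m0 + 2) ≤ θ * (1 - η) * m0
  sΛ : Λ ≤ s
  hs : Λ ^ 2 + 1 / m0 ≤ (s - Λ) ^ 2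
  n1 : ((1 + θ) * Λ ^ 2) ^ 2 / (4 * (lam * w)) ≤ r1
  ne : ((1 + θ) * (2 * Λ)) ^ 2 / (4 * ((1 - lam) * w)) + 2 * (1 + θ) / m0 ≤ re
  n3 : 2 * θ * Λ ^ 2 + (θ + ((1 + θ) * (Λ + s)) ^ 2 / 12) / m0 ≤ r3
  n5 : 2 * (1 + θ) * Λ * s ≤ r5
  n7 : (1 + θ) / m0 ≤ r7
  n8 : θ ^ 2 ≤ 4 * re * r8
  r80 : 0 ≤ r8

/-- the small terms -/
lemma PL_small {Λ θ a q φ c v s r m0 : ℝ} {m : ℝ} (hm0 : 1 ≤ m0) (hm : m0 ≤ m) (hθ : 0 ≤ θ)
    (hΛ : 0 ≤ Λ) (hq : a = q + 2 * c) (hφ : 0 ≤ φ)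
    (hvs : v ≤ s) (s0 : 0 ≤ s) (r0 : 0 ≤ r) (r2 : r ^ 2 = a) (hcr : |c| ≤ r) :
    (1 + θ) / (m + 3) * (Λ * φ * |c| + φ * r * v + 2 * c ^ 2 - 2 * c * a) + θ * (a / (m + 2))
      ≤ 3 / m * φ ^ 2 + (θ + ((1 + θ) * (Λ + s)) ^ 2 / 12) / m0 * a
        + 2 * (1 + θ) / m0 * c ^ 2 + (1 + θ) / m0 * (a * max q 0) := by
  have a0 : 0 ≤ a := by rw [← r2]; positivity
  have mm : 0 < m := by linarith
  have m00 : 0 < m0 := by linarith
  have k2 : φ * |c| ≤ φ * r := mul_le_mul_of_nonneg_left hcr hφ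
  have k3 : Λ * (φ * |c|) ≤ Λ * (φ * r) := mul_le_mul_of_nonneg_left k2 hΛ
  have k4 : φ * r * v ≤ φ * r * s := mul_le_mul_of_nonneg_left hvs (mul_nonneg hφ r0)
  have k7 : a * q ≤ a * max q 0 := mul_le_mul_of_nonneg_left (le_max_left _ _) a0
  have k8 : -(2 * c * a) ≤ a * max q 0 := by
    have k1 : 2 * c * a = a ^ 2 - a * q := by
      rw [hq]
      ring
    have := sq_nonneg a
    linarith
  have k9 : 0 ≤ a * max q 0 := mul_nonneg a0 (le_max_right _ _)
  have u1 : (1 + θ) * ((Λ + s) * (φ * r)) ≤ 3 * φ ^ 2 + ((1 + θ) * (Λ + s)) ^ 2 / 12 * a := by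
    have := amgm' (x := (1 + θ) * (Λ + s) * r) (y := φ) (t := 6) (Y := 1 / 2 * φ ^ 2)
      (by norm_num) (by linarith)
    rw [mul_pow ((1 + θ) * (Λ + s)) r 2, r2] at this
    linarith
  have u2 : (1 + θ) / (m + 3) * (Λ * φ * |c| + φ * r * v + 2 * c ^ 2 - 2 * c * a)
      ≤ (1 + θ) / m * ((Λ + s) * (φ * r)) + (1 + θ) / m0 * (2 * c ^ 2 + a * max q 0) := by
    have g1 : Λ * φ * |c| + φ * r * v + 2 * c ^ 2 - 2 * c * a
        ≤ (Λ + s) * (φ * r) + (2 * c ^ 2 + a * max q 0) := by linarith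
    have g0 : 0 ≤ (1 + θ) / (m + 3) := by positivity
    refine (mul_le_mul_of_nonneg_left g1 g0).trans ?_
    rw [mul_add]
    have f1 : 0 ≤ (Λ + s) * (φ * r) := by positivity
    have f2 : 0 ≤ 2 * c ^ 2 + a * max q 0 := by positivity
    refine add_le_add (mul_le_mul_of_nonneg_right ?_ f1) (mul_le_mul_of_nonneg_right ?_ f2)
    · exact div_le_div_of_nonneg_left (by positivity) mm (by linarith)
    · exact div_le_div_of_nonneg_left (by positivity) m00 (by linarith)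
  have u3 : θ * (a / (m + 2)) ≤ θ / m0 * a := by
    have : θ * (a / (m + 2)) = θ / (m + 2) * a := by ring
    rw [this]
    exact mul_le_mul_of_nonneg_right (div_le_div_of_nonneg_left hθ m00 (by linarith)) a0
  have u4 : (1 + θ) / m * ((Λ + s) * (φ * r))
      ≤ 3 / m * φ ^ 2 + ((1 + θ) * (Λ + s)) ^ 2 / 12 / m0 * a := by
    have g1 := mul_le_mul_of_nonneg_left u1 (by positivity : 0 ≤ 1 / m)
    have g2 : 1 / m * (((1 + θ) * (Λ + s)) ^ 2 / 12 * a)
        ≤ ((1 + θ) * (Λ + s)) ^ 2 / 12 / m0 * a := by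
      have : 1 / m * (((1 + θ) * (Λ + s)) ^ 2 / 12 * a)
          = (((1 + θ) * (Λ + s)) ^ 2 / 12) / m * a := by ring
      rw [this]
      refine mul_le_mul_of_nonneg_right ?_ a0
      exact div_le_div_of_nonneg_left (by positivity) m00 hm
    have g3 : (1 + θ) / m * ((Λ + s) * (φ * r)) = 1 / m * ((1 + θ) * ((Λ + s) * (φ * r))) := by
      ring
    have g4 : 3 / m * φ ^ 2 = 1 / m * (3 * φ ^ 2) := by ring
    rw [g3, g4]
    linarith
  have u5 : (θ + ((1 + θ) * (Λ + s)) ^ 2 / 12) / m0 * a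
      = θ / m0 * a + ((1 + θ) * (Λ + s)) ^ 2 / 12 / m0 * a := by ring
  have u6 : (1 + θ) / m0 * (2 * c ^ 2 + a * max q 0)
      = 2 * (1 + θ) / m0 * c ^ 2 + (1 + θ) / m0 * (a * max q 0) := by ring
  rw [u5]
  linarith

/-- the pointwise inequality behind the row -/
lemma PL_pt {m : ℕ} {Λ θ η m0 lam w s r1 re r3 r5 r7 r8 a q φ c v : ℝ}
    (P : PLc Λ θ η m0 lam w s r1 re r3 r5 r7 r8) (hm : m0 ≤ m)
    (hΛ : 0 ≤ Λ) (ha : 0 ≤ a) (hq : a = q + 2 * c) (hφ : 0 ≤ φ)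
    (hv : 0 ≤ v) (hvs : v ≤ s) (hcr : |c| ≤ √a) :
    PhiU m θ Λ a q φ c v ≤
      3 / m * φ ^ 2 + r1 * φ ^ 2
        + (1 + θ / 2) * Λ * (φ * (√(a * (4 + 2 * q - a)) + |q|))
        + re * c ^ 2 + r5 * (|c| * max (√(1 + q) - 1) 0)
        - θ * (q * c) + r3 * a + r7 * (a * max q 0)
        + θ * Λ * (φ * (a + |c|)) + w * v ^ 2 := by
  obtain ⟨θ0, l0, l1, w0, m1, hw, sΛ, hs, n1, ne, n3, n5, n7, n8, r80⟩ := P
  have r0 : 0 ≤ √a := Real.sqrt_nonneg _
  have r2 : √a ^ 2 = a := Real.sq_sqrt ha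
  have c0 : 0 ≤ |c| := abs_nonneg c
  have c2 : |c| ^ 2 = c ^ 2 := sq_abs c
  have q0 : 0 ≤ max q 0 := le_max_right _ _
  have s0 : 0 ≤ s := hv.trans hvs
  have hL : 0 < 1 - lam := by linarith
  have A5 := amgm_v (k := (1 + θ) * Λ ^ 2) (x := φ) (v := v) (mul_pos l0 w0)
  have A6 := amgm_v (k := (1 + θ) * (2 * Λ)) (x := |c|) (v := v) (mul_pos hL w0)
  rw [c2] at A6
  have A8 : |c| * v * √(1 + q) ≤ |c| * v + s * (|c| * max (√(1 + q) - 1) 0) := by
    have g1 : √(1 + q) ≤ 1 + max (√(1 + q) - 1) 0 := by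
      have := le_max_left (√(1 + q) - 1) 0
      linarith
    have k1 := mul_le_mul_of_nonneg_left g1 (mul_nonneg c0 hv)
    have k2 := mul_le_mul_of_nonneg_right hvs
      (mul_nonneg c0 (le_max_right (√(1 + q) - 1) 0))
    linarith
  have B1 := PL_small (θ := θ) m1 hm θ0 hΛ hq hφ hvs s0 r0 r2 hcr
  have C2 := mul_le_mul_of_nonneg_left A8 (by positivity : 0 ≤ (1 + θ) * (2 * Λ))
  have D1 := mul_le_mul_of_nonneg_right n1 (sq_nonneg φ)
  have D2 := mul_le_mul_of_nonneg_right ne (sq_nonneg c)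
  have D3 := mul_le_mul_of_nonneg_right n3 ha
  have D5 := mul_le_mul_of_nonneg_right n5 (mul_nonneg c0 (le_max_right (√(1 + q) - 1) 0))
  have D7 := mul_le_mul_of_nonneg_right n7 (mul_nonneg ha q0)
  have e1 : 2 * c ^ 2 - c * a = -(q * c) := by
    rw [hq]
    ring
  have e2 : ((1 + θ) * Λ ^ 2) ^ 2 * (1 / (4 * (lam * w))) * φ ^ 2
      = ((1 + θ) * Λ ^ 2) ^ 2 / (4 * (lam * w)) * φ ^ 2 := by ring
  have e3 : ((1 + θ) * (2 * Λ)) ^ 2 * (1 / (4 * ((1 - lam) * w))) * c ^ 2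
      = ((1 + θ) * (2 * Λ)) ^ 2 / (4 * ((1 - lam) * w)) * c ^ 2 := by ring
  rw [e2] at A5
  rw [e3] at A6
  have e4 : θ * (a / (m + 2) + 2 * Λ ^ 2 * a + 2 * c ^ 2 - c * a + Λ * φ * a + Λ * φ * |c|)
      = θ * (a / (m + 2)) + 2 * θ * Λ ^ 2 * a - θ * (q * c) + θ * Λ * (φ * (a + |c|)) := by
    have : θ * (2 * c ^ 2 - c * a) = -(θ * (q * c)) := by
      rw [e1]
      ring
    linarith
  rw [PhiU, e4]
  linarith

section

variable {X : Type*} {E : Type*} [NormedAddCommGroup E] [InnerProductSpace ℝ E]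
  [FiniteDimensional ℝ E] [TopologicalSpace X] [MeasurableSpace X] [CompactSpace X] [BorelSpace X]
  {μ : Measure X} [IsProbabilityMeasure μ] {m : ℕ} {p n : X → E} {J : E →L[ℝ] E} {Λ : ℝ}

lemma Dat.cPL (d : Dat μ m p n J Λ) (θ r1 re r3 r5 r7 r8 : ℝ) :
    Continuous fun x => PL1 Λ θ r1 re r3 r5 r7 r8 (aa J p n x) (qq J p x) (ph m J p x) := by
  have ca := d.ca
  have cq := d.cq
  have cph := d.cph
  unfold PL1
  fun_prop

/-- **the upper row for `E φ²` in pointwise form** -/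
theorem Dat.PL_row (d : Dat μ m p n J Λ) {θ η m0 lam w s r1 re r3 r5 r7 r8 : ℝ}
    (P : PLc Λ θ η m0 lam w s r1 re r3 r5 r7 r8) (hm : m0 ≤ m)
    (hH : ∫ x, aa J p n x ∂μ ≤ η) :
    ∫ x, PL1 Λ θ r1 re r3 r5 r7 r8 (aa J p n x) (qq J p x) (ph m J p x) ∂μ ≤ 0 := by
  have ca := d.ca
  have cq := d.cq
  have cph := d.cph
  have ccc := d.cc
  have Λ0 := d.l0
  have mm : (0 : ℝ) < m := d.m_pos
  have P' := P
  obtain ⟨θ0, l0, l1, w0, m1, hw, sΛ, hs, n1, ne, n3, n5, n7, n8, r80⟩ := P'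
  have m00 : 0 < m0 := by linarith
  have s0 : 0 ≤ s := Λ0.trans sΛ
  have hL : 0 < 1 - lam := by linarith
  have r10 : 0 ≤ r1 := le_trans (by positivity) n1
  have re0 : 0 ≤ re := le_trans (by positivity) ne
  have r30 : 0 ≤ r3 := le_trans (by positivity) n3
  have r50 : 0 ≤ r5 := le_trans (by positivity) n5
  have r70 : 0 ≤ r7 := le_trans (by positivity) n7
  have hvs : ∀ x, vv m J p n x ≤ s := by
    intro x
    refine (d.vv_le x).trans ?_
    have k1 : √(1 / m + Λ ^ 2) ≤ s - Λ := by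
      refine Real.sqrt_le_iff.2 ⟨by linarith, ?_⟩
      have : 1 / (m : ℝ) ≤ 1 / m0 := one_div_le_one_div_of_le m00 hm
      linarith
    linarith
  have H0 := aa_int_nonneg (μ := μ) (J := J) (p := p) (n := n)
  have hw2 : w ≤ θ * (1 - ∫ y, aa J p n y ∂μ) * m / (m + 2) := by
    rw [le_div_iff₀ (by positivity)]
    have k1 : θ * (1 - η) * m ≤ θ * (1 - ∫ y, aa J p n y ∂μ) * m :=
      mul_le_mul_of_nonneg_right (mul_le_mul_of_nonneg_left (by linarith) θ0) mm.le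
    refine le_trans ?_ k1
    have k2 : w * (m + 2) * m0 ≤ θ * (1 - η) * m * m0 := by
      have g1 := mul_le_mul_of_nonneg_right hw mm.le
      have g2 := mul_nonneg w0.le (sub_nonneg.2 hm)
      nlinarith
    exact le_of_mul_le_mul_right k2 m00
  have hc : ∀ x, H686.cc J p n x = (aa J p n x - qq J p x) / 2 := by
    intro x
    have := d.a_eq x
    linarith
  have key := d.P_gen (θ := θ) θ0 (R := fun x => 3 / m * ph m J p x ^ 2 + r1 * ph m J p x ^ 2
        + (1 + θ / 2) * Λ * (ph m J p x * (√(aa J p n x * (4 + 2 * qq J p x - aa J p n x))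
          + |qq J p x|))
        + re * H686.cc J p n x ^ 2
        + r5 * (|H686.cc J p n x| * max (√(1 + qq J p x) - 1) 0)
        - θ * (qq J p x * H686.cc J p n x) + r3 * aa J p n x
        + r7 * (aa J p n x * max (qq J p x) 0) + r8 * max (qq J p x) 0 ^ 2
        + θ * Λ * (ph m J p x * (aa J p n x + |H686.cc J p n x|))) (by fun_prop)
    (fun x => by
      have k0 : 0 ≤ aa J p n x := sq_nonneg _
      have kφ : 0 ≤ ph m J p x := ph_nonneg x
      have k1 : 0 ≤ re * H686.cc J p n x ^ 2 - θ * (qq J p x * H686.cc J p n x)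
          + r8 * max (qq J p x) 0 ^ 2 := by
        have e1 := hc x
        rcases le_total (qq J p x) 0 with h | h
        · have c0 : 0 ≤ H686.cc J p n x := by linarith
          have k2 : 0 ≤ -(qq J p x * H686.cc J p n x) := by
            have := mul_nonneg (neg_nonneg.2 h) c0
            linarith
          have k3 := mul_nonneg θ0 k2
          have k4 : 0 ≤ re * H686.cc J p n x ^ 2 := by positivity
          have k5 : 0 ≤ r8 * max (qq J p x) 0 ^ 2 := by positivity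
          linarith
        · rw [max_eq_left h]
          set c := H686.cc J p n x
          set q := qq J p x
          rcases re0.eq_or_lt with h0 | h0
          · have : θ = 0 := by
              have : θ ^ 2 ≤ 0 := by
                rw [← h0] at n8
                linarith
              exact pow_eq_zero_iff (two_ne_zero) |>.1 (le_antisymm this (sq_nonneg θ))
            rw [this, ← h0]
            have : 0 ≤ r8 * q ^ 2 := by positivity
            linarith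
          · have k2 : 0 ≤ 4 * re * (re * c ^ 2 - θ * (q * c) + r8 * q ^ 2) := by
              have g1 := mul_le_mul_of_nonneg_right n8 (sq_nonneg q)
              nlinarith [sq_nonneg (2 * re * c - θ * q)]
            have h4 : 0 < 4 * re := by linarith
            exact (mul_nonneg_iff_of_pos_left h4).1 k2
      have k2 : 0 ≤ 3 / m * ph m J p x ^ 2 + r1 * ph m J p x ^ 2
        + (1 + θ / 2) * Λ * (ph m J p x * (√(aa J p n x * (4 + 2 * qq J p x - aa J p n x))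
          + |qq J p x|)) := by positivity
      have k3 : 0 ≤ r5 * (|H686.cc J p n x| * max (√(1 + qq J p x) - 1) 0) := by positivity
      have k4 : 0 ≤ r3 * aa J p n x + r7 * (aa J p n x * max (qq J p x) 0) := by positivity
      have k5 : 0 ≤ θ * Λ * (ph m J p x * (aa J p n x + |H686.cc J p n x|)) := by positivity
      linarith)
    (fun x => by
      have k0 : 0 ≤ aa J p n x := sq_nonneg _
      have k1 := PL_pt (m := m) (a := aa J p n x) (q := qq J p x)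
        (φ := ph m J p x) (c := H686.cc J p n x) (v := vv m J p n x) P hm Λ0 k0 (d.a_eq x)
        (ph_nonneg x) (vv_nonneg x) (hvs x) (d.c_le x)
      have k2 := mul_le_mul_of_nonneg_right hw2 (sq_nonneg (vv m J p n x))
      have k3 : 0 ≤ r8 * max (qq J p x) 0 ^ 2 := by positivity
      linarith)
  refine le_trans (le_of_eq ?_) key
  refine integral_congr_ae (Filter.Eventually.of_forall fun x => ?_)
  simp only [PL1]
  rw [← hc x]
  have e1 : (aa J p n x - qq J p x) ^ 2 / 4 = H686.cc J p n x ^ 2 := by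
    rw [hc x]
    ring
  rw [e1]
  ring

end

end Vale.Agent.P224.R2.H686
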