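import Vale.Agent.P224.R2.H686.PhiL

/-!
The pointwise form of the upper row for `E φ²`, with rational parameters.
-/

namespace Vale.Agent.P224.R2.H686

open MeasureTheory Module Function Set Vale.Agent.P224.R2.H470
open scoped RealInnerProductSpace Topology ContDiff

set_option linter.unusedSectionVars false

/-- rational parameters of the row -/
structure PLq where
  th : ℚ
  eta : ℚ
  m0 : ℚ
  la : ℚ
  w : ℚ
  s : ℚ
  r1 : ℚ
  re : ℚ
  r3 : ℚ
  r5 : ℚ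
  r7 : ℚ
  r8 : ℚ

namespace PLq

/-- the conditions on the parameters -/
def ok (P : PLq) (L : ℚ) : Bool :=
  decide (0 ≤ P.th) && decide (0 < P.la) && decide (P.la < 1) && decide (0 < P.w)
    && decide (1 ≤ P.m0) && decide (P.w * (P.m0 + 2) ≤ P.th * (1 - P.eta) * P.m0)
    && decide (L ≤ P.s) && decide (L ^ 2 + 1 / P.m0 ≤ (P.s - L) ^ 2)
    && decide (((1 + P.th) * L ^ 2) ^ 2 / (4 * (P.la * P.w)) ≤ P.r1)
    && decide (((1 + P.th) * (2 * L)) ^ 2 / (4 * ((1 - P.la) * P.w)) + 2 * (1 + P.th) / P.m0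
      ≤ P.re)
    && decide (2 * P.th * L ^ 2 + (P.th + ((1 + P.th) * (L + P.s)) ^ 2 / 12) / P.m0 ≤ P.r3)
    && decide (2 * (1 + P.th) * L * P.s ≤ P.r5) && decide ((1 + P.th) / P.m0 ≤ P.r7)
    && decide (P.th ^ 2 ≤ 4 * P.re * P.r8) && decide (0 ≤ P.r8)

lemma spec {P : PLq} {L : ℚ} (h : P.ok L = true) :
    PLc (L : ℝ) P.th P.eta P.m0 P.la P.w P.s P.r1 P.re P.r3 P.r5 P.r7 P.r8 := by
  unfold ok at h
  simp only [Bool.and_eq_true, decide_eq_true_eq] at h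
  obtain ⟨⟨⟨⟨⟨⟨⟨⟨⟨⟨⟨⟨⟨⟨h1, h2⟩, h3⟩, h4⟩, h5⟩, h6⟩, h7⟩, h8⟩, h9⟩, h10⟩, h11⟩, h12⟩, h13⟩,
    h14⟩, h15⟩ := h
  constructor
  · exact_mod_cast h1
  · exact_mod_cast h2
  · exact_mod_cast h3
  · exact_mod_cast h4
  · exact_mod_cast h5
  · exact_mod_cast h6
  · exact_mod_cast h7
  · exact_mod_cast h8
  · exact_mod_cast h9
  · exact_mod_cast h10
  · exact_mod_cast h11
  · exact_mod_cast h12
  · exact_mod_cast h13
  · exact_mod_cast h14
  · exact_mod_cast h15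

/-- the row function -/
noncomputable def fn (P : PLq) (L : ℚ) : ℝ → ℝ → ℝ → ℝ :=
  PL1 (L : ℝ) P.th P.r1 P.re P.r3 P.r5 P.r7 P.r8

/-- the best parameters for given `L`, `m0`, `eta`, `th`, `la` and a rational `s` -/
def mk' (L m0 eta th la s : ℚ) : PLq :=
  let w := th * (1 - eta) * m0 / (m0 + 2)
  let re := ((1 + th) * (2 * L)) ^ 2 / (4 * ((1 - la) * w)) + 2 * (1 + th) / m0
  { th := th
    eta := eta
    m0 := m0
    la := la
    w := w
    s := s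
    r1 := ((1 + th) * L ^ 2) ^ 2 / (4 * (la * w))
    re := re
    r3 := 2 * th * L ^ 2 + (th + ((1 + th) * (L + s)) ^ 2 / 12) / m0
    r5 := 2 * (1 + th) * L * s
    r7 := (1 + th) / m0
    r8 := th ^ 2 / (4 * re) }

section

variable {X : Type*} {E : Type*} [NormedAddCommGroup E] [InnerProductSpace ℝ E]
  [FiniteDimensional ℝ E] [TopologicalSpace X] [MeasurableSpace X] [CompactSpace X] [BorelSpace X]
  {μ : Measure X} [IsProbabilityMeasure μ] {m : ℕ} {p n : X → E} {J : E →L[ℝ] E}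

/-- the row -/
theorem row {P : PLq} {L : ℚ} (h : P.ok L = true) (d : Dat μ m p n J (L : ℝ))
    (hm : (P.m0 : ℝ) ≤ m) (hH : ∫ x, aa J p n x ∂μ ≤ (P.eta : ℝ)) :
    Continuous (fun x => P.fn L (aa J p n x) (qq J p x) (ph m J p x)) ∧
      ∫ x, P.fn L (aa J p n x) (qq J p x) (ph m J p x) ∂μ ≤ 0 :=
  ⟨d.cPL _ _ _ _ _ _ _, d.PL_row (spec h) hm hH⟩

end

/-- sample: `Λ = 0.2237`, `m ≥ 36` -/
example : (mk' (2237 / 10000) 36 (1 / 50) (3 / 20) (1 / 2) (503 / 1000)).ok (2237 / 10000)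
    = true := by decide +kernel

end PLq

end Vale.Agent.P224.R2.H686
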