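import Vale.Agent.P224.R2.H470.Quad

/-!
One point rows of the fields `w(x) A x` and of the monomials in `⟨x, J x⟩` and `|J x|² - 1`.
-/

namespace Vale.Agent.P224.R2.H686

open MeasureTheory Module Function Set Vale.Agent.P224.R2.H470
open scoped RealInnerProductSpace Topology ContDiff

set_option linter.unusedSectionVars false

section

variable {X : Type*} {E : Type*} [NormedAddCommGroup E] [InnerProductSpace ℝ E]
  [FiniteDimensional ℝ E] [TopologicalSpace X] [MeasurableSpace X] [CompactSpace X] [BorelSpace X]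
  {μ : Measure X} [IsFiniteMeasure μ] {m : ℕ} {p n : X → E}

/-- the row of the field `w(x) A x` -/
theorem gen_row (h : OneP μ m p n) (A : E →L[ℝ] E) {w : E → ℝ} {w' : E → E →L[ℝ] ℝ}
    (hw : ContDiff ℝ ∞ w) (hd : ∀ u, HasFDerivAt w (w' u) u) (hc : Continuous w') :
    (m + 1) * ∫ x, w (p x) * ⟪p x, A (p x)⟫ ∂μ
      = ∫ x, (w (p x) * (LinearMap.trace ℝ E (A : E →ₗ[ℝ] E) - ⟪n x, A (n x)⟫)
          + w' (p x) (tg p n x (A (p x)))) ∂μ := by
  have cp := h.cp
  have cn := h.cn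
  have cw : Continuous w := hw.continuous
  set e := stdOrthonormalBasis ℝ E with he
  have hW : ContDiff ℝ ∞ (fun u : E => w u • A u) := hw.smul A.contDiff
  have hdW : ∀ u, HasFDerivAt (fun u : E => w u • A u) (w u • A + (w' u).smulRight (A u)) u :=
    fun u => (hd u).smul (A.hasFDerivAt (x := u))
  have hcW : Continuous fun u : E => (w u • A + (w' u).smulRight (A u)) := by
    refine continuous_clm_apply.2 fun y => ?_
    simp only [_root_.add_apply, _root_.smul_apply, ContinuousLinearMap.smulRight_apply]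
    have : Continuous fun u => w' u y := hc.clm_apply continuous_const
    fun_prop
  have h1 := h.rv hW hdW hcW
  have htr : ∀ u : E, LinearMap.trace ℝ E
      ((w u • A + (w' u).smulRight (A u) : E →L[ℝ] E) : E →ₗ[ℝ] E)
      = w u * LinearMap.trace ℝ E (A : E →ₗ[ℝ] E) + w' u (A u) := by
    intro u
    have h2 : w' u (A u) = ∑ i, ⟪e i, A u⟫ * w' u (e i) := by
      conv_lhs => rw [← e.sum_repr' (A u)]
      simp
    rw [LinearMap.trace_eq_sum_inner _ e, LinearMap.trace_eq_sum_inner _ e, h2, Finset.mul_sum,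
      ← Finset.sum_add_distrib]
    refine Finset.sum_congr rfl fun i _ => ?_
    simp only [ContinuousLinearMap.coe_coe, _root_.add_apply, _root_.smul_apply,
      ContinuousLinearMap.smulRight_apply, inner_add_right, inner_smul_right]
    ring
  simp only [htr] at h1
  simp only [_root_.add_apply, _root_.smul_apply,
      ContinuousLinearMap.smulRight_apply, inner_add_left,
      inner_smul_left, inner_smul_right, RCLike.conj_to_real] at h1
  have c1 : Continuous fun x => w' (p x) (A (p x)) := (hc.comp cp).clm_apply (by fun_prop)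
  have c2 : Continuous fun x => w' (p x) (p x) := (hc.comp cp).clm_apply (by fun_prop)
  have c3 : Continuous fun x => w' (p x) (n x) := (hc.comp cp).clm_apply (by fun_prop)
  have e2 : ∀ x, w (p x) * LinearMap.trace ℝ E (A : E →ₗ[ℝ] E) + w' (p x) (A (p x))
      - (w (p x) * ⟪A (p x), p x⟫ + w' (p x) (p x) * ⟪A (p x), p x⟫)
      - (w (p x) * ⟪A (n x), n x⟫ + w' (p x) (n x) * ⟪A (p x), n x⟫)
      = (w (p x) * (LinearMap.trace ℝ E (A : E →ₗ[ℝ] E) - ⟪n x, A (n x)⟫)
          + w' (p x) (tg p n x (A (p x)))) - w (p x) * ⟪p x, A (p x)⟫ := by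
    intro x
    simp only [tg, map_sub, map_smul, smul_eq_mul]
    rw [real_inner_comm (p x) (A (p x)), real_inner_comm (n x) (A (n x)),
      real_inner_comm (n x) (A (p x))]
    ring
  simp only [e2] at h1
  have c4 : Continuous fun x => (w (p x) * (LinearMap.trace ℝ E (A : E →ₗ[ℝ] E) - ⟪n x, A (n x)⟫)
          + w' (p x) (tg p n x (A (p x)))) := by
    simp only [tg, map_sub, map_smul, smul_eq_mul]
    fun_prop
  rw [integral_sub (int_of_cont c4) (int_of_cont (by fun_prop))] at h1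
  have e3 : ∫ x, ⟪p x, A (p x)⟫ * w (p x) ∂μ = ∫ x, w (p x) * ⟪p x, A (p x)⟫ ∂μ := by
    refine integral_congr_ae (Filter.Eventually.of_forall fun x => ?_)
    simp only
    ring
  have e4 : ∫ x, w (p x) * ⟪p x, A (p x)⟫ ∂μ = ∫ x, w (p x) * ⟪p x, A (p x)⟫ ∂μ := rfl
  linarith

/-- the quadratic form `⟨u, J u⟩` -/
noncomputable def fF (J : E →L[ℝ] E) (u : E) : ℝ := ⟪u, J u⟫

/-- the defect `⟨u, J J u⟩ - 1` -/
noncomputable def fQ (J : E →L[ℝ] E) (u : E) : ℝ := ⟪u, J (J u)⟫ - 1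

lemma fQ_eq {J : E →L[ℝ] E} (hJ : ∀ u v, ⟪J u, v⟫ = ⟪u, J v⟫) (u : E) :
    fQ J u = ‖J u‖ ^ 2 - 1 := by
  rw [fQ, ← hJ u (J u), real_inner_self_eq_norm_sq]

@[fun_prop]
lemma cont_fF (J : E →L[ℝ] E) : Continuous (fF J) := by
  unfold fF
  fun_prop

@[fun_prop]
lemma cont_fQ (J : E →L[ℝ] E) : Continuous (fQ J) := by
  unfold fQ
  fun_prop

lemma hasFD_fF {J : E →L[ℝ] E} (hJ : ∀ u v, ⟪J u, v⟫ = ⟪u, J v⟫) (u : E) :
    HasFDerivAt (fF J) ((2 : ℝ) • innerSL ℝ (J u)) u := hasFD_quad hJ u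

lemma hasFD_fQ {J : E →L[ℝ] E} (hJ : ∀ u v, ⟪J u, v⟫ = ⟪u, J v⟫) (u : E) :
    HasFDerivAt (fQ J) ((2 : ℝ) • innerSL ℝ (J (J u))) u := by
  have h1 : ∀ u v, ⟪(J.comp J) u, v⟫ = ⟪u, (J.comp J) v⟫ := by
    intro u v
    simp only [ContinuousLinearMap.comp_apply]
    rw [hJ, hJ]
  exact (hasFD_quad h1 u).sub_const 1

lemma smooth_fF (J : E →L[ℝ] E) : ContDiff ℝ ∞ (fF J) := contDiff_id.inner ℝ J.contDiff

lemma smooth_fQ (J : E →L[ℝ] E) : ContDiff ℝ ∞ (fQ J) :=
  (contDiff_id.inner ℝ (J.comp J).contDiff).sub contDiff_const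

lemma tg_inner (h : OneP μ m p n) (x : X) (a b : E) : ⟪a, tg p n x b⟫ = ⟪tg p n x a, tg p n x b⟫ := by
  have e1 := h.pp x
  have e2 := h.nnn x
  have e3 := h.pn x
  have e4 := h.np' x
  simp only [tg, inner_sub_left, inner_sub_right, inner_smul_left, inner_smul_right,
    RCLike.conj_to_real, e1, e2, e3, e4, real_inner_comm (p x) a, real_inner_comm (n x) a]
  ring

lemma tg_p (h : OneP μ m p n) (x : X) : tg p n x (p x) = 0 := by
  simp [tg, h.np x, h.np' x]

lemma tg_sub (x : X) (a b : E) : tg p n x (a - b) = tg p n x a - tg p n x b := by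
  simp only [tg, inner_sub_right, sub_smul]
  abel

lemma norm_tg_sq (h : OneP μ m p n) (x : X) (a : E) :
    ‖tg p n x a‖ ^ 2 = ‖a‖ ^ 2 - ⟪p x, a⟫ ^ 2 - ⟪n x, a⟫ ^ 2 := by
  have e1 := h.pp x
  have e2 := h.nnn x
  have e3 := h.pn x
  have e4 := h.np' x
  rw [← real_inner_self_eq_norm_sq, ← real_inner_self_eq_norm_sq]
  simp only [tg, inner_sub_left, inner_sub_right, inner_smul_left, inner_smul_right,
    RCLike.conj_to_real, e1, e2, e3, e4, real_inner_comm (p x) a, real_inner_comm (n x) a]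
  ring

lemma norm_tg_le (h : OneP μ m p n) (x : X) (a : E) : ‖tg p n x a‖ ≤ ‖a‖ := by
  have := norm_tg_sq h x a
  refine le_of_sq_le_sq ?_ (norm_nonneg _)
  nlinarith [sq_nonneg ⟪p x, a⟫, sq_nonneg ⟪n x, a⟫]

/-- the first tangential field -/
noncomputable def T1 (J : E →L[ℝ] E) (p n : X → E) (x : X) : E := tg p n x (J (p x))

/-- the second tangential field -/
noncomputable def T2 (J : E →L[ℝ] E) (p n : X → E) (x : X) : E := tg p n x (J (J (p x)))

lemma cont_T1 (h : OneP μ m p n) (J : E →L[ℝ] E) : Continuous (T1 J p n) := by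
  have cp := h.cp
  have cn := h.cn
  unfold T1 tg
  fun_prop

lemma cont_T2 (h : OneP μ m p n) (J : E →L[ℝ] E) : Continuous (T2 J p n) := by
  have cp := h.cp
  have cn := h.cn
  unfold T2 tg
  fun_prop

/-- the monomial row with a general field -/
theorem mono_row (h : OneP μ m p n) {J : E →L[ℝ] E} (hJ : ∀ u v, ⟪J u, v⟫ = ⟪u, J v⟫)
    (A : E →L[ℝ] E) (i k : ℕ) :
    (m + 1) * ∫ x, fF J (p x) ^ i * fQ J (p x) ^ k * ⟪p x, A (p x)⟫ ∂μ
      = ∫ x, (fF J (p x) ^ i * fQ J (p x) ^ k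
            * (LinearMap.trace ℝ E (A : E →ₗ[ℝ] E) - ⟪n x, A (n x)⟫)
          + 2 * i * (fF J (p x) ^ (i - 1) * fQ J (p x) ^ k) * ⟪T1 J p n x, tg p n x (A (p x))⟫
          + 2 * k * (fF J (p x) ^ i * fQ J (p x) ^ (k - 1))
            * ⟪T2 J p n x, tg p n x (A (p x))⟫) ∂μ := by
  have hw : ContDiff ℝ ∞ (fun u => fF J u ^ i * fQ J u ^ k) :=
    ((smooth_fF J).pow i).mul ((smooth_fQ J).pow k)
  have hd : ∀ u, HasFDerivAt (fun u => fF J u ^ i * fQ J u ^ k)
      ((2 * i * (fF J u ^ (i - 1) * fQ J u ^ k)) • innerSL ℝ (J u)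
        + (2 * k * (fF J u ^ i * fQ J u ^ (k - 1))) • innerSL ℝ (J (J u))) u := by
    intro u
    have h1 := ((hasFD_fF hJ u).pow i).mul ((hasFD_fQ hJ u).pow k)
    refine h1.congr_fderiv ?_
    ext v
    simp only [_root_.add_apply, _root_.smul_apply, innerSL_apply_apply, smul_eq_mul, nsmul_eq_mul]
    ring
  have hc : Continuous fun u => ((2 * i * (fF J u ^ (i - 1) * fQ J u ^ k)) • innerSL ℝ (J u)
        + (2 * k * (fF J u ^ i * fQ J u ^ (k - 1))) • innerSL ℝ (J (J u))) := by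
    fun_prop
  have h1 := gen_row h A hw hd hc
  rw [h1]
  refine integral_congr_ae (Filter.Eventually.of_forall fun x => ?_)
  simp only [_root_.add_apply, _root_.smul_apply, innerSL_apply_apply, smul_eq_mul, T1, T2]
  rw [tg_inner h x (J (p x)), tg_inner h x (J (J (p x)))]
  ring

end

end Vale.Agent.P224.R2.H686
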