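import Vale.Agent.P224.R2.H686.RowQ

/-!
The rows with weights `ψ(|J x|² - 1)` for continuously differentiable `ψ`.
-/

namespace Vale.Agent.P224.R2.H686

open MeasureTheory Module Function Set Vale.Agent.P224.R2.H470
open scoped RealInnerProductSpace Topology ContDiff

set_option linter.unusedSectionVars false

section

variable {X : Type*} {E : Type*} [NormedAddCommGroup E] [InnerProductSpace ℝ E]
  [FiniteDimensional ℝ E] [TopologicalSpace X] [MeasurableSpace X] [CompactSpace X] [BorelSpace X]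
  {μ : Measure X} [IsProbabilityMeasure μ] {m : ℕ} {p n : X → E} {J : E →L[ℝ] E} {Λ : ℝ}

/-- the row for a smooth weight -/
theorem Dat.rowS (d : Dat μ m p n J Λ) {ψ ψ' : ℝ → ℝ} (hψ : ContDiff ℝ ∞ ψ)
    (hd : ∀ s, HasDerivAt ψ (ψ' s) s) (hc : Continuous ψ') :
    (m + 1) * ∫ x, ψ (qq J p x) * qq J p x ∂μ
      = ∫ x, (ψ (qq J p x) * (t0 J - kk J n x)
          + 2 * ψ' (qq J p x) * ‖T2 J p n x‖ ^ 2) ∂μ := by
  have hw : ContDiff ℝ ∞ (fun u => ψ (fQ J u)) := hψ.comp (smooth_fQ J)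
  have hd' : ∀ u, HasFDerivAt (fun u => ψ (fQ J u))
      (ψ' (fQ J u) • ((2 : ℝ) • innerSL ℝ (J (J u)))) u := fun u =>
    (hd _).comp_hasFDerivAt u (hasFD_fQ d.sym u)
  have hc' : Continuous fun u => (ψ' (fQ J u) • ((2 : ℝ) • innerSL ℝ (J (J u)))) := by fun_prop
  have h1 := gen_row d.h (Wop J) hw hd' hc'
  simp only [d.pWp, d.nWn] at h1
  refine Eq.trans ?_ (h1.trans ?_)
  · rfl
  · refine integral_congr_ae (Filter.Eventually.of_forall fun x => ?_)
    simp only [_root_.smul_apply, innerSL_apply_apply, smul_eq_mul, t0]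
    rw [tg_inner d.h x (J (J (p x))), d.tgW]
    have : tg p n x (J (J (p x))) = T2 J p n x := rfl
    rw [this, real_inner_self_eq_norm_sq]
    simp only [qq]
    ring

/-- polynomial approximation in `C¹` -/
lemma approx_C1 {ψ ψ' : ℝ → ℝ} (hd : ∀ s, HasDerivAt ψ (ψ' s) s) (hc : Continuous ψ') {R ε : ℝ}
    (hR : 0 ≤ R) (hε : 0 < ε) : ∃ Ψ Ψ' : ℝ → ℝ, ContDiff ℝ ∞ Ψ ∧ (∀ s, HasDerivAt Ψ (Ψ' s) s) ∧
      Continuous Ψ' ∧ ∀ s ∈ Icc (-R) R, |Ψ s - ψ s| ≤ R * ε ∧ |Ψ' s - ψ' s| ≤ ε := by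
  obtain ⟨P, hP⟩ := exists_polynomial_near_of_continuousOn (-R) R ψ' hc.continuousOn ε hε
  have cP : Continuous fun t => P.eval t := P.continuous
  have hdP : ∀ s, HasDerivAt (fun s => ψ 0 + ∫ t in (0 : ℝ)..s, P.eval t) (P.eval s) s := by
    intro s
    have := (intervalIntegral.integral_hasDerivAt_right (cP.intervalIntegrable 0 s)
      (cP.stronglyMeasurableAtFilter _ _) cP.continuousAt)
    exact this.const_add _
  refine ⟨fun s => ψ 0 + ∫ t in (0 : ℝ)..s, P.eval t, fun s => P.eval s, ?_, hdP, cP, ?_⟩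
  · rw [contDiff_infty_iff_deriv]
    refine ⟨fun s => (hdP s).differentiableAt, ?_⟩
    have : deriv (fun s => ψ 0 + ∫ t in (0 : ℝ)..s, P.eval t) = fun s => P.eval s :=
      funext fun s => (hdP s).deriv
    rw [this]
    have := Polynomial.contDiff_aeval (𝕜 := ℝ) P ∞
    simpa [Polynomial.aeval_def] using this
  · intro s hs
    refine ⟨?_, (hP s hs).le⟩
    have h1 : ∀ t ∈ Icc (-R) R, HasDerivWithinAt
        (fun s => (ψ 0 + ∫ t in (0 : ℝ)..s, P.eval t) - ψ s) (P.eval t - ψ' t) (Icc (-R) R) t :=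
      fun t _ => ((hdP t).sub (hd t)).hasDerivWithinAt
    have h2 := (convex_Icc (-R) R).norm_image_sub_le_of_norm_hasDerivWithin_le h1
      (C := ε) (fun t ht => by rw [Real.norm_eq_abs]; exact (hP t ht).le)
      (x := 0) (y := s) ⟨by linarith, hR⟩ hs
    simp only [intervalIntegral.integral_same, add_zero, sub_self, sub_zero,
      Real.norm_eq_abs] at h2
    have h3 : |s| ≤ R := abs_le.2 ⟨hs.1, hs.2⟩
    calc |ψ 0 + (∫ t in (0 : ℝ)..s, P.eval t) - ψ s| ≤ ε * |s| := h2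
      _ ≤ R * ε := by nlinarith

/-- the row for a `C¹` weight -/
theorem Dat.rowC (d : Dat μ m p n J Λ) {ψ ψ' : ℝ → ℝ}
    (hd : ∀ s, HasDerivAt ψ (ψ' s) s) (hc : Continuous ψ') :
    (m + 1) * ∫ x, ψ (qq J p x) * qq J p x ∂μ
      = ∫ x, (ψ (qq J p x) * (t0 J - kk J n x)
          + 2 * ψ' (qq J p x) * ‖T2 J p n x‖ ^ 2) ∂μ := by
  have cq := d.cq
  have ck := d.ck
  have c2 := cont_T2 d.h J
  have cψ : Continuous ψ := continuous_iff_continuousAt.2 fun s => (hd s).continuousAt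
  obtain ⟨R, hR⟩ : ∃ R, ∀ x, |qq J p x| ≤ R := by
    obtain ⟨R, hR⟩ := isCompact_univ.exists_bound_of_continuousOn (cq.continuousOn (s := univ))
    exact ⟨R, fun x => hR x (mem_univ x)⟩
  obtain ⟨B, hB⟩ : ∃ B, ∀ x, |(m + 1) * qq J p x - (t0 J - kk J n x)| ≤ B := by
    have c3 : Continuous fun x => (m + 1) * qq J p x - (t0 J - kk J n x) := by fun_prop
    obtain ⟨R, hR⟩ := isCompact_univ.exists_bound_of_continuousOn (c3.continuousOn (s := univ))
    exact ⟨R, fun x => hR x (mem_univ x)⟩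
  obtain ⟨C, hC⟩ : ∃ C, ∀ x, |2 * ‖T2 J p n x‖ ^ 2| ≤ C := by
    have c3 : Continuous fun x => 2 * ‖T2 J p n x‖ ^ 2 := by fun_prop
    obtain ⟨R, hR⟩ := isCompact_univ.exists_bound_of_continuousOn (c3.continuousOn (s := univ))
    exact ⟨R, fun x => hR x (mem_univ x)⟩
  set R' := max R 0 with hR'
  set B' := max B 0 with hB'
  set C' := max C 0 with hC'
  have key : ∀ ε : ℝ, 0 < ε → |(m + 1) * (∫ x, ψ (qq J p x) * qq J p x ∂μ)
      - ∫ x, (ψ (qq J p x) * (t0 J - kk J n x)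
          + 2 * ψ' (qq J p x) * ‖T2 J p n x‖ ^ 2) ∂μ| ≤ ε * (R' * B' + C') := by
    intro ε hε
    obtain ⟨Ψ, Ψ', hs, hdΨ, hcΨ, hap⟩ := approx_C1 hd hc (le_max_right R 0) hε
    have cΨ : Continuous Ψ := hs.continuous
    have h1 := d.rowS hs hdΨ hcΨ
    have e1 : (m + 1) * (∫ x, ψ (qq J p x) * qq J p x ∂μ)
      - ∫ x, (ψ (qq J p x) * (t0 J - kk J n x)
          + 2 * ψ' (qq J p x) * ‖T2 J p n x‖ ^ 2) ∂μ
        = ∫ x, (-((Ψ (qq J p x) - ψ (qq J p x)) * ((m + 1) * qq J p x - (t0 J - kk J n x)))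
          + (Ψ' (qq J p x) - ψ' (qq J p x)) * (2 * ‖T2 J p n x‖ ^ 2)) ∂μ := by
      have e2 : ∫ x, (-((Ψ (qq J p x) - ψ (qq J p x)) * ((m + 1) * qq J p x - (t0 J - kk J n x)))
          + (Ψ' (qq J p x) - ψ' (qq J p x)) * (2 * ‖T2 J p n x‖ ^ 2)) ∂μ
          = ((m + 1) * (∫ x, ψ (qq J p x) * qq J p x ∂μ)
            - ∫ x, (ψ (qq J p x) * (t0 J - kk J n x)
              + 2 * ψ' (qq J p x) * ‖T2 J p n x‖ ^ 2) ∂μ)
            - ((m + 1) * (∫ x, Ψ (qq J p x) * qq J p x ∂μ)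
            - ∫ x, (Ψ (qq J p x) * (t0 J - kk J n x)
              + 2 * Ψ' (qq J p x) * ‖T2 J p n x‖ ^ 2) ∂μ) := by
        rw [← integral_const_mul, ← integral_const_mul,
          ← integral_sub (int_of_cont (by fun_prop)) (int_of_cont (by fun_prop)),
          ← integral_sub (int_of_cont (by fun_prop)) (int_of_cont (by fun_prop)),
          ← integral_sub (int_of_cont (by fun_prop)) (int_of_cont (by fun_prop))]
        refine integral_congr_ae (Filter.Eventually.of_forall fun x => ?_)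
        simp only
        ring
      rw [e2, h1, sub_self, sub_zero]
    rw [e1, ← Real.norm_eq_abs]
    have h2 := norm_integral_le_of_norm_le_const (μ := μ) (C := ε * (R' * B' + C'))
      (f := fun x => (-((Ψ (qq J p x) - ψ (qq J p x)) * ((m + 1) * qq J p x - (t0 J - kk J n x)))
          + (Ψ' (qq J p x) - ψ' (qq J p x)) * (2 * ‖T2 J p n x‖ ^ 2)))
      (Filter.Eventually.of_forall fun x => ?_)
    · rwa [probReal_univ, mul_one] at h2
    · have hq : qq J p x ∈ Icc (-R') R' :=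
        abs_le.1 ((hR x).trans (le_max_left _ _))
      obtain ⟨k1, k2⟩ := hap _ hq
      have k3 := (hB x).trans (le_max_left B 0)
      have k4 := (hC x).trans (le_max_left C 0)
      rw [Real.norm_eq_abs]
      refine (abs_add_le _ _).trans ?_
      rw [abs_neg, abs_mul, abs_mul]
      have k5 : |Ψ (qq J p x) - ψ (qq J p x)| * |(m + 1) * qq J p x - (t0 J - kk J n x)|
          ≤ R' * ε * B' := mul_le_mul k1 k3 (abs_nonneg _) (mul_nonneg (le_max_right _ _) hε.le)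
      have k6 : |Ψ' (qq J p x) - ψ' (qq J p x)| * |2 * ‖T2 J p n x‖ ^ 2| ≤ ε * C' :=
        mul_le_mul k2 k4 (abs_nonneg _) hε.le
      linarith
  set D := (m + 1) * (∫ x, ψ (qq J p x) * qq J p x ∂μ)
      - ∫ x, (ψ (qq J p x) * (t0 J - kk J n x)
          + 2 * ψ' (qq J p x) * ‖T2 J p n x‖ ^ 2) ∂μ with hD
  have hK : 0 ≤ R' * B' + C' :=
    add_nonneg (mul_nonneg (le_max_right _ _) (le_max_right _ _)) (le_max_right _ _)
  have h3 : D = 0 := by
    by_contra hne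
    have h4 : 0 < |D| := abs_pos.2 hne
    have h5 := key (|D| / (2 * (R' * B' + C' + 1))) (by positivity)
    have h6 : |D| / (2 * (R' * B' + C' + 1)) * (R' * B' + C') < |D| := by
      rw [div_mul_eq_mul_div, div_lt_iff₀ (by positivity)]
      nlinarith
    linarith
  linarith

/-- powers of the positive part are `C¹` -/
lemma hasDerivAt_pos (k : ℕ) (s : ℝ) :
    HasDerivAt (fun s : ℝ => max s 0 ^ (k + 2)) ((k + 2) * max s 0 ^ (k + 1)) s := by
  rcases lt_trichotomy s 0 with h | h | h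
  · have h1 : HasDerivAt (fun _ : ℝ => (0 : ℝ)) 0 s := hasDerivAt_const s 0
    have h2 : ((k : ℝ) + 2) * max s 0 ^ (k + 1) = 0 := by
      rw [max_eq_right h.le]
      simp
    rw [h2]
    refine h1.congr_of_eventuallyEq ?_
    filter_upwards [Iio_mem_nhds h] with t ht
    rw [max_eq_right (mem_Iio.1 ht).le]
    simp
  · subst h
    have h2 : ((k : ℝ) + 2) * max (0 : ℝ) 0 ^ (k + 1) = 0 := by simp
    rw [h2, hasDerivAt_iff_isLittleO_nhds_zero]
    simp only [zero_add, max_self, smul_zero, sub_zero]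
    have h3 : (fun h : ℝ => max h 0 ^ (k + 2) - (0 : ℝ) ^ (k + 2)) =O[𝓝 0] fun h : ℝ => h ^ 2 := by
      refine Asymptotics.IsBigO.of_bound 1 ?_
      filter_upwards [Ioo_mem_nhds (by norm_num : (-1 : ℝ) < 0) (by norm_num : (0 : ℝ) < 1)]
        with t ht
      have e1 : (0 : ℝ) ^ (k + 2) = 0 := by simp
      rw [e1, sub_zero, one_mul, Real.norm_eq_abs, Real.norm_eq_abs, abs_pow, abs_pow]
      have e2 : |max t 0| ≤ |t| := by
        rcases le_total t 0 with h | h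
        · rw [max_eq_right h, abs_zero]
          exact abs_nonneg _
        · rw [max_eq_left h]
      have e3 : |max t 0| ≤ 1 := e2.trans (abs_le.2 ⟨ht.1.le, ht.2.le⟩)
      calc |max t 0| ^ (k + 2) = |max t 0| ^ k * |max t 0| ^ 2 := by ring
        _ ≤ 1 * |t| ^ 2 := mul_le_mul (pow_le_one₀ (abs_nonneg _) e3)
            (pow_le_pow_left₀ (abs_nonneg _) e2 2) (by positivity) (by norm_num)
        _ = |t| ^ 2 := one_mul _
    refine h3.trans_isLittleO ?_
    exact Asymptotics.isLittleO_pow_id (by norm_num)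
  · have h1 : HasDerivAt (fun s : ℝ => s ^ (k + 2)) (((k + 2 : ℕ) : ℝ) * s ^ (k + 2 - 1)) s :=
      hasDerivAt_pow (k + 2) s
    have h2 : ((k : ℝ) + 2) * max s 0 ^ (k + 1) = ((k + 2 : ℕ) : ℝ) * s ^ (k + 2 - 1) := by
      rw [max_eq_left h.le]
      push_cast
      rfl
    rw [h2]
    refine h1.congr_of_eventuallyEq ?_
    filter_upwards [Ioi_mem_nhds h] with t ht
    rw [max_eq_left (mem_Ioi.1 ht).le]

/-- the row for a nonnegative nondecreasing `C¹` weight, with the exact constant -/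
theorem Dat.pos_row' (d : Dat μ m p n J Λ) {ψ ψ' : ℝ → ℝ}
    (hd : ∀ s, HasDerivAt ψ (ψ' s) s) (hc : Continuous ψ') (h0 : ∀ s, -1 ≤ s → 0 ≤ ψ s)
    (h1 : ∀ s, -1 ≤ s → 0 ≤ ψ' s) :
    ∫ x, (ψ (qq J p x) * qq J p x - t0 J / (m + 1) * ψ (qq J p x)
      - 2 * Λ ^ 2 * (ψ' (qq J p x) * (1 + qq J p x))) ∂μ ≤ 0 := by
  have hr := d.rowC hd hc
  have cq := d.cq
  have ck := d.ck
  have c2 := cont_T2 d.h J
  have cψ : Continuous ψ := continuous_iff_continuousAt.2 fun s => (hd s).continuousAt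
  have hm := d.m_pos
  have hm1 : (0 : ℝ) < m + 1 := by linarith
  have h2 : ∫ x, (m + 1) * (ψ (qq J p x) * qq J p x - t0 J / (m + 1) * ψ (qq J p x)
      - 2 * Λ ^ 2 * (ψ' (qq J p x) * (1 + qq J p x))) ∂μ
      ≤ ∫ x, (m + 1) * (ψ (qq J p x) * qq J p x) ∂μ
        - ∫ x, (ψ (qq J p x) * (t0 J - kk J n x)
          + 2 * ψ' (qq J p x) * ‖T2 J p n x‖ ^ 2) ∂μ := by
    rw [← integral_sub (int_of_cont (by fun_prop)) (int_of_cont (by fun_prop))]
    refine integral_mono (int_of_cont (by fun_prop)) (int_of_cont (by fun_prop)) fun x => ?_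
    simp only
    have k1 := d.t2_le x
    have k4 := kk_nonneg (J := J) (n := n) x
    have k5 := d.q_ge x
    have k6 := h0 _ k5
    have k7 := h1 _ k5
    have k8 := mul_le_mul_of_nonneg_left k1 k7
    have k9 : 0 ≤ Λ ^ 2 * (ψ' (qq J p x) * (1 + qq J p x)) :=
      mul_nonneg (sq_nonneg _) (mul_nonneg k7 (by linarith))
    have k10 := mul_nonneg k6 k4
    have e1 : (m + 1) * (ψ (qq J p x) * qq J p x - t0 J / (m + 1) * ψ (qq J p x)
      - 2 * Λ ^ 2 * (ψ' (qq J p x) * (1 + qq J p x)))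
      = (m + 1) * (ψ (qq J p x) * qq J p x) - t0 J * ψ (qq J p x)
        - 2 * (m + 1) * (Λ ^ 2 * (ψ' (qq J p x) * (1 + qq J p x))) := by
      field_simp
    rw [e1]
    nlinarith
  rw [integral_const_mul, integral_const_mul, hr] at h2
  have h3 : ((m : ℝ) + 1) * ∫ x, (ψ (qq J p x) * qq J p x - t0 J / (m + 1) * ψ (qq J p x)
      - 2 * Λ ^ 2 * (ψ' (qq J p x) * (1 + qq J p x))) ∂μ ≤ 0 := by linarith
  by_contra hc
  push Not at hc
  have := mul_pos hm1 hc
  linarith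

/-- the row for a nonnegative nondecreasing `C¹` weight -/
theorem Dat.pos_row (d : Dat μ m p n J Λ) {ψ ψ' : ℝ → ℝ}
    (hd : ∀ s, HasDerivAt ψ (ψ' s) s) (hc : Continuous ψ') (h0 : ∀ s, -1 ≤ s → 0 ≤ ψ s)
    (h1 : ∀ s, -1 ≤ s → 0 ≤ ψ' s) :
    ∫ x, (ψ (qq J p x) * qq J p x - Λ ^ 2 * ψ (qq J p x)
      - 2 * Λ ^ 2 * (ψ' (qq J p x) * (1 + qq J p x))) ∂μ ≤ 0 := by
  have cq := d.cq
  have cψ : Continuous ψ := continuous_iff_continuousAt.2 fun s => (hd s).continuousAt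
  refine le_trans ?_ (d.pos_row' hd hc h0 h1)
  refine integral_mono (int_of_cont (by fun_prop)) (int_of_cont (by fun_prop)) fun x => ?_
  simp only
  have hm := d.m_pos
  have k1 : t0 J / (m + 1) ≤ Λ ^ 2 := by
    rw [div_le_iff₀ (by linarith)]
    have := d.t0_le
    nlinarith [sq_nonneg Λ]
  have := mul_le_mul_of_nonneg_right k1 (h0 _ (d.q_ge x))
  linarith

/-- the row with weight `q₊ ^ (k + 2) (1 + q) ^ l` -/
theorem Dat.R_row (d : Dat μ m p n J Λ) (k l : ℕ) :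
    ∫ x, (max (qq J p x) 0 ^ (k + 3) * (1 + qq J p x) ^ l
      - Λ ^ 2 * (max (qq J p x) 0 ^ (k + 2) * (1 + qq J p x) ^ l)
      - 2 * Λ ^ 2 * ((k + 2) * max (qq J p x) 0 ^ (k + 1) * (1 + qq J p x) ^ (l + 1)
        + l * max (qq J p x) 0 ^ (k + 2) * (1 + qq J p x) ^ l)) ∂μ ≤ 0 := by
  have hd : ∀ s : ℝ, HasDerivAt (fun s : ℝ => max s 0 ^ (k + 2) * (1 + s) ^ l)
      ((k + 2) * max s 0 ^ (k + 1) * (1 + s) ^ l
        + max s 0 ^ (k + 2) * (l * (1 + s) ^ (l - 1))) s := by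
    intro s
    have h1 := hasDerivAt_pos k s
    have h2 : HasDerivAt (fun s : ℝ => (1 + s) ^ l) (l * (1 + s) ^ (l - 1)) s := by
      have := ((hasDerivAt_id s).const_add (1 : ℝ)).fun_pow l
      simpa using this
    exact h1.mul h2
  have hc : Continuous fun s : ℝ => ((k + 2) * max s 0 ^ (k + 1) * (1 + s) ^ l
        + max s 0 ^ (k + 2) * (l * (1 + s) ^ (l - 1))) := by fun_prop
  have h0 : ∀ s : ℝ, -1 ≤ s → 0 ≤ max s 0 ^ (k + 2) * (1 + s) ^ l := fun s hs =>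
    mul_nonneg (pow_nonneg (le_max_right _ _) _) (pow_nonneg (by linarith) _)
  have h1 : ∀ s : ℝ, -1 ≤ s → 0 ≤ ((k + 2) * max s 0 ^ (k + 1) * (1 + s) ^ l
        + max s 0 ^ (k + 2) * (l * (1 + s) ^ (l - 1))) := by
    intro s hs
    have e1 : (0 : ℝ) ≤ 1 + s := by linarith
    have e2 : 0 ≤ max s 0 := le_max_right _ _
    positivity
  have h2 := d.pos_row hd hc h0 h1
  refine le_trans (le_of_eq ?_) h2
  refine integral_congr_ae (Filter.Eventually.of_forall fun x => ?_)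
  simp only
  have e3 : max (qq J p x) 0 ^ (k + 2) * (1 + qq J p x) ^ l * qq J p x
      = max (qq J p x) 0 ^ (k + 3) * (1 + qq J p x) ^ l := by
    rcases le_total 0 (qq J p x) with h | h
    · rw [max_eq_left h]
      ring
    · rw [max_eq_right h]
      simp
  have e4 : (l : ℝ) * (1 + qq J p x) ^ (l - 1) * (1 + qq J p x) = l * (1 + qq J p x) ^ l := by
    rcases Nat.eq_zero_or_pos l with h | h
    · subst h
      simp
    · rw [mul_assoc, ← pow_succ, Nat.sub_add_cancel h]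
  rw [e3]
  linear_combination (2 * Λ ^ 2 * max (qq J p x) 0 ^ (k + 2)) * e4

end

end Vale.Agent.P224.R2.H686
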