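import Vale.Agent.P224.R2.H686.Row

/-!
The rows of powers of `⟨x, J x⟩` and of `|J x|² - 1` for the least squares map `J`:
pointwise bounds inserted.
-/

namespace Vale.Agent.P224.R2.H686

open MeasureTheory Module Function Set Vale.Agent.P224.R2.H470
open scoped RealInnerProductSpace Topology ContDiff

set_option linter.unusedSectionVars false

section

variable {X : Type*} {E : Type*} [NormedAddCommGroup E] [InnerProductSpace ℝ E]
  [FiniteDimensional ℝ E] [TopologicalSpace X] [MeasurableSpace X] [CompactSpace X] [BorelSpace X]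
  {μ : Measure X} [IsProbabilityMeasure μ] {m : ℕ} {p n : X → E} {J : E →L[ℝ] E}

/-- the data: a symmetric `J` with `|J| ≤ Λ √m`, the residual `N - J x` has no symmetric
correlation with `x` (least squares) -/
structure Dat (μ : Measure X) (m : ℕ) (p n : X → E) (J : E →L[ℝ] E) (Λ : ℝ) : Prop where
  h : OneP μ m p n
  m1 : 1 ≤ m
  sym : ∀ u v, ⟪J u, v⟫ = ⟪u, J v⟫
  l0 : 0 ≤ Λ
  nJ : ∀ v, ‖J v‖ ≤ Λ * √m * ‖v‖
  ls : ∀ A : E →L[ℝ] E, (∀ u v, ⟪A u, v⟫ = ⟪u, A v⟫) → ∫ x, ⟪n x - J (p x), A (p x)⟫ ∂μ = 0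

/-- the residual -/
noncomputable def zz (J : E →L[ℝ] E) (p n : X → E) (x : X) : E := n x - J (p x)

/-- its square -/
noncomputable def aa (J : E →L[ℝ] E) (p n : X → E) (x : X) : ℝ := ‖zz J p n x‖ ^ 2

/-- the form at the point -/
noncomputable def ff (J : E →L[ℝ] E) (p : X → E) (x : X) : ℝ := fF J (p x)

/-- the defect at the point -/
noncomputable def qq (J : E →L[ℝ] E) (p : X → E) (x : X) : ℝ := fQ J (p x)

/-- the inner product of the residual with the normal -/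
noncomputable def cc (J : E →L[ℝ] E) (p n : X → E) (x : X) : ℝ := ⟪n x, zz J p n x⟫

variable {Λ : ℝ}

lemma Dat.cz (d : Dat μ m p n J Λ) : Continuous (zz J p n) := by
  have cp := d.h.cp
  have cn := d.h.cn
  unfold zz
  fun_prop

lemma Dat.ca (d : Dat μ m p n J Λ) : Continuous (aa J p n) := by
  have := d.cz
  unfold aa
  fun_prop

lemma Dat.cf (d : Dat μ m p n J Λ) : Continuous (ff J p) := by
  have cp := d.h.cp
  unfold ff
  fun_prop

lemma Dat.cq (d : Dat μ m p n J Λ) : Continuous (qq J p) := by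
  have cp := d.h.cp
  unfold qq
  fun_prop

lemma Dat.cc (d : Dat μ m p n J Λ) : Continuous (cc J p n) := by
  have := d.cz
  have cn := d.h.cn
  unfold H686.cc
  fun_prop

lemma Dat.q_eq (d : Dat μ m p n J Λ) (x : X) : qq J p x = ‖J (p x)‖ ^ 2 - 1 := fQ_eq d.sym _

lemma Dat.q_ge (d : Dat μ m p n J Λ) (x : X) : -1 ≤ qq J p x := by
  rw [d.q_eq]
  nlinarith [sq_nonneg ‖J (p x)‖]

/-- `⟨N, J x⟩ = 1 - c` -/
lemma Dat.nJp (d : Dat μ m p n J Λ) (x : X) : ⟪n x, J (p x)⟫ = 1 - H686.cc J p n x := by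
  simp only [H686.cc, zz, inner_sub_right, d.h.nnn x]
  ring

/-- `a = q + 2 c` -/
lemma Dat.a_eq (d : Dat μ m p n J Λ) (x : X) :
    aa J p n x = qq J p x + 2 * H686.cc J p n x := by
  have h1 := d.nJp x
  have h2 := d.h.nn x
  rw [d.q_eq, aa, zz, norm_sub_sq_real, h2, h1]
  ring

lemma Dat.f_eq (d : Dat μ m p n J Λ) (x : X) : ff J p x = - ⟪zz J p n x, p x⟫ := by
  simp only [ff, fF, zz, inner_sub_left, d.h.np' x]
  rw [real_inner_comm (p x) (J (p x))]
  ring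

/-- the size of the first tangential field -/
lemma Dat.t1_sq (d : Dat μ m p n J Λ) (x : X) :
    ‖T1 J p n x‖ ^ 2 = aa J p n x - H686.cc J p n x ^ 2 - ff J p x ^ 2 := by
  rw [T1, norm_tg_sq d.h, d.nJp, d.a_eq, d.q_eq, ff, fF]
  ring

lemma Dat.t1_le (d : Dat μ m p n J Λ) (x : X) :
    ‖T1 J p n x‖ ^ 2 ≤ aa J p n x - (aa J p n x - qq J p x) ^ 2 / 4 := by
  have h1 := d.t1_sq x
  have h2 := d.a_eq x
  have h3 : H686.cc J p n x = (aa J p n x - qq J p x) / 2 := by linarith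
  rw [h1, h3]
  nlinarith [sq_nonneg (ff J p x)]

/-- the size of the second tangential field -/
lemma Dat.t2_le (d : Dat μ m p n J Λ) (x : X) :
    ‖T2 J p n x‖ ^ 2 ≤ Λ ^ 2 * m * (1 + qq J p x) := by
  have h1 := norm_tg_le d.h x (J (J (p x)))
  have h2 := d.nJ (J (p x))
  have h3 : ‖T2 J p n x‖ ≤ Λ * √m * ‖J (p x)‖ := h1.trans h2
  have h4 := pow_le_pow_left₀ (norm_nonneg _) h3 2
  have h5 : (Λ * √m * ‖J (p x)‖) ^ 2 = Λ ^ 2 * m * (1 + qq J p x) := by
    rw [d.q_eq, mul_pow, mul_pow, Real.sq_sqrt (Nat.cast_nonneg m)]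
    ring
  rwa [h5] at h4

/-- the trace of `J` -/
noncomputable def trJ (J : E →L[ℝ] E) : ℝ := LinearMap.trace ℝ E (J : E →ₗ[ℝ] E)

/-- `⟨N, J N⟩` -/
noncomputable def gg (J : E →L[ℝ] E) (n : X → E) (x : X) : ℝ := ⟪n x, J (n x)⟫

lemma Dat.cg (d : Dat μ m p n J Λ) : Continuous (gg J n) := by
  have cn := d.h.cn
  unfold gg
  fun_prop

lemma Dat.g_le (d : Dat μ m p n J Λ) (x : X) : |gg J n x| ≤ Λ * √m := by
  have h1 := abs_real_inner_le_norm (n x) (J (n x))
  have h2 := d.nJ (n x)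
  rw [d.h.nn, one_mul] at h1
  rw [d.h.nn, mul_one] at h2
  exact h1.trans h2

/-- the correlation of the residual with a symmetric image of `x` vanishes -/
lemma Dat.ls' (d : Dat μ m p n J Λ) {A : E →L[ℝ] E} (hA : ∀ u v, ⟪A u, v⟫ = ⟪u, A v⟫) :
    ∫ x, ⟪zz J p n x, A (p x)⟫ ∂μ = 0 := d.ls A hA

/-- `E f = 0` -/
lemma Dat.Ef (d : Dat μ m p n J Λ) : ∫ x, ff J p x ∂μ = 0 := by
  have h1 := d.ls' (A := ContinuousLinearMap.id ℝ E) fun _ _ => rfl
  simp only [ContinuousLinearMap.coe_id', id_eq] at h1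
  simp only [d.f_eq]
  rw [integral_neg, h1, neg_zero]

/-- `E c = E a` -/
lemma Dat.Ec (d : Dat μ m p n J Λ) : ∫ x, H686.cc J p n x ∂μ = ∫ x, aa J p n x ∂μ := by
  have h1 := d.ls' d.sym
  have cp := d.h.cp
  have cz := d.cz
  have ca := d.ca
  have h2 : ∀ x, H686.cc J p n x = aa J p n x + ⟪zz J p n x, J (p x)⟫ := by
    intro x
    have h3 : aa J p n x = ⟪zz J p n x, zz J p n x⟫ := by
      rw [aa, real_inner_self_eq_norm_sq]
    rw [h3, ← inner_add_right, H686.cc, real_inner_comm]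
    congr 1
    simp [zz]
  simp only [h2]
  rw [integral_add (int_of_cont ca) (int_of_cont (by fun_prop)), h1, add_zero]

/-- `E q = - E a` -/
lemma Dat.Eq (d : Dat μ m p n J Λ) : ∫ x, qq J p x ∂μ = -∫ x, aa J p n x ∂μ := by
  have h1 := d.Ec
  have ca := d.ca
  have ccc := d.cc
  have h2 : ∀ x, qq J p x = aa J p n x - 2 * H686.cc J p n x := by
    intro x
    have := d.a_eq x
    linarith
  simp only [h2]
  rw [integral_sub (int_of_cont ca) (int_of_cont (by fun_prop)), integral_const_mul, h1]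
  ring

/-- `tr J = E ⟨N, J N⟩` -/
lemma Dat.trJ_eq (d : Dat μ m p n J Λ) : trJ J = ∫ x, gg J n x ∂μ := by
  have h1 := mono_row d.h d.sym J 0 0
  have cg := d.cg
  simp only [pow_zero, one_mul, Nat.cast_zero, mul_zero, zero_mul, add_zero, mul_one] at h1
  have h2 : ∫ x, ⟪p x, J (p x)⟫ ∂μ = 0 := d.Ef
  have h3 : ∫ x, (trJ J - gg J n x) ∂μ = trJ J - ∫ x, gg J n x ∂μ := by
    rw [integral_sub (integrable_const _) (int_of_cont cg)]
    simp
  have h4 : ∫ x, (LinearMap.trace ℝ E (J : E →ₗ[ℝ] E) - ⟪n x, J (n x)⟫) ∂μ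
      = ∫ x, (trJ J - gg J n x) ∂μ := rfl
  rw [h2, mul_zero, h4, h3] at h1
  linarith

lemma Dat.trJ_le (d : Dat μ m p n J Λ) : |trJ J| ≤ Λ * √m := by
  rw [d.trJ_eq, ← Real.norm_eq_abs]
  have h1 := norm_integral_le_of_norm_le_const (μ := μ) (f := gg J n) (C := Λ * √m)
    (Filter.Eventually.of_forall fun x => by rw [Real.norm_eq_abs]; exact d.g_le x)
  rwa [probReal_univ, mul_one] at h1

/-- the exact row of an even power of `f` -/
theorem Dat.rowF (d : Dat μ m p n J Λ) (i : ℕ) :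
    (m + 1) * ∫ x, ff J p x ^ (2 * i + 2) ∂μ
      = ∫ x, ff J p x ^ (2 * i + 1) * (trJ J - gg J n x) ∂μ
        + (4 * i + 2) * ∫ x, ff J p x ^ (2 * i) * ‖T1 J p n x‖ ^ 2 ∂μ := by
  have h1 := mono_row d.h d.sym J (2 * i + 1) 0
  have cf := d.cf
  have cg := d.cg
  have c1 := cont_T1 d.h J
  rw [← integral_const_mul (4 * i + 2 : ℝ), ← integral_add (int_of_cont (by fun_prop))
    (int_of_cont (by fun_prop))]
  have e1 : ∫ x, ff J p x ^ (2 * i + 2) ∂μ
      = ∫ x, fF J (p x) ^ (2 * i + 1) * fQ J (p x) ^ 0 * ⟪p x, J (p x)⟫ ∂μ := by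
    refine integral_congr_ae (Filter.Eventually.of_forall fun x => ?_)
    simp only [ff, fF]
    ring
  rw [e1, h1]
  refine integral_congr_ae (Filter.Eventually.of_forall fun x => ?_)
  simp only [ff, gg, trJ, T1, pow_zero, mul_one, Nat.cast_zero, mul_zero, zero_mul, add_zero,
    Nat.add_sub_cancel, real_inner_self_eq_norm_sq]
  push_cast
  ring

end

end Vale.Agent.P224.R2.H686
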