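import Vale.Agent.P224.R2.H686.RowF

/-!
The rows of powers of `φ = √m |⟨x, J x⟩|` and of `q = |J x|² - 1` in the form of inequalities.
-/

namespace Vale.Agent.P224.R2.H686

open MeasureTheory Module Function Set Vale.Agent.P224.R2.H470
open scoped RealInnerProductSpace Topology ContDiff

set_option linter.unusedSectionVars false

section

variable {X : Type*} {E : Type*} [NormedAddCommGroup E] [InnerProductSpace ℝ E]
  [FiniteDimensional ℝ E] [TopologicalSpace X] [MeasurableSpace X] [CompactSpace X] [BorelSpace X]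
  {μ : Measure X} [IsProbabilityMeasure μ] {m : ℕ} {p n : X → E} {J : E →L[ℝ] E} {Λ : ℝ}

/-- the normalised form `√m |⟨x, J x⟩|` -/
noncomputable def ph (m : ℕ) (J : E →L[ℝ] E) (p : X → E) (x : X) : ℝ := √m * |ff J p x|

/-- the upper bound of the square of the first tangential field -/
noncomputable def tau (J : E →L[ℝ] E) (p n : X → E) (x : X) : ℝ :=
  aa J p n x - (aa J p n x - qq J p x) ^ 2 / 4

lemma ph_nonneg (x : X) : 0 ≤ ph m J p x := mul_nonneg (Real.sqrt_nonneg _) (abs_nonneg _)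

lemma Dat.cph (d : Dat μ m p n J Λ) : Continuous (ph m J p) := by
  have := d.cf
  unfold ph
  fun_prop

lemma Dat.ctau (d : Dat μ m p n J Λ) : Continuous (tau J p n) := by
  have := d.ca
  have := d.cq
  unfold tau
  fun_prop

lemma Dat.tau_nonneg (d : Dat μ m p n J Λ) (x : X) : 0 ≤ tau J p n x :=
  (sq_nonneg _).trans (d.t1_le x)

lemma tau_le (x : X) : tau J p n x ≤ 1 + qq J p x := by
  unfold tau
  nlinarith [sq_nonneg (aa J p n x - qq J p x - 2)]

lemma ph_even (i : ℕ) (x : X) : ph m J p x ^ (2 * i) = (m : ℝ) ^ i * ff J p x ^ (2 * i) := by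
  rw [ph, mul_pow, pow_mul, pow_mul, Real.sq_sqrt (Nat.cast_nonneg m), sq_abs, pow_mul]

lemma ph_odd (i : ℕ) (x : X) :
    ph m J p x ^ (2 * i + 1) = (m : ℝ) ^ i * √m * |ff J p x ^ (2 * i + 1)| := by
  rw [pow_succ, ph_even, ph, abs_pow, pow_succ, pow_mul |ff J p x|, sq_abs, ← pow_mul]
  ring

lemma Dat.m_pos (d : Dat μ m p n J Λ) : (0 : ℝ) < m := by exact_mod_cast d.m1

lemma Dat.tg_diff (d : Dat μ m p n J Λ) (x : X) : |trJ J - gg J n x| ≤ 2 * Λ * √m := by
  have h1 := abs_sub (trJ J) (gg J n x)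
  have h2 := d.trJ_le
  have h3 := d.g_le x
  linarith

/-- the row of `φ ^ (2 i + 2)`, general bound of the difference of `tr J` and `⟨N, J N⟩` -/
theorem Dat.F_row' (d : Dat μ m p n J Λ) (i : ℕ) {L : ℝ}
    (hL : ∀ x, |trJ J - gg J n x| ≤ L * √m) :
    ∫ x, ((m + 1) / m * ph m J p x ^ (2 * i + 2)
      - (4 * i + 2) * ph m J p x ^ (2 * i) * (aa J p n x - H686.cc J p n x ^ 2 - ff J p x ^ 2)
      - L * ph m J p x ^ (2 * i + 1)) ∂μ ≤ 0 := by
  have h1 := d.rowF i
  have cph := d.cph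
  have ca := d.ca
  have cc := d.cc
  have cf := d.cf
  have cg := d.cg
  have c1 := cont_T1 d.h J
  have hm := d.m_pos
  have hmi : (0 : ℝ) < (m : ℝ) ^ i := pow_pos hm i
  have e1 : ∫ x, ((m + 1) / m * ph m J p x ^ (2 * i + 2)
      - (4 * i + 2) * ph m J p x ^ (2 * i) * (aa J p n x - H686.cc J p n x ^ 2 - ff J p x ^ 2)
      - L * ph m J p x ^ (2 * i + 1)) ∂μ
      = (m : ℝ) ^ i * ((m + 1) * ∫ x, ff J p x ^ (2 * i + 2) ∂μ)
        - (m : ℝ) ^ i * ((4 * i + 2) * ∫ x, ff J p x ^ (2 * i) * ‖T1 J p n x‖ ^ 2 ∂μ)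
        - (m : ℝ) ^ i * ∫ x, L * √m * |ff J p x ^ (2 * i + 1)| ∂μ := by
    rw [← integral_const_mul, ← integral_const_mul, ← integral_const_mul, ← integral_const_mul,
      ← integral_const_mul, ← integral_sub (int_of_cont (by fun_prop)) (int_of_cont (by fun_prop)),
      ← integral_sub (int_of_cont (by fun_prop)) (int_of_cont (by fun_prop))]
    refine integral_congr_ae (Filter.Eventually.of_forall fun x => ?_)
    simp only
    rw [d.t1_sq x, ph_odd, ph_even i x, show 2 * i + 2 = 2 * (i + 1) by ring, ph_even (i + 1) x,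
      pow_succ (m : ℝ) i]
    field_simp
  rw [e1, ← mul_sub, ← mul_sub]
  refine mul_nonpos_of_nonneg_of_nonpos hmi.le ?_
  rw [h1]
  have h2 : ∫ x, ff J p x ^ (2 * i + 1) * (trJ J - gg J n x) ∂μ
      ≤ ∫ x, L * √m * |ff J p x ^ (2 * i + 1)| ∂μ := by
    refine integral_mono (int_of_cont (by fun_prop)) (int_of_cont (by fun_prop)) fun x => ?_
    simp only
    calc ff J p x ^ (2 * i + 1) * (trJ J - gg J n x)
        ≤ |ff J p x ^ (2 * i + 1) * (trJ J - gg J n x)| := le_abs_self _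
      _ = |trJ J - gg J n x| * |ff J p x ^ (2 * i + 1)| := by rw [abs_mul, mul_comm]
      _ ≤ L * √m * |ff J p x ^ (2 * i + 1)| :=
          mul_le_mul_of_nonneg_right (hL x) (abs_nonneg _)
  linarith

/-- the row of `φ ^ (2 i + 2)` -/
theorem Dat.F_row (d : Dat μ m p n J Λ) (i : ℕ) :
    ∫ x, (ph m J p x ^ (2 * i + 2) - (4 * i + 2) * ph m J p x ^ (2 * i) * tau J p n x
      - 2 * Λ * ph m J p x ^ (2 * i + 1)) ∂μ ≤ 0 := by
  have cph := d.cph
  have ca := d.ca
  have cc := d.cc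
  have cf := d.cf
  have ct := d.ctau
  refine le_trans ?_ (d.F_row' i d.tg_diff)
  refine integral_mono (int_of_cont (by fun_prop)) (int_of_cont (by fun_prop)) fun x => ?_
  simp only
  have hm := d.m_pos
  have h1 : aa J p n x - H686.cc J p n x ^ 2 - ff J p x ^ 2 ≤ tau J p n x := by
    rw [← d.t1_sq x]
    exact d.t1_le x
  have h2 : 0 ≤ ph m J p x ^ (2 * i) := pow_nonneg (ph_nonneg x) _
  have h3 : 0 ≤ ph m J p x ^ (2 * i + 2) := pow_nonneg (ph_nonneg x) _
  have h4 : (1 : ℝ) ≤ (m + 1) / m := by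
    rw [le_div_iff₀ hm]
    linarith
  have h5 := mul_le_mul_of_nonneg_left h1 (mul_nonneg (by positivity : (0 : ℝ) ≤ 4 * i + 2) h2)
  have h6 := mul_le_mul_of_nonneg_right h4 h3
  linarith

/-- the operator `J² - 1` -/
noncomputable def Wop (J : E →L[ℝ] E) : E →L[ℝ] E := J.comp J - ContinuousLinearMap.id ℝ E

/-- the trace of `J²` minus `m + 1` (when the dimension is `m + 2`) -/
noncomputable def t0 (J : E →L[ℝ] E) : ℝ := LinearMap.trace ℝ E (Wop J : E →ₗ[ℝ] E) + 1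

/-- `|J N|²` -/
noncomputable def kk (J : E →L[ℝ] E) (n : X → E) (x : X) : ℝ := ‖J (n x)‖ ^ 2

lemma Dat.ck (d : Dat μ m p n J Λ) : Continuous (kk J n) := by
  have cn := d.h.cn
  unfold kk
  fun_prop

lemma kk_nonneg (x : X) : 0 ≤ kk J n x := sq_nonneg _

lemma Dat.k_le (d : Dat μ m p n J Λ) (x : X) : kk J n x ≤ Λ ^ 2 * m := by
  have h1 := d.nJ (n x)
  rw [d.h.nn, mul_one] at h1
  have h2 := pow_le_pow_left₀ (norm_nonneg _) h1 2
  rwa [mul_pow, Real.sq_sqrt (Nat.cast_nonneg m)] at h2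

lemma Dat.nWn (d : Dat μ m p n J Λ) (x : X) : ⟪n x, Wop J (n x)⟫ = kk J n x - 1 := by
  simp only [Wop, _root_.sub_apply, ContinuousLinearMap.comp_apply,
    ContinuousLinearMap.coe_id', id_eq, inner_sub_right, d.h.nnn x, kk]
  rw [← d.sym, real_inner_self_eq_norm_sq]

lemma Dat.pWp (d : Dat μ m p n J Λ) (x : X) : ⟪p x, Wop J (p x)⟫ = qq J p x := by
  simp only [Wop, _root_.sub_apply, ContinuousLinearMap.comp_apply,
    ContinuousLinearMap.coe_id', id_eq, inner_sub_right, d.h.pp x, qq, fQ]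

lemma Dat.tgW (d : Dat μ m p n J Λ) (x : X) : tg p n x (Wop J (p x)) = T2 J p n x := by
  simp only [Wop, _root_.sub_apply, ContinuousLinearMap.comp_apply,
    ContinuousLinearMap.coe_id', id_eq, tg_sub, tg_p d.h x, sub_zero, T2]

/-- the general row with the field `W x` -/
theorem Dat.rowW (d : Dat μ m p n J Λ) (i k : ℕ) :
    (m + 1) * ∫ x, ff J p x ^ i * qq J p x ^ (k + 1) ∂μ
      = ∫ x, (ff J p x ^ i * qq J p x ^ k * (t0 J - kk J n x)
          + 2 * i * (ff J p x ^ (i - 1) * qq J p x ^ k) * ⟪T1 J p n x, T2 J p n x⟫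
          + 2 * k * (ff J p x ^ i * qq J p x ^ (k - 1)) * ‖T2 J p n x‖ ^ 2) ∂μ := by
  have h1 := mono_row d.h d.sym (Wop J) i k
  simp only [d.pWp, d.nWn, d.tgW, real_inner_self_eq_norm_sq] at h1
  have e1 : ∫ x, ff J p x ^ i * qq J p x ^ (k + 1) ∂μ
      = ∫ x, fF J (p x) ^ i * fQ J (p x) ^ k * qq J p x ∂μ := by
    refine integral_congr_ae (Filter.Eventually.of_forall fun x => ?_)
    simp only [ff, qq]
    ring
  rw [e1, h1]
  refine integral_congr_ae (Filter.Eventually.of_forall fun x => ?_)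
  simp only [ff, qq, t0]
  ring

/-- the general row with the field `J x` -/
theorem Dat.rowJ (d : Dat μ m p n J Λ) (i k : ℕ) :
    (m + 1) * ∫ x, ff J p x ^ (i + 1) * qq J p x ^ k ∂μ
      = ∫ x, (ff J p x ^ i * qq J p x ^ k * (trJ J - gg J n x)
          + 2 * i * (ff J p x ^ (i - 1) * qq J p x ^ k) * ‖T1 J p n x‖ ^ 2
          + 2 * k * (ff J p x ^ i * qq J p x ^ (k - 1)) * ⟪T1 J p n x, T2 J p n x⟫) ∂μ := by
  have h1 := mono_row d.h d.sym J i k
  have e1 : ∫ x, ff J p x ^ (i + 1) * qq J p x ^ k ∂μ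
      = ∫ x, fF J (p x) ^ i * fQ J (p x) ^ k * ⟪p x, J (p x)⟫ ∂μ := by
    refine integral_congr_ae (Filter.Eventually.of_forall fun x => ?_)
    simp only [ff, qq, fF]
    ring
  rw [e1, h1]
  refine integral_congr_ae (Filter.Eventually.of_forall fun x => ?_)
  simp only [ff, qq, gg, trJ, T1, real_inner_self_eq_norm_sq]
  rw [real_inner_comm (tg p n x (J (p x))) (T2 J p n x)]

/-- `t0 = E |J N|² - (m + 1) E a` -/
lemma Dat.t0_eq (d : Dat μ m p n J Λ) :
    t0 J = ∫ x, kk J n x ∂μ - (m + 1) * ∫ x, aa J p n x ∂μ := by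
  have h1 := d.rowW 0 0
  have ck := d.ck
  simp only [pow_zero, one_mul, zero_add, pow_one, Nat.cast_zero, mul_zero, zero_mul,
    add_zero] at h1
  rw [d.Eq, integral_sub (integrable_const _) (int_of_cont ck)] at h1
  simp only [integral_const, probReal_univ, smul_eq_mul, one_mul] at h1
  linarith

/-- the mean of `a` is nonnegative -/
lemma aa_int_nonneg : 0 ≤ ∫ x, aa J p n x ∂μ :=
  integral_nonneg fun _ => sq_nonneg _

lemma Dat.t0_le (d : Dat μ m p n J Λ) : t0 J ≤ Λ ^ 2 * m := by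
  have h1 := d.t0_eq
  have ck := d.ck
  have h2 : ∫ x, kk J n x ∂μ ≤ ∫ _, Λ ^ 2 * m ∂μ :=
    integral_mono (int_of_cont ck) (integrable_const _) fun x => d.k_le x
  simp only [integral_const, probReal_univ, smul_eq_mul, one_mul] at h2
  have h3 := mul_nonneg (by positivity : (0 : ℝ) ≤ (m : ℝ) + 1)
    (aa_int_nonneg (μ := μ) (J := J) (p := p) (n := n))
  linarith

lemma Dat.t0_ge (d : Dat μ m p n J Λ) : -((m + 1) * ∫ x, aa J p n x ∂μ) ≤ t0 J := by
  have h1 := d.t0_eq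
  have h2 : 0 ≤ ∫ x, kk J n x ∂μ := integral_nonneg fun x => kk_nonneg x
  linarith

/-- the row of `q ^ (2 k + 2)`, with the constant `e = t0 / (m + 1)` -/
theorem Dat.Q_row (d : Dat μ m p n J Λ) (k : ℕ) :
    ∫ x, (qq J p x ^ (2 * k + 2) - (4 * k + 2) * Λ ^ 2 * (qq J p x ^ (2 * k) * (1 + qq J p x))
      - t0 J / (m + 1) * qq J p x ^ (2 * k + 1) - Λ ^ 2 * max (-qq J p x) 0 ^ (2 * k + 1)) ∂μ
      ≤ 0 := by
  have h1 := d.rowW 0 (2 * k + 1)
  have cq := d.cq
  have ck := d.ck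
  have c2 := cont_T2 d.h J
  have hm := d.m_pos
  have hm1 : (0 : ℝ) < m + 1 := by linarith
  simp only [pow_zero, one_mul, Nat.cast_zero, mul_zero, zero_mul, add_zero,
    Nat.add_sub_cancel] at h1
  have h2 : ∫ x, (m + 1) * (qq J p x ^ (2 * k + 2)
      - (4 * k + 2) * Λ ^ 2 * (qq J p x ^ (2 * k) * (1 + qq J p x))
      - t0 J / (m + 1) * qq J p x ^ (2 * k + 1)
      - Λ ^ 2 * max (-qq J p x) 0 ^ (2 * k + 1)) ∂μ
      ≤ ∫ x, (m + 1) * qq J p x ^ (2 * k + 1 + 1) ∂μ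
        - ∫ x, (qq J p x ^ (2 * k + 1) * (t0 J - kk J n x)
          + 2 * ((2 * k + 1 : ℕ) : ℝ) * qq J p x ^ (2 * k) * ‖T2 J p n x‖ ^ 2) ∂μ := by
    rw [← integral_sub (int_of_cont (by fun_prop)) (int_of_cont (by fun_prop))]
    refine integral_mono (int_of_cont (by fun_prop)) (int_of_cont (by fun_prop)) fun x => ?_
    simp only
    have k1 := d.t2_le x
    have k2 : 0 ≤ qq J p x ^ (2 * k) := by
      rw [pow_mul]
      positivity
    have k3 := d.k_le x
    have k4 := kk_nonneg (J := J) (n := n) x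
    have k5 := d.q_ge x
    have k6 := mul_le_mul_of_nonneg_left k1 k2
    have k7 : qq J p x ^ (2 * k) * (Λ ^ 2 * m * (1 + qq J p x))
        ≤ (m + 1) * (Λ ^ 2 * (qq J p x ^ (2 * k) * (1 + qq J p x))) := by
      have : 0 ≤ Λ ^ 2 * (qq J p x ^ (2 * k) * (1 + qq J p x)) :=
        mul_nonneg (sq_nonneg _) (mul_nonneg k2 (by linarith))
      nlinarith
    have k8 : -(qq J p x ^ (2 * k + 1) * kk J n x)
        ≤ (m + 1) * (Λ ^ 2 * max (-qq J p x) 0 ^ (2 * k + 1)) := by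
      rcases le_total 0 (qq J p x) with hq | hq
      · have : 0 ≤ qq J p x ^ (2 * k + 1) * kk J n x := mul_nonneg (pow_nonneg hq _) k4
        have : 0 ≤ (m + 1) * (Λ ^ 2 * max (-qq J p x) 0 ^ (2 * k + 1)) :=
          mul_nonneg hm1.le (mul_nonneg (sq_nonneg _) (pow_nonneg (le_max_right _ _) _))
        linarith
      · rw [max_eq_left (by linarith)]
        have e1 : -(qq J p x ^ (2 * k + 1) * kk J n x)
            = (-qq J p x) ^ (2 * k + 1) * kk J n x := by
          rw [Odd.neg_pow ⟨k, rfl⟩]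
          ring
        have e2 : 0 ≤ (-qq J p x) ^ (2 * k + 1) := pow_nonneg (by linarith) _
        rw [e1]
        have e3 := mul_le_mul_of_nonneg_left k3 e2
        have e4 : 0 ≤ Λ ^ 2 * (-qq J p x) ^ (2 * k + 1) := mul_nonneg (sq_nonneg _) e2
        nlinarith
    have e5 : (m + 1) * (t0 J / (m + 1) * qq J p x ^ (2 * k + 1))
        = t0 J * qq J p x ^ (2 * k + 1) := by
      field_simp
    push_cast
    have e6 : (m + 1) * (qq J p x ^ (2 * k + 2)
      - (4 * k + 2) * Λ ^ 2 * (qq J p x ^ (2 * k) * (1 + qq J p x))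
      - t0 J / (m + 1) * qq J p x ^ (2 * k + 1)
      - Λ ^ 2 * max (-qq J p x) 0 ^ (2 * k + 1))
      = (m + 1) * qq J p x ^ (2 * k + 2)
        - (4 * k + 2) * ((m + 1) * (Λ ^ 2 * (qq J p x ^ (2 * k) * (1 + qq J p x))))
        - (m + 1) * (t0 J / (m + 1) * qq J p x ^ (2 * k + 1))
        - (m + 1) * (Λ ^ 2 * max (-qq J p x) 0 ^ (2 * k + 1)) := by ring
    rw [e6, e5]
    have k9 : (0 : ℝ) ≤ 4 * k + 2 := by positivity
    have k10 := mul_le_mul_of_nonneg_left (k6.trans k7) k9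
    nlinarith
  rw [integral_const_mul, integral_const_mul, h1] at h2
  have h3 : ((m : ℝ) + 1) * ∫ x, (qq J p x ^ (2 * k + 2)
      - (4 * k + 2) * Λ ^ 2 * (qq J p x ^ (2 * k) * (1 + qq J p x))
      - t0 J / (m + 1) * qq J p x ^ (2 * k + 1)
      - Λ ^ 2 * max (-qq J p x) 0 ^ (2 * k + 1)) ∂μ ≤ 0 := by linarith
  by_contra hc
  push Not at hc
  have := mul_pos hm1 hc
  linarith

end

end Vale.Agent.P224.R2.H686
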