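import Vale.Agent.P224.R2.H686.RowQ

/-!
The second row (with the normal) for two commuting symmetric maps.
-/

namespace Vale.Agent.P224.R2.H686

open MeasureTheory Module Function Set Vale.Agent.P224.R2.H470
open scoped RealInnerProductSpace Topology ContDiff

set_option linter.unusedSectionVars false

section

variable {X : Type*} {E : Type*} [NormedAddCommGroup E] [InnerProductSpace ℝ E]
  [FiniteDimensional ℝ E] [TopologicalSpace X] [MeasurableSpace X] [CompactSpace X] [BorelSpace X]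
  {μ : Measure X} [IsProbabilityMeasure μ] {m : ℕ} {p n : X → E}

/-- the second row with the bilinear functions of two linear maps -/
theorem two_row (h : OneP μ m p n) {A B : E →L[ℝ] E} (hA : ∀ u v, ⟪A u, v⟫ = ⟪u, A v⟫)
    (hB : ∀ u v, ⟪B u, v⟫ = ⟪u, B v⟫) (hAB : ∀ u, A (B u) = B (A u)) :
    ∫ x, (⟪n x, A (p x)⟫ * LinearMap.trace ℝ E (B : E →ₗ[ℝ] E)
        - ⟪n x, B (p x)⟫ * LinearMap.trace ℝ E (A : E →ₗ[ℝ] E)) ∂μ
      = (m + 2) * ∫ x, (⟪n x, A (p x)⟫ * ⟪p x, B (p x)⟫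
        - ⟪n x, B (p x)⟫ * ⟪p x, A (p x)⟫) ∂μ := by
  have cp := h.cp
  have cn := h.cn
  set e := stdOrthonormalBasis ℝ E with he
  have hi : ∀ b c, ∫ x, (⟪n x, e b⟫ * ((⟪A (e c), e b⟫ * ⟪B (p x), e c⟫
        + ⟪A (p x), e b⟫ * ⟪B (e c), e c⟫) - ⟪p x, e c⟫ * (2 * (⟪A (p x), e b⟫ * ⟪B (p x), e c⟫)))
        - ⟪n x, e c⟫ * ((⟪A (e b), e b⟫ * ⟪B (p x), e c⟫
        + ⟪A (p x), e b⟫ * ⟪B (e b), e c⟫) - ⟪p x, e b⟫ * (2 * (⟪A (p x), e b⟫ * ⟪B (p x), e c⟫)))) ∂μ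
      = m * ∫ x, (⟪n x, e b⟫ * ⟪p x, e c⟫ - ⟪n x, e c⟫ * ⟪p x, e b⟫)
        * (⟪A (p x), e b⟫ * ⟪B (p x), e c⟫) ∂μ := by
    intro b c
    have hf : ContDiff ℝ ∞ (fun u => ⟪A u, e b⟫ * ⟪B u, e c⟫) :=
      (A.contDiff.inner ℝ contDiff_const).mul (B.contDiff.inner ℝ contDiff_const)
    have hd : ∀ u, HasFDerivAt (fun u => ⟪A u, e b⟫ * ⟪B u, e c⟫)
        (⟪A u, e b⟫ • ((innerSL ℝ (e c)).comp B) + ⟪B u, e c⟫ • ((innerSL ℝ (e b)).comp A)) u := by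
      intro u
      have h1 : HasFDerivAt (fun u => ⟪A u, e b⟫) ((innerSL ℝ (e b)).comp A) u := by
        refine ((innerSL ℝ (e b)).comp A).hasFDerivAt.congr_of_eventuallyEq
          (Filter.Eventually.of_forall fun v => ?_)
        simp only [ContinuousLinearMap.comp_apply, innerSL_apply_apply]
        rw [real_inner_comm]
      have h2 : HasFDerivAt (fun u => ⟪B u, e c⟫) ((innerSL ℝ (e c)).comp B) u := by
        refine ((innerSL ℝ (e c)).comp B).hasFDerivAt.congr_of_eventuallyEq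
          (Filter.Eventually.of_forall fun v => ?_)
        simp only [ContinuousLinearMap.comp_apply, innerSL_apply_apply]
        rw [real_inner_comm]
      exact h1.mul h2
    have h3 := h.r2' hf hd (e b) (e c)
    rw [← h3]
    refine integral_congr_ae (Filter.Eventually.of_forall fun x => ?_)
    simp only [_root_.add_apply, _root_.smul_apply, ContinuousLinearMap.comp_apply,
      innerSL_apply_apply, smul_eq_mul]
    rw [real_inner_comm (B (e c)) (e c), real_inner_comm (A (e c)) (e b),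
      real_inner_comm (B (p x)) (e c), real_inner_comm (A (p x)) (e b),
      real_inner_comm (B (e b)) (e c), real_inner_comm (A (e b)) (e b)]
    ring
  have cI : ∀ b c, Continuous fun x => (⟪n x, e b⟫ * ((⟪A (e c), e b⟫ * ⟪B (p x), e c⟫
        + ⟪A (p x), e b⟫ * ⟪B (e c), e c⟫) - ⟪p x, e c⟫ * (2 * (⟪A (p x), e b⟫ * ⟪B (p x), e c⟫)))
        - ⟪n x, e c⟫ * ((⟪A (e b), e b⟫ * ⟪B (p x), e c⟫
        + ⟪A (p x), e b⟫ * ⟪B (e b), e c⟫)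
          - ⟪p x, e b⟫ * (2 * (⟪A (p x), e b⟫ * ⟪B (p x), e c⟫)))) := by
    intro b c
    fun_prop
  have cR : ∀ b c, Continuous fun x => (⟪n x, e b⟫ * ⟪p x, e c⟫ - ⟪n x, e c⟫ * ⟪p x, e b⟫)
        * (⟪A (p x), e b⟫ * ⟪B (p x), e c⟫) := by
    intro b c
    fun_prop
  have hs : ∑ b, ∑ c, ∫ x, (⟪n x, e b⟫ * ((⟪A (e c), e b⟫ * ⟪B (p x), e c⟫
        + ⟪A (p x), e b⟫ * ⟪B (e c), e c⟫) - ⟪p x, e c⟫ * (2 * (⟪A (p x), e b⟫ * ⟪B (p x), e c⟫)))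
        - ⟪n x, e c⟫ * ((⟪A (e b), e b⟫ * ⟪B (p x), e c⟫
        + ⟪A (p x), e b⟫ * ⟪B (e b), e c⟫) - ⟪p x, e b⟫ * (2 * (⟪A (p x), e b⟫ * ⟪B (p x), e c⟫)))) ∂μ
      = ∑ b, ∑ c, m * ∫ x, (⟪n x, e b⟫ * ⟪p x, e c⟫ - ⟪n x, e c⟫ * ⟪p x, e b⟫)
        * (⟪A (p x), e b⟫ * ⟪B (p x), e c⟫) ∂μ :=
    Finset.sum_congr rfl fun b _ => Finset.sum_congr rfl fun c _ => hi b c
  have s1 : ∀ u v : E, ∑ b, ⟪u, e b⟫ * ⟪v, e b⟫ = ⟪u, v⟫ := by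
    intro u v
    rw [← e.sum_inner_mul_inner]
    refine Finset.sum_congr rfl fun b _ => ?_
    rw [real_inner_comm v (e b)]
  have hL : ∑ b, ∑ c, ∫ x, (⟪n x, e b⟫ * ((⟪A (e c), e b⟫ * ⟪B (p x), e c⟫
        + ⟪A (p x), e b⟫ * ⟪B (e c), e c⟫) - ⟪p x, e c⟫ * (2 * (⟪A (p x), e b⟫ * ⟪B (p x), e c⟫)))
        - ⟪n x, e c⟫ * ((⟪A (e b), e b⟫ * ⟪B (p x), e c⟫
        + ⟪A (p x), e b⟫ * ⟪B (e b), e c⟫) - ⟪p x, e b⟫ * (2 * (⟪A (p x), e b⟫ * ⟪B (p x), e c⟫)))) ∂μ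
      = ∫ x, ((⟪n x, A (p x)⟫ * LinearMap.trace ℝ E (B : E →ₗ[ℝ] E)
        - ⟪n x, B (p x)⟫ * LinearMap.trace ℝ E (A : E →ₗ[ℝ] E))
        - 2 * (⟪n x, A (p x)⟫ * ⟪p x, B (p x)⟫ - ⟪n x, B (p x)⟫ * ⟪p x, A (p x)⟫)) ∂μ := by
    have e1 : ∀ b, ∑ c, ∫ x, (⟪n x, e b⟫ * ((⟪A (e c), e b⟫ * ⟪B (p x), e c⟫
        + ⟪A (p x), e b⟫ * ⟪B (e c), e c⟫) - ⟪p x, e c⟫ * (2 * (⟪A (p x), e b⟫ * ⟪B (p x), e c⟫)))
        - ⟪n x, e c⟫ * ((⟪A (e b), e b⟫ * ⟪B (p x), e c⟫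
        + ⟪A (p x), e b⟫ * ⟪B (e b), e c⟫) - ⟪p x, e b⟫ * (2 * (⟪A (p x), e b⟫ * ⟪B (p x), e c⟫)))) ∂μ
        = ∫ x, ∑ c, (⟪n x, e b⟫ * ((⟪A (e c), e b⟫ * ⟪B (p x), e c⟫
        + ⟪A (p x), e b⟫ * ⟪B (e c), e c⟫) - ⟪p x, e c⟫ * (2 * (⟪A (p x), e b⟫ * ⟪B (p x), e c⟫)))
        - ⟪n x, e c⟫ * ((⟪A (e b), e b⟫ * ⟪B (p x), e c⟫
        + ⟪A (p x), e b⟫ * ⟪B (e b), e c⟫)
          - ⟪p x, e b⟫ * (2 * (⟪A (p x), e b⟫ * ⟪B (p x), e c⟫)))) ∂μ := fun b =>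
      (integral_finsetSum _ fun c _ => int_of_cont (cI b c)).symm
    simp only [e1]
    rw [← integral_finsetSum _ fun b _ => int_of_cont (continuous_finsetSum _ fun c _ => cI b c)]
    refine integral_congr_ae (Filter.Eventually.of_forall fun x => ?_)
    simp only
    have t1 : ∑ b, ∑ c, ⟪n x, e b⟫ * (⟪A (e c), e b⟫ * ⟪B (p x), e c⟫) = ⟪n x, A (B (p x))⟫ := by
      have e2 : ∀ b, ∑ c, ⟪n x, e b⟫ * (⟪A (e c), e b⟫ * ⟪B (p x), e c⟫)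
          = ⟪n x, e b⟫ * ⟪A (B (p x)), e b⟫ := by
        intro b
        rw [← Finset.mul_sum]
        congr 1
        rw [hA (B (p x)) (e b), ← s1]
        refine Finset.sum_congr rfl fun c _ => ?_
        rw [hA, real_inner_comm (A (e b)) (e c)]
        ring
      simp only [e2]
      exact s1 _ _
    have t2 : ∑ b, ∑ c, ⟪n x, e b⟫ * (⟪A (p x), e b⟫ * ⟪B (e c), e c⟫)
        = ⟪n x, A (p x)⟫ * LinearMap.trace ℝ E (B : E →ₗ[ℝ] E) := by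
      rw [LinearMap.trace_eq_sum_inner _ e, ← s1 (n x) (A (p x)), Finset.sum_mul]
      refine Finset.sum_congr rfl fun b _ => ?_
      rw [Finset.mul_sum]
      refine Finset.sum_congr rfl fun c _ => ?_
      rw [ContinuousLinearMap.coe_coe, real_inner_comm (B (e c)) (e c)]
      ring
    have t3 : ∑ b, ∑ c, ⟪n x, e b⟫ * (⟪p x, e c⟫ * (2 * (⟪A (p x), e b⟫ * ⟪B (p x), e c⟫)))
        = 2 * (⟪n x, A (p x)⟫ * ⟪p x, B (p x)⟫) := by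
      rw [← s1 (n x) (A (p x)), ← s1 (p x) (B (p x)), Finset.sum_mul_sum, Finset.mul_sum]
      refine Finset.sum_congr rfl fun b _ => ?_
      rw [Finset.mul_sum]
      exact Finset.sum_congr rfl fun c _ => by ring
    have t4 : ∑ b, ∑ c, ⟪n x, e c⟫ * (⟪A (e b), e b⟫ * ⟪B (p x), e c⟫)
        = ⟪n x, B (p x)⟫ * LinearMap.trace ℝ E (A : E →ₗ[ℝ] E) := by
      rw [LinearMap.trace_eq_sum_inner _ e, ← s1 (n x) (B (p x)), Finset.sum_mul, Finset.sum_comm]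
      refine Finset.sum_congr rfl fun c _ => ?_
      rw [Finset.mul_sum]
      refine Finset.sum_congr rfl fun b _ => ?_
      rw [ContinuousLinearMap.coe_coe, real_inner_comm (A (e b)) (e b)]
      ring
    have t5 : ∑ b, ∑ c, ⟪n x, e c⟫ * (⟪A (p x), e b⟫ * ⟪B (e b), e c⟫) = ⟪n x, A (B (p x))⟫ := by
      rw [Finset.sum_comm]
      have e2 : ∀ c, ∑ b, ⟪n x, e c⟫ * (⟪A (p x), e b⟫ * ⟪B (e b), e c⟫)
          = ⟪n x, e c⟫ * ⟪A (B (p x)), e c⟫ := by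
        intro c
        rw [← Finset.mul_sum]
        congr 1
        rw [hAB, hB, ← s1]
        refine Finset.sum_congr rfl fun b _ => ?_
        rw [hB, real_inner_comm (B (e c)) (e b)]
      simp only [e2]
      exact s1 _ _
    have t6 : ∑ b, ∑ c, ⟪n x, e c⟫ * (⟪p x, e b⟫ * (2 * (⟪A (p x), e b⟫ * ⟪B (p x), e c⟫)))
        = 2 * (⟪n x, B (p x)⟫ * ⟪p x, A (p x)⟫) := by
      rw [mul_comm ⟪n x, B (p x)⟫, ← s1 (n x) (B (p x)), ← s1 (p x) (A (p x)),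
        Finset.sum_mul_sum, Finset.mul_sum]
      refine Finset.sum_congr rfl fun b _ => ?_
      rw [Finset.mul_sum]
      exact Finset.sum_congr rfl fun c _ => by ring
    have e3 : ∑ b, ∑ c, (⟪n x, e b⟫ * ((⟪A (e c), e b⟫ * ⟪B (p x), e c⟫
        + ⟪A (p x), e b⟫ * ⟪B (e c), e c⟫) - ⟪p x, e c⟫ * (2 * (⟪A (p x), e b⟫ * ⟪B (p x), e c⟫)))
        - ⟪n x, e c⟫ * ((⟪A (e b), e b⟫ * ⟪B (p x), e c⟫
        + ⟪A (p x), e b⟫ * ⟪B (e b), e c⟫)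
          - ⟪p x, e b⟫ * (2 * (⟪A (p x), e b⟫ * ⟪B (p x), e c⟫))))
        = ∑ b, ∑ c, ⟪n x, e b⟫ * (⟪A (e c), e b⟫ * ⟪B (p x), e c⟫)
          + ∑ b, ∑ c, ⟪n x, e b⟫ * (⟪A (p x), e b⟫ * ⟪B (e c), e c⟫)
          - ∑ b, ∑ c, ⟪n x, e b⟫ * (⟪p x, e c⟫ * (2 * (⟪A (p x), e b⟫ * ⟪B (p x), e c⟫)))
          - ∑ b, ∑ c, ⟪n x, e c⟫ * (⟪A (e b), e b⟫ * ⟪B (p x), e c⟫)
          - ∑ b, ∑ c, ⟪n x, e c⟫ * (⟪A (p x), e b⟫ * ⟪B (e b), e c⟫)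
          + ∑ b, ∑ c, ⟪n x, e c⟫ * (⟪p x, e b⟫ * (2 * (⟪A (p x), e b⟫ * ⟪B (p x), e c⟫))) := by
      simp only [← Finset.sum_add_distrib, ← Finset.sum_sub_distrib]
      exact Finset.sum_congr rfl fun b _ => Finset.sum_congr rfl fun c _ => by ring
    rw [e3, t1, t2, t3, t4, t5, t6]
    ring
  have hR : ∑ b, ∑ c, m * ∫ x, (⟪n x, e b⟫ * ⟪p x, e c⟫ - ⟪n x, e c⟫ * ⟪p x, e b⟫)
        * (⟪A (p x), e b⟫ * ⟪B (p x), e c⟫) ∂μ
      = m * ∫ x, (⟪n x, A (p x)⟫ * ⟪p x, B (p x)⟫ - ⟪n x, B (p x)⟫ * ⟪p x, A (p x)⟫) ∂μ := by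
    simp only [← Finset.mul_sum]
    congr 1
    have e1 : ∀ b, ∑ c, ∫ x, (⟪n x, e b⟫ * ⟪p x, e c⟫ - ⟪n x, e c⟫ * ⟪p x, e b⟫)
        * (⟪A (p x), e b⟫ * ⟪B (p x), e c⟫) ∂μ
        = ∫ x, ∑ c, (⟪n x, e b⟫ * ⟪p x, e c⟫ - ⟪n x, e c⟫ * ⟪p x, e b⟫)
        * (⟪A (p x), e b⟫ * ⟪B (p x), e c⟫) ∂μ := fun b =>
      (integral_finsetSum _ fun c _ => int_of_cont (cR b c)).symm
    simp only [e1]
    rw [← integral_finsetSum _ fun b _ => int_of_cont (continuous_finsetSum _ fun c _ => cR b c)]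
    refine integral_congr_ae (Filter.Eventually.of_forall fun x => ?_)
    simp only
    rw [← s1 (n x) (A (p x)), ← s1 (p x) (B (p x)), ← s1 (n x) (B (p x)), ← s1 (p x) (A (p x)),
      mul_comm (∑ b, ⟪n x, e b⟫ * ⟪B (p x), e b⟫), Finset.sum_mul_sum, Finset.sum_mul_sum,
      ← Finset.sum_sub_distrib]
    refine Finset.sum_congr rfl fun b _ => ?_
    rw [← Finset.sum_sub_distrib]
    exact Finset.sum_congr rfl fun c _ => by ring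
  rw [hL, hR, integral_sub (int_of_cont (by fun_prop)) (int_of_cont (by fun_prop)),
    integral_const_mul] at hs
  linarith

end

end Vale.Agent.P224.R2.H686
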